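import Mathlib

/-!
# Bang's plank theorem (finitely many closed planks) in a real Hilbert space

Auxiliary file for problem P243.
-/

namespace Vale.Agent.Lib.P243

open scoped RealInnerProductSpace Pointwise
open Finset

variable {V : Type*} [NormedAddCommGroup V] [InnerProductSpace ℝ V]

/-- `HasWidthGE C w`: in every unit direction the set `C` has width at least `w`. -/
def HasWidthGE (C : Set V) (w : ℝ) : Prop :=
  ∀ θ : V, ‖θ‖ = 1 → ∃ x ∈ C, ∃ y ∈ C, w ≤ ⟪y - x, θ⟫

/-- The sign `±1` attached to a boolean. -/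
def sgn (b : Bool) : ℝ := if b then 1 else -1

theorem sgn_not (b : Bool) : sgn (!b) = - sgn b := by
  cases b <;> simp [sgn]

theorem sgn_sq (b : Bool) : sgn b * sgn b = 1 := by
  cases b <;> simp [sgn]

theorem sgn_abs (b : Bool) : |sgn b| = 1 := by
  cases b <;> simp [sgn]

theorem sum_update_eq {ι M : Type*} [Fintype ι] [DecidableEq ι] [AddCommGroup M]
    (F : Bool → ι → M) (ε : ι → Bool) (k : ι) (b : Bool) :
    ∑ i, F (Function.update ε k b i) i = (∑ i, F (ε i) i) - F (ε k) k + F b k := by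
  rw [← Finset.add_sum_erase _ _ (Finset.mem_univ k),
    ← Finset.add_sum_erase (f := fun i => F (ε i) i) _ (Finset.mem_univ k)]
  have h : ∑ x ∈ univ.erase k, F (Function.update ε k b x) x = ∑ x ∈ univ.erase k, F (ε x) x := by
    apply Finset.sum_congr rfl
    intro x hx
    rw [Function.update_of_ne (Finset.ne_of_mem_erase hx)]
  rw [h, Function.update_self]
  abel

/-- **Bang's lemma**: for unit vectors `n i`, positive numbers `a i` and reals `c i` there are signs
such that the signed sum `y = ∑ ± a i • n i` satisfies `|⟪y, n k⟫ - c k| ≥ a k` for all `k`. -/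
theorem bang_lemma {ι : Type*} [Fintype ι] (n : ι → V) (hn : ∀ i, ‖n i‖ = 1)
    (a c : ι → ℝ) (ha : ∀ i, 0 < a i) :
    ∃ ε : ι → Bool, ∀ k, a k ≤ |⟪∑ i, (sgn (ε i) * a i) • n i, n k⟫ - c k| := by
  classical
  let Φ : (ι → Bool) → ℝ := fun ε =>
    ‖∑ i, (sgn (ε i) * a i) • n i‖ ^ 2 - 2 * ∑ i, sgn (ε i) * a i * c i
  obtain ⟨ε, -, hε⟩ := Finset.exists_max_image (Finset.univ : Finset (ι → Bool)) Φ
    ⟨fun _ => true, Finset.mem_univ _⟩
  refine ⟨ε, fun k => ?_⟩
  have h := hε (Function.update ε k (!ε k)) (Finset.mem_univ _)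
  set y := ∑ i, (sgn (ε i) * a i) • n i with hy
  have hy' : ∑ i, (sgn (Function.update ε k (!ε k) i) * a i) • n i
      = y - (2 * sgn (ε k) * a k) • n k := by
    rw [sum_update_eq (fun b i => (sgn b * a i) • n i) ε k (!ε k), sgn_not, ← hy]
    module
  have hc' : ∑ i, sgn (Function.update ε k (!ε k) i) * a i * c i
      = (∑ i, sgn (ε i) * a i * c i) - 2 * sgn (ε k) * a k * c k := by
    rw [sum_update_eq (fun b i => sgn b * a i * c i) ε k (!ε k), sgn_not]
    ring
  have hnorm : ‖y - (2 * sgn (ε k) * a k) • n k‖ ^ 2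
      = ‖y‖ ^ 2 - 4 * sgn (ε k) * a k * ⟪y, n k⟫ + 4 * a k ^ 2 := by
    rw [norm_sub_sq_real, norm_smul, inner_smul_right, hn k, Real.norm_eq_abs]
    have h1 : |2 * sgn (ε k) * a k| ^ 2 = 4 * a k ^ 2 := by
      rw [sq_abs]
      have := sgn_sq (ε k)
      nlinarith
    rw [mul_one, h1]
    ring
  simp only [Φ] at h
  rw [hy', hc', hnorm] at h
  have hk := ha k
  -- h : -4 s a ⟪y, n k⟫ + 4 a^2 + 4 s a c ≤ 0
  have h2 : a k ≤ sgn (ε k) * (⟪y, n k⟫ - c k) := by
    have h3 : 4 * a k * (a k - sgn (ε k) * (⟪y, n k⟫ - c k)) ≤ 0 := by nlinarith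
    by_contra hlt
    push Not at hlt
    have : 0 < 4 * a k * (a k - sgn (ε k) * (⟪y, n k⟫ - c k)) := by
      apply mul_pos (by linarith) (by linarith)
    linarith
  calc a k ≤ sgn (ε k) * (⟪y, n k⟫ - c k) := h2
    _ ≤ |sgn (ε k) * (⟪y, n k⟫ - c k)| := le_abs_self _
    _ = |⟪y, n k⟫ - c k| := by rw [abs_mul, sgn_abs, one_mul]

/-- If a compact convex set has width at least `w ≥ 0` in every direction, then it has a chord of
length `w` in every prescribed unit direction. -/
theorem exists_chord [CompleteSpace V] (C : Set V) (hC : Convex ℝ C) (hCc : IsCompact C)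
    (hne : C.Nonempty) (w : ℝ) (hw0 : 0 ≤ w) (hw : HasWidthGE C w) (n : V) (hn : ‖n‖ = 1) :
    ∃ p ∈ C, p + w • n ∈ C := by
  by_contra hcon
  push Not at hcon
  let D : Set V := (fun p => p + w • n) '' C
  have hDc : IsCompact D := hCc.image (by fun_prop)
  have hDconv : Convex ℝ D := by
    have : D = C + {w • n} := by
      ext x
      simp [D, Set.mem_add, eq_comm]
    rw [this]
    exact hC.add (convex_singleton _)
  have hdisj : Disjoint C D := by
    rw [Set.disjoint_left]
    rintro x hx ⟨p, hp, rfl⟩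
    exact hcon p hp hx
  obtain ⟨f, s, t, hfs, hst, hft⟩ :=
    geometric_hahn_banach_compact_closed hC hCc hDconv hDc.isClosed hdisj
  -- represent f by a vector
  set θ' : V := (InnerProductSpace.toDual ℝ V).symm f with hθ'
  have hf : ∀ x, f x = ⟪θ', x⟫ := by
    intro x
    rw [hθ', InnerProductSpace.toDual_symm_apply]
  obtain ⟨x0, hx0⟩ := hne
  have hθ'ne : θ' ≠ 0 := by
    intro h0
    have h1 := hfs x0 hx0
    have h2 := hft (x0 + w • n) ⟨x0, hx0, rfl⟩
    rw [hf, h0, inner_zero_left] at h1 h2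
    linarith
  have hpos : 0 < ‖θ'‖ := norm_pos_iff.mpr hθ'ne
  obtain ⟨x, hx, y, hy, hxy⟩ := hw ((‖θ'‖)⁻¹ • θ') (by
    rw [norm_smul, norm_inv, norm_norm, inv_mul_cancel₀ hpos.ne'])
  have h1 := hfs y hy
  have h2 := hft (x + w • n) ⟨x, hx, rfl⟩
  rw [hf] at h1 h2
  rw [inner_add_right, inner_smul_right] at h2
  rw [inner_smul_right, real_inner_comm] at hxy
  have h3 : ⟪θ', n⟫ ≤ ‖θ'‖ := by
    have := real_inner_le_norm θ' n
    rw [hn, mul_one] at this
    exact this
  have h4 : w * ‖θ'‖ ≤ ⟪θ', y - x⟫ := by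
    have := mul_le_mul_of_nonneg_left hxy hpos.le
    rw [← mul_assoc, mul_inv_cancel₀ hpos.ne', one_mul] at this
    linarith
  rw [inner_sub_right] at h4
  have h5 : w * ⟪θ', n⟫ ≤ w * ‖θ'‖ := mul_le_mul_of_nonneg_left h3 hw0
  linarith

/-- Key step of Bang's proof: if `2 * ∑ a i < w` and `C` has width at least `w` in every direction,
then some translate of the set of all signed sums `∑ ± a i • n i` lies in `C`. -/
theorem exists_translate [CompleteSpace V] {ι : Type*} [DecidableEq ι] (n : ι → V) (a : ι → ℝ)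
    (s : Finset ι) (hn : ∀ i ∈ s, ‖n i‖ = 1) (ha : ∀ i ∈ s, 0 ≤ a i) :
    ∀ (C : Set V) (w : ℝ), Convex ℝ C → IsCompact C → C.Nonempty → HasWidthGE C w →
      2 * ∑ i ∈ s, a i < w →
      ∃ t : V, ∀ ε : ι → Bool, t + ∑ i ∈ s, (sgn (ε i) * a i) • n i ∈ C := by
  induction s using Finset.induction_on with
  | empty =>
    intro C w _ _ hne _ _
    obtain ⟨t, ht⟩ := hne
    exact ⟨t, fun ε => by simpa using ht⟩
  | insert j s hj ih =>
    intro C w hC hCc hne hw hlt
    have hnj : ‖n j‖ = 1 := hn j (Finset.mem_insert_self j s)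
    have haj : 0 ≤ a j := ha j (Finset.mem_insert_self j s)
    have hns : ∀ i ∈ s, ‖n i‖ = 1 := fun i hi => hn i (Finset.mem_insert_of_mem hi)
    have has : ∀ i ∈ s, 0 ≤ a i := fun i hi => ha i (Finset.mem_insert_of_mem hi)
    rw [Finset.sum_insert hj] at hlt
    have hsum : 0 ≤ ∑ i ∈ s, a i := Finset.sum_nonneg has
    have hw0 : 0 < w := by linarith
    obtain ⟨p, hp, hpw⟩ := exists_chord C hC hCc hne w hw0.le hw (n j) hnj
    set lam : ℝ := 2 * a j / w with hlam
    have hlam0 : 0 ≤ lam := div_nonneg (by linarith) hw0.le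
    have hlam1 : lam < 1 := by
      rw [hlam, div_lt_one hw0]
      linarith
    have hlamw : lam * w = 2 * a j := by
      rw [hlam]
      field_simp
    set q : V := p + (w / 2) • n j with hq
    let C' : Set V := (1 - lam) • C + {lam • q}
    have hC' : Convex ℝ C' := (hC.smul (1 - lam)).add (convex_singleton _)
    have hC'c : IsCompact C' := (hCc.smul (1 - lam)).add isCompact_singleton
    have hC'ne : C'.Nonempty := (hne.smul_set).add (Set.singleton_nonempty _)
    have hmem : ∀ x, x ∈ C' ↔ ∃ c ∈ C, x = (1 - lam) • c + lam • q := by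
      intro x
      simp only [C', Set.mem_add, Set.mem_smul_set, Set.mem_singleton_iff]
      constructor
      · rintro ⟨_, ⟨c, hc, rfl⟩, _, rfl, rfl⟩
        exact ⟨c, hc, rfl⟩
      · rintro ⟨c, hc, rfl⟩
        exact ⟨_, ⟨c, hc, rfl⟩, _, rfl, rfl⟩
    have hw' : HasWidthGE C' (w - 2 * a j) := by
      intro θ hθ
      obtain ⟨x, hx, y, hy, hxy⟩ := hw θ hθ
      refine ⟨(1 - lam) • x + lam • q, (hmem _).2 ⟨x, hx, rfl⟩,
        (1 - lam) • y + lam • q, (hmem _).2 ⟨y, hy, rfl⟩, ?_⟩
      have : (1 - lam) • y + lam • q - ((1 - lam) • x + lam • q) = (1 - lam) • (y - x) := by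
        module
      rw [this, inner_smul_left]
      simp only [conj_trivial]
      have h1 : (1 - lam) * w ≤ (1 - lam) * ⟪y - x, θ⟫ :=
        mul_le_mul_of_nonneg_left hxy (by linarith)
      have h2 : (1 - lam) * w = w - 2 * a j := by
        rw [← hlamw]
        ring
      linarith
    obtain ⟨t, ht⟩ := ih hns has C' (w - 2 * a j) hC' hC'c hC'ne hw' (by linarith)
    refine ⟨t, fun ε => ?_⟩
    obtain ⟨c, hc, hceq⟩ := (hmem _).1 (ht ε)
    rw [Finset.sum_insert hj]
    have hrw : t + ((sgn (ε j) * a j) • n j + ∑ i ∈ s, (sgn (ε i) * a i) • n i)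
        = (1 - lam) • c + lam • q + (sgn (ε j) * a j) • n j := by
      rw [← hceq]
      abel
    rw [hrw]
    have haj' : a j = lam * (w / 2) := by
      rw [mul_div_assoc', hlamw]
      ring
    cases hεj : ε j with
    | true =>
      have : (1 - lam) • c + lam • q + (sgn true * a j) • n j
          = (1 - lam) • c + lam • (p + w • n j) := by
        simp only [sgn, if_true, one_mul]
        rw [hq, haj']
        module
      rw [this]
      exact hC hc hpw (by linarith) hlam0 (by ring)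
    | false =>
      have : (1 - lam) • c + lam • q + (sgn false * a j) • n j
          = (1 - lam) • c + lam • p := by
        simp only [sgn, Bool.false_eq_true, if_false]
        rw [hq, haj']
        module
      rw [this]
      exact hC hc hp (by linarith) hlam0 (by ring)

/-- **Bang's plank theorem** for finitely many closed planks: if a compact convex set `C` of a real
Hilbert space, of width at least `w` in every direction, is covered by the planks
`{x | |⟪x, n i⟫ - c i| ≤ a i}` (with unit normals `n i`), then `w ≤ ∑ 2 * a i`. -/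
theorem bang_plank [CompleteSpace V] {ι : Type*} [Fintype ι] (C : Set V) (hC : Convex ℝ C)
    (hCc : IsCompact C) (hne : C.Nonempty) (w : ℝ) (hw : HasWidthGE C w)
    (n : ι → V) (hn : ∀ i, ‖n i‖ = 1) (c a : ι → ℝ) (ha : ∀ i, 0 ≤ a i)
    (hcov : ∀ x ∈ C, ∃ i, |⟪x, n i⟫ - c i| ≤ a i) : w ≤ 2 * ∑ i, a i := by
  classical
  by_contra hlt
  push Not at hlt
  set N : ℝ := (Fintype.card ι : ℝ) with hN
  have hN0 : 0 ≤ N := Nat.cast_nonneg _
  set η : ℝ := (w - 2 * ∑ i, a i) / (2 * (N + 1)) with hη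
  have hη0 : 0 < η := div_pos (by linarith) (by linarith)
  let a' : ι → ℝ := fun i => a i + η
  have ha' : ∀ i, 0 < a' i := fun i => by
    have := ha i
    simp only [a']
    linarith
  have hsum' : 2 * ∑ i, a' i < w := by
    simp only [a']
    rw [Finset.sum_add_distrib, Finset.sum_const, Finset.card_univ, nsmul_eq_mul, ← hN]
    have h1 : 2 * (N + 1) * η = w - 2 * ∑ i, a i := by
      rw [hη]
      field_simp
    nlinarith
  obtain ⟨t, ht⟩ := exists_translate n a' Finset.univ (fun i _ => hn i) (fun i _ => (ha' i).le)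
    C w hC hCc hne hw hsum'
  obtain ⟨ε, hε⟩ := bang_lemma n hn a' (fun i => c i - ⟪t, n i⟫) ha'
  obtain ⟨k, hk⟩ := hcov _ (ht ε)
  have h1 := hε k
  rw [inner_add_left] at hk
  have h2 : ⟪t, n k⟫ + ⟪∑ i, (sgn (ε i) * a' i) • n i, n k⟫ - c k
      = ⟪∑ i, (sgn (ε i) * a' i) • n i, n k⟫ - (c k - ⟪t, n k⟫) := by ring
  rw [h2] at hk
  have : a' k ≤ a k := le_trans h1 hk
  simp only [a'] at this
  linarith

end Vale.Agent.Lib.P243
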