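import Vale.Agent.Lib.P243.Planks

/-!
# The half-area inequality for cylinders with horizontal axes, in coordinates

Auxiliary file for problem P243.  Here a point of space is a pair `(x, z)` with `x` in a
finite-dimensional real inner product space `V` (the horizontal part) and `z : ℝ` (the height).
-/

namespace Vale.Agent.Lib.P243

open scoped RealInnerProductSpace Pointwise
open MeasureTheory

variable {V : Type*} [NormedAddCommGroup V] [InnerProductSpace ℝ V]

theorem slice_compact (K : Set (V × ℝ)) (hKc : IsCompact K) (z : ℝ) :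
    IsCompact {x : V | (x, z) ∈ K} := by
  have h : {x : V | (x, z) ∈ K} = Prod.fst '' (K ∩ {p | p.2 = z}) := by
    ext x
    constructor
    · intro hx
      exact ⟨(x, z), ⟨hx, rfl⟩, rfl⟩
    · rintro ⟨p, ⟨hp, hpz⟩, rfl⟩
      have hpz' : p.2 = z := hpz
      have : (p.1, z) = p := by rw [← hpz']
      show (p.1, z) ∈ K
      rw [this]
      exact hp
  rw [h]
  exact (hKc.inter_right (isClosed_eq continuous_snd continuous_const)).image continuous_fst

theorem slice_convex (K : Set (V × ℝ)) (hK : Convex ℝ K) (z : ℝ) :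
    Convex ℝ {x : V | (x, z) ∈ K} := by
  intro x hx y hy a b ha hb hab
  have h := hK hx hy ha hb hab
  have h2 : a • (x, z) + b • (y, z) = (a • x + b • y, z) := by
    ext
    · simp
    · simp only [Prod.snd_add, Prod.smul_snd, smul_eq_mul]
      rw [← add_mul, hab, one_mul]
  rw [h2] at h
  exact h

/-- Slice inequality: the slice of `K` at a height between the middle height `c` and the height of
a point `pe ∈ K` contains a homothetic copy of the middle slice, hence by the plank theorem the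
slices of the bases at that height have total length at least `(1 - lam) * w`. -/
theorem slice_bound [CompleteSpace V] {m : ℕ} (K : Set (V × ℝ)) (hK : Convex ℝ K)
    (Kc : Set V) (hKc_conv : Convex ℝ Kc) (hKc_comp : IsCompact Kc) (hKc_ne : Kc.Nonempty)
    (c : ℝ) (hKc : ∀ x ∈ Kc, (x, c) ∈ K) (w : ℝ) (hw : HasWidthGE Kc w)
    (n : Fin m → V) (hn : ∀ i, ‖n i‖ = 1) (B : Fin m → Set (ℝ × ℝ))
    (hcov : ∀ p ∈ K, ∃ i, (⟪p.1, n i⟫, p.2) ∈ B i)
    (pe : V × ℝ) (hpe : pe ∈ K) (lam : ℝ) (h0 : 0 ≤ lam) (h1 : lam ≤ 1) :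
    ENNReal.ofReal ((1 - lam) * w) ≤
      ∑ i, volume ((fun s : ℝ => (s, (1 - lam) * c + lam * pe.2)) ⁻¹' B i) := by
  let C' : Set V := (1 - lam) • Kc + {lam • pe.1}
  have hC' : Convex ℝ C' := (hKc_conv.smul (1 - lam)).add (convex_singleton _)
  have hC'c : IsCompact C' := (hKc_comp.smul (1 - lam)).add isCompact_singleton
  have hC'ne : C'.Nonempty := (hKc_ne.smul_set).add (Set.singleton_nonempty _)
  have hmem : ∀ x, x ∈ C' ↔ ∃ y ∈ Kc, x = (1 - lam) • y + lam • pe.1 := by
    intro x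
    simp only [C', Set.mem_add, Set.mem_smul_set, Set.mem_singleton_iff]
    constructor
    · rintro ⟨_, ⟨y, hy, rfl⟩, _, rfl, rfl⟩
      exact ⟨y, hy, rfl⟩
    · rintro ⟨y, hy, rfl⟩
      exact ⟨_, ⟨y, hy, rfl⟩, _, rfl, rfl⟩
  have hw' : HasWidthGE C' ((1 - lam) * w) := by
    intro θ hθ
    obtain ⟨x, hx, y, hy, hxy⟩ := hw θ hθ
    refine ⟨(1 - lam) • x + lam • pe.1, (hmem _).2 ⟨x, hx, rfl⟩,
      (1 - lam) • y + lam • pe.1, (hmem _).2 ⟨y, hy, rfl⟩, ?_⟩
    have : (1 - lam) • y + lam • pe.1 - ((1 - lam) • x + lam • pe.1) = (1 - lam) • (y - x) := by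
      module
    rw [this, inner_smul_left]
    simp only [conj_trivial]
    exact mul_le_mul_of_nonneg_left hxy (by linarith)
  apply plank_sets C' hC' hC'c hC'ne ((1 - lam) * w) hw' n hn
  intro x hx
  obtain ⟨y, hy, rfl⟩ := (hmem x).1 hx
  have hin : (1 - lam) • ((y, c) : V × ℝ) + lam • pe ∈ K :=
    hK (hKc y hy) hpe (by linarith) h0 (by ring)
  obtain ⟨i, hi⟩ := hcov _ hin
  refine ⟨i, ?_⟩
  simpa using hi

/-- Upper bound for a slice of the projection. -/
theorem slice_upper (K : Set (V × ℝ)) (hKc : IsCompact K) (θ : V) (z : ℝ)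
    (hz : ∃ x : V, (x, z) ∈ K) :
    ∃ xa xb : V, (xa, z) ∈ K ∧ (xb, z) ∈ K ∧ ⟪xa, θ⟫ ≤ ⟪xb, θ⟫ ∧
      volume ((fun s : ℝ => (s, z)) ⁻¹' ((fun p : V × ℝ => (⟪p.1, θ⟫, p.2)) '' K))
        ≤ ENNReal.ofReal (⟪xb, θ⟫ - ⟪xa, θ⟫) := by
  have hcomp := slice_compact K hKc z
  have hne : {x : V | (x, z) ∈ K}.Nonempty := hz
  have hcont : ContinuousOn (fun x : V => ⟪x, θ⟫) {x : V | (x, z) ∈ K} := by fun_prop
  obtain ⟨xa, hxa, hmin⟩ := hcomp.exists_isMinOn hne hcont
  obtain ⟨xb, hxb, hmax⟩ := hcomp.exists_isMaxOn hne hcont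
  refine ⟨xa, xb, hxa, hxb, hmin hxb, ?_⟩
  have hsub : (fun s : ℝ => (s, z)) ⁻¹' ((fun p : V × ℝ => (⟪p.1, θ⟫, p.2)) '' K)
      ⊆ Set.Icc ⟪xa, θ⟫ ⟪xb, θ⟫ := by
    rintro s ⟨p, hp, hps⟩
    have h1 : ⟪p.1, θ⟫ = s := congrArg Prod.fst hps
    have h2 : p.2 = z := congrArg Prod.snd hps
    have hp' : p.1 ∈ {x : V | (x, z) ∈ K} := by
      show (p.1, z) ∈ K
      rw [← h2]
      exact hp
    rw [← h1]
    exact ⟨hmin hp', hmax hp'⟩
  calc _ ≤ volume (Set.Icc ⟪xa, θ⟫ ⟪xb, θ⟫) := measure_mono hsub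
    _ = ENNReal.ofReal (⟪xb, θ⟫ - ⟪xa, θ⟫) := Real.volume_Icc

/-- **Half-area inequality in coordinates.**  Let `K ⊆ V × ℝ` be compact and convex and suppose
every point `(x, z)` of `K` satisfies `(⟪x, n i⟫, z) ∈ B i` for some `i`, where the `n i` are unit
vectors of `V` and the `B i ⊆ ℝ × ℝ` are measurable.  Then there is a unit vector `θ` of `V` such
that the planar set `{(⟪x, θ⟫, z) | (x, z) ∈ K}` has area at most twice the total area of the
`B i`. -/
theorem core [FiniteDimensional ℝ V] [Nontrivial V] {m : ℕ} (K : Set (V × ℝ)) (hK : Convex ℝ K)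
    (hKc : IsCompact K) (n : Fin m → V) (hn : ∀ i, ‖n i‖ = 1) (B : Fin m → Set (ℝ × ℝ))
    (hB : ∀ i, MeasurableSet (B i)) (hcov : ∀ p ∈ K, ∃ i, (⟪p.1, n i⟫, p.2) ∈ B i) :
    ∃ θ : V, ‖θ‖ = 1 ∧
      volume ((fun p : V × ℝ => (⟪p.1, θ⟫, p.2)) '' K) ≤ 2 * ∑ i, volume (B i) := by
  have : CompleteSpace V := FiniteDimensional.complete ℝ V
  rcases K.eq_empty_or_nonempty with rfl | hne
  · obtain ⟨θ, hθ⟩ := exists_norm_eq V (zero_le_one' ℝ)
    exact ⟨θ, hθ, by simp⟩
  obtain ⟨p0, hp0, hp0min⟩ := hKc.exists_isMinOn hne continuous_snd.continuousOn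
  obtain ⟨p1, hp1, hp1max⟩ := hKc.exists_isMaxOn hne continuous_snd.continuousOn
  have hmin : ∀ p ∈ K, p0.2 ≤ p.2 := fun p hp => hp0min hp
  have hmax : ∀ p ∈ K, p.2 ≤ p1.2 := fun p hp => hp1max hp
  obtain ⟨z0, hz0⟩ : ∃ z0, z0 = p0.2 := ⟨_, rfl⟩
  obtain ⟨z1, hz1⟩ : ∃ z1, z1 = p1.2 := ⟨_, rfl⟩
  rw [← hz0] at hmin
  rw [← hz1] at hmax
  obtain ⟨c, hc⟩ : ∃ c, c = (z0 + z1) / 2 := ⟨_, rfl⟩
  obtain ⟨L, hL⟩ : ∃ L, L = z1 - z0 := ⟨_, rfl⟩
  have hL0 : 0 ≤ L := by
    have := hmin p1 hp1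
    rw [← hz1] at this
    linarith
  -- the middle slice
  obtain ⟨Kc, hKcdef⟩ : ∃ Kc : Set V, Kc = {x : V | (x, c) ∈ K} := ⟨_, rfl⟩
  have hKcmem : ∀ x, x ∈ Kc ↔ (x, c) ∈ K := fun x => by rw [hKcdef]; rfl
  have hmid : ∀ (x y : V) (z z' : ℝ), (x, z) ∈ K → (y, z') ∈ K → z + z' = z0 + z1 →
      (1 / 2 : ℝ) • x + (1 / 2 : ℝ) • y ∈ Kc := by
    intro x y z z' hx hy hzz
    rw [hKcmem]
    have h := hK hx hy (by norm_num : (0 : ℝ) ≤ 1 / 2) (by norm_num : (0 : ℝ) ≤ 1 / 2)
      (by norm_num)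
    have h2 : (1 / 2 : ℝ) • ((x, z) : V × ℝ) + (1 / 2 : ℝ) • ((y, z') : V × ℝ)
        = ((1 / 2 : ℝ) • x + (1 / 2 : ℝ) • y, c) := by
      ext
      · simp
      · simp only [Prod.snd_add, Prod.smul_snd, smul_eq_mul]
        rw [hc]
        linarith
    rw [h2] at h
    exact h
  have hKc_ne : Kc.Nonempty :=
    ⟨_, hmid p0.1 p1.1 p0.2 p1.2 hp0 hp1 (by rw [hz0, hz1])⟩
  have hKc_comp : IsCompact Kc := by rw [hKcdef]; exact slice_compact K hKc c
  have hKc_conv : Convex ℝ Kc := by rw [hKcdef]; exact slice_convex K hK c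
  -- the width function of the middle slice
  let W : V → ℝ := fun θ => sSup ((fun q : V × V => ⟪q.2 - q.1, θ⟫) '' (Kc ×ˢ Kc))
  have hWatt : ∀ θ, ∃ x ∈ Kc, ∃ y ∈ Kc, W θ = ⟪y - x, θ⟫ ∧
      ∀ x' ∈ Kc, ∀ y' ∈ Kc, ⟪y' - x', θ⟫ ≤ W θ := by
    intro θ
    have hcont : ContinuousOn (fun q : V × V => ⟪q.2 - q.1, θ⟫) (Kc ×ˢ Kc) := by fun_prop
    obtain ⟨q, hq, hqeq, hqmax⟩ :=
      (hKc_comp.prod hKc_comp).exists_sSup_image_eq_and_ge (hKc_ne.prod hKc_ne) hcont
    refine ⟨q.1, hq.1, q.2, hq.2, hqeq, fun x' hx' y' hy' => ?_⟩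
    show ⟪y' - x', θ⟫ ≤ sSup ((fun q : V × V => ⟪q.2 - q.1, θ⟫) '' (Kc ×ˢ Kc))
    rw [hqeq]
    exact hqmax (x', y') ⟨hx', hy'⟩
  obtain ⟨R, hR⟩ := hKc_comp.isBounded.exists_norm_le
  have hR0 : 0 ≤ R := (norm_nonneg _).trans (hR _ hKc_ne.some_mem)
  have hWlip : ∀ θ θ', W θ ≤ W θ' + 2 * R * ‖θ - θ'‖ := by
    intro θ θ'
    obtain ⟨x, hx, y, hy, hW, -⟩ := hWatt θ
    obtain ⟨-, -, -, -, -, hmax'⟩ := hWatt θ'
    have h1 := hmax' x hx y hy
    have h2 : ⟪y - x, θ⟫ - ⟪y - x, θ'⟫ ≤ 2 * R * ‖θ - θ'‖ := by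
      rw [← inner_sub_right]
      calc ⟪y - x, θ - θ'⟫ ≤ ‖y - x‖ * ‖θ - θ'‖ := real_inner_le_norm _ _
        _ ≤ (2 * R) * ‖θ - θ'‖ := by
          apply mul_le_mul_of_nonneg_right _ (norm_nonneg _)
          calc ‖y - x‖ ≤ ‖y‖ + ‖x‖ := norm_sub_le _ _
            _ ≤ 2 * R := by linarith [hR x hx, hR y hy]
    linarith
  have hWcont : Continuous W := by
    apply LipschitzWith.continuous (K := (2 * R).toNNReal)
    apply LipschitzWith.of_dist_le_mul
    intro θ θ'
    rw [Real.dist_eq, dist_eq_norm, Real.coe_toNNReal _ (by positivity), abs_le]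
    constructor
    · have := hWlip θ' θ
      rw [norm_sub_rev] at this
      linarith
    · have := hWlip θ θ'
      linarith
  have hsph : (Metric.sphere (0 : V) 1).Nonempty := by
    obtain ⟨θ, hθ⟩ := exists_norm_eq V (zero_le_one' ℝ)
    exact ⟨θ, by simpa using hθ⟩
  obtain ⟨θs, hθs, hθmin⟩ :=
    (isCompact_sphere (0 : V) 1).exists_isMinOn hsph hWcont.continuousOn
  have hθs1 : ‖θs‖ = 1 := by simpa using hθs
  obtain ⟨ws, hws⟩ : ∃ ws, ws = W θs := ⟨_, rfl⟩
  have hwidth : HasWidthGE Kc ws := by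
    intro θ hθ
    obtain ⟨x, hx, y, hy, hW, -⟩ := hWatt θ
    refine ⟨x, hx, y, hy, ?_⟩
    rw [← hW, hws]
    exact hθmin (by simpa using hθ)
  have hwsmax : ∀ x' ∈ Kc, ∀ y' ∈ Kc, ⟪y' - x', θs⟫ ≤ ws := by
    obtain ⟨-, -, -, -, -, hmax'⟩ := hWatt θs
    rw [hws]
    exact hmax'
  have hws0 : 0 ≤ ws := by
    obtain ⟨x, hx⟩ := hKc_ne
    simpa using hwsmax x hx x hx
  refine ⟨θs, hθs1, ?_⟩
  -- lower bound
  have hlow : ENNReal.ofReal ws * ENNReal.ofReal (L / 2) ≤ ∑ i, volume (B i) := by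
    let F : ℝ → ENNReal := fun z => ∑ i, volume ((fun s : ℝ => (s, z)) ⁻¹' B i)
    have hFmeas : Measurable F :=
      Finset.measurable_sum _ (fun i _ => measurable_measure_prodMk_right (hB i))
    have hsum : ∑ i, volume (B i) = ∫⁻ z, F z := by
      rw [lintegral_finsetSum _ (fun i _ => measurable_measure_prodMk_right (hB i))]
      apply Finset.sum_congr rfl
      intro i _
      exact Measure.prod_apply_symm (hB i)
    rw [hsum]
    have hpair : ∀ z ∈ Set.Ico z0 c, ENNReal.ofReal ws ≤ F z + F (z + L / 2) := by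
      intro z hz
      have hzl : z0 ≤ z := hz.1
      have hzu : z < c := hz.2
      have hLpos : 0 < L := by rw [hL]; rw [hc] at hzu; linarith
      obtain ⟨lam, hlam⟩ : ∃ lam, lam = (c - z) / (L / 2) := ⟨_, rfl⟩
      have hlamL : lam * (L / 2) = c - z := by rw [hlam]; field_simp
      have hlam0 : 0 ≤ lam := by
        rw [hlam]
        apply div_nonneg <;> linarith
      have hlam1 : lam ≤ 1 := by
        rw [hlam, div_le_one (by linarith)]
        rw [hL, hc]
        linarith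
      have e1 := slice_bound K hK Kc hKc_conv hKc_comp hKc_ne c (fun x hx => (hKcmem x).1 hx)
        ws hwidth n hn B hcov p0 hp0 lam hlam0 hlam1
      have e2 := slice_bound K hK Kc hKc_conv hKc_comp hKc_ne c (fun x hx => (hKcmem x).1 hx)
        ws hwidth n hn B hcov p1 hp1 (1 - lam) (by linarith) (by linarith)
      have hh1 : (1 - lam) * c + lam * p0.2 = z := by
        rw [← hz0]
        have : c - z0 = L / 2 := by rw [hc, hL]; ring
        nlinarith
      have hh2 : (1 - (1 - lam)) * c + (1 - lam) * p1.2 = z + L / 2 := by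
        rw [← hz1]
        have : z1 - c = L / 2 := by rw [hc, hL]; ring
        nlinarith
      rw [hh1] at e1
      rw [hh2] at e2
      calc ENNReal.ofReal ws
          = ENNReal.ofReal ((1 - lam) * ws) + ENNReal.ofReal ((1 - (1 - lam)) * ws) := by
            rw [← ENNReal.ofReal_add (mul_nonneg (by linarith) hws0)
              (mul_nonneg (by linarith) hws0)]
            congr 1
            ring
        _ ≤ F z + F (z + L / 2) := add_le_add e1 e2
    have hcz0 : c - z0 = L / 2 := by rw [hc, hL]; ring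
    have hz1c : z1 - L / 2 = c := by rw [hc, hL]; ring
    have hcL : c - L / 2 = z0 := by rw [hc, hL]; ring
    calc ENNReal.ofReal ws * ENNReal.ofReal (L / 2)
        = ∫⁻ _z in Set.Ico z0 c, ENNReal.ofReal ws := by
          rw [setLIntegral_const, Real.volume_Ico, hcz0]
      _ ≤ ∫⁻ z in Set.Ico z0 c, (F z + F (z + L / 2)) :=
          setLIntegral_mono' measurableSet_Ico hpair
      _ = (∫⁻ z in Set.Ico z0 c, F z) + ∫⁻ z in Set.Ico z0 c, F (z + L / 2) :=
          lintegral_add_left hFmeas _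
      _ = (∫⁻ z in Set.Ico z0 c, F z) + ∫⁻ z in Set.Ico c z1, F z := by
          congr 1
          have h := (measurePreserving_add_right volume (L / 2)).setLIntegral_comp_preimage
            (measurableSet_Ico (a := c) (b := z1)) hFmeas
          rw [Set.preimage_add_const_Ico, hcL, hz1c] at h
          exact h
      _ = ∫⁻ z in Set.Ico z0 c ∪ Set.Ico c z1, F z := by
          rw [lintegral_union measurableSet_Ico]
          rw [Set.disjoint_left]
          intro x hx1 hx2
          exact absurd hx2.1 (not_le.2 hx1.2)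
      _ ≤ ∫⁻ z, F z := setLIntegral_le_lintegral _ _
  -- upper bound
  have hup : volume ((fun p : V × ℝ => (⟪p.1, θs⟫, p.2)) '' K)
      ≤ ENNReal.ofReal ws * ENNReal.ofReal L := by
    obtain ⟨P, hP⟩ : ∃ P, P = (fun p : V × ℝ => (⟪p.1, θs⟫, p.2)) '' K := ⟨_, rfl⟩
    rw [← hP]
    have hPc : IsCompact P := by rw [hP]; exact hKc.image (by fun_prop)
    have hPm : MeasurableSet P := hPc.isClosed.measurableSet
    let g : ℝ → ENNReal := fun z => volume ((fun s : ℝ => (s, z)) ⁻¹' P)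
    have hg : Measurable g := measurable_measure_prodMk_right hPm
    have hvol : volume P = ∫⁻ z, g z := Measure.prod_apply_symm hPm
    have hrefl : ∫⁻ z, g (z0 + z1 - z) = ∫⁻ z, g z := lintegral_sub_left_eq_self g (z0 + z1)
    have hslice_ne : ∀ z ∈ Set.Icc z0 z1, ∃ x : V, (x, z) ∈ K := by
      intro z hz
      rcases eq_or_lt_of_le hL0 with hLz | hLpos
      · have hzz : z = p0.2 := by
          rw [← hz0]
          have := hz.1
          have := hz.2
          rw [hL] at hLz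
          linarith
        exact ⟨p0.1, by rw [hzz]; exact hp0⟩
      · have h := hK hp0 hp1 (by
            apply div_nonneg _ hLpos.le
            have := hz.2
            linarith : (0 : ℝ) ≤ (z1 - z) / L) (by
            apply div_nonneg _ hLpos.le
            have := hz.1
            linarith : (0 : ℝ) ≤ (z - z0) / L) (by
            rw [hL]
            rw [hL] at hLpos
            field_simp
            ring)
        refine ⟨((z1 - z) / L) • p0.1 + ((z - z0) / L) • p1.1, ?_⟩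
        have h2 : ((z1 - z) / L) • p0 + ((z - z0) / L) • p1
            = (((z1 - z) / L) • p0.1 + ((z - z0) / L) • p1.1, z) := by
          ext
          · simp
          · simp only [Prod.snd_add, Prod.smul_snd, smul_eq_mul]
            rw [← hz0, ← hz1, hL]
            rw [hL] at hLpos
            field_simp
            ring
        rw [h2] at h
        exact h
    have hbound : ∀ z, g z + g (z0 + z1 - z)
        ≤ (Set.Icc z0 z1).indicator (fun _ => 2 * ENNReal.ofReal ws) z := by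
      intro z
      by_cases hz : z ∈ Set.Icc z0 z1
      · rw [Set.indicator_of_mem hz]
        have hz' : z0 + z1 - z ∈ Set.Icc z0 z1 := by
          constructor
          · have := hz.2
            linarith
          · have := hz.1
            linarith
        obtain ⟨xa, xb, hxa, hxb, hab, hv⟩ := slice_upper K hKc θs z (hslice_ne z hz)
        obtain ⟨xa', xb', hxa', hxb', hab', hv'⟩ :=
          slice_upper K hKc θs (z0 + z1 - z) (hslice_ne _ hz')
        have hma := hmid xa xa' z (z0 + z1 - z) hxa hxa' (by ring)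
        have hmb := hmid xb xb' z (z0 + z1 - z) hxb hxb' (by ring)
        have hwid := hwsmax _ hma _ hmb
        have hexp : ⟪(1 / 2 : ℝ) • xb + (1 / 2 : ℝ) • xb' - ((1 / 2 : ℝ) • xa + (1 / 2 : ℝ) • xa'), θs⟫
            = (1 / 2) * (⟪xb, θs⟫ - ⟪xa, θs⟫) + (1 / 2) * (⟪xb', θs⟫ - ⟪xa', θs⟫) := by
          simp only [inner_sub_left, inner_add_left, inner_smul_left, conj_trivial]
          ring
        rw [hexp] at hwid
        rw [← hP] at hv hv'
        calc g z + g (z0 + z1 - z)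
            ≤ ENNReal.ofReal (⟪xb, θs⟫ - ⟪xa, θs⟫) + ENNReal.ofReal (⟪xb', θs⟫ - ⟪xa', θs⟫) :=
              add_le_add hv hv'
          _ = ENNReal.ofReal ((⟪xb, θs⟫ - ⟪xa, θs⟫) + (⟪xb', θs⟫ - ⟪xa', θs⟫)) := by
              rw [ENNReal.ofReal_add (by linarith) (by linarith)]
          _ ≤ ENNReal.ofReal (2 * ws) := ENNReal.ofReal_le_ofReal (by linarith)
          _ = 2 * ENNReal.ofReal ws := by
              rw [ENNReal.ofReal_mul (by norm_num)]
              simp
      · rw [Set.indicator_of_notMem hz]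
        have hempty : ∀ z', z' ∉ Set.Icc z0 z1 → g z' = 0 := by
          intro z' hz'
          have : (fun s : ℝ => (s, z')) ⁻¹' P = ∅ := by
            ext s
            simp only [Set.mem_preimage, Set.mem_empty_iff_false, iff_false]
            rw [hP]
            rintro ⟨p, hp, hps⟩
            have h2 : p.2 = z' := congrArg Prod.snd hps
            apply hz'
            rw [← h2]
            exact ⟨hmin p hp, hmax p hp⟩
          show volume ((fun s : ℝ => (s, z')) ⁻¹' P) = 0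
          rw [this, measure_empty]
        have hz' : z0 + z1 - z ∉ Set.Icc z0 z1 := by
          intro h
          apply hz
          constructor
          · have := h.2
            linarith
          · have := h.1
            linarith
        rw [hempty z hz, hempty _ hz']
        simp
    have h2 : 2 * ∫⁻ z, g z = ∫⁻ z, (g z + g (z0 + z1 - z)) := by
      rw [lintegral_add_left hg, hrefl, two_mul]
    have h3 : ∫⁻ z, (g z + g (z0 + z1 - z)) ≤ 2 * (ENNReal.ofReal ws * ENNReal.ofReal L) := by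
      calc ∫⁻ z, (g z + g (z0 + z1 - z))
          ≤ ∫⁻ z, (Set.Icc z0 z1).indicator (fun _ => 2 * ENNReal.ofReal ws) z :=
            lintegral_mono hbound
        _ = 2 * ENNReal.ofReal ws * volume (Set.Icc z0 z1) := by
            rw [lintegral_indicator measurableSet_Icc, setLIntegral_const]
        _ = 2 * (ENNReal.ofReal ws * ENNReal.ofReal L) := by
            rw [Real.volume_Icc, hL, mul_assoc]
    rw [hvol]
    rw [← h2] at h3
    exact (ENNReal.mul_le_mul_iff_right (by norm_num) (by norm_num)).1 h3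
  calc volume ((fun p : V × ℝ => (⟪p.1, θs⟫, p.2)) '' K)
      ≤ ENNReal.ofReal ws * ENNReal.ofReal L := hup
    _ = 2 * (ENNReal.ofReal ws * ENNReal.ofReal (L / 2)) := by
        have : L = 2 * (L / 2) := by ring
        conv_lhs => rw [this]
        rw [ENNReal.ofReal_mul (by norm_num)]
        simp only [ENNReal.ofReal_ofNat]
        ring
    _ ≤ 2 * ∑ i, volume (B i) := by gcongr

end Vale.Agent.Lib.P243
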