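import Vale.Agent.Lib.P243.Bang

/-!
# Bang's plank theorem for generalized planks `{x | ⟪x, n i⟫ ∈ A i}` with arbitrary sets `A i ⊆ ℝ`

Auxiliary file for problem P243.
-/

namespace Vale.Agent.Lib.P243

open scoped RealInnerProductSpace
open MeasureTheory

variable {V : Type*} [NormedAddCommGroup V] [InnerProductSpace ℝ V] [CompleteSpace V]

theorem grid_disjoint (d : ℝ) (hd : 0 < d) (k k' : ℤ) (hkk : k ≠ k') :
    Disjoint (Set.Ico ((k : ℝ) * d) (((k : ℝ) + 1) * d))
      (Set.Ico ((k' : ℝ) * d) (((k' : ℝ) + 1) * d)) := by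
  rw [Set.disjoint_left]
  rintro s ⟨h1, h2⟩ ⟨h3, h4⟩
  apply hkk
  have h5 : (k : ℝ) * d < ((k' : ℝ) + 1) * d := lt_of_le_of_lt h1 h4
  have h6 : (k' : ℝ) * d < ((k : ℝ) + 1) * d := lt_of_le_of_lt h3 h2
  have h7 : (k : ℝ) < (k' : ℝ) + 1 := lt_of_mul_lt_mul_right h5 hd.le
  have h8 : (k' : ℝ) < (k : ℝ) + 1 := lt_of_mul_lt_mul_right h6 hd.le
  have h9 : k < k' + 1 := by exact_mod_cast h7
  have h10 : k' < k + 1 := by exact_mod_cast h8
  omega

/-- Plank theorem for open generalized planks. -/
theorem plank_open {m : ℕ} (C : Set V) (hC : Convex ℝ C) (hCc : IsCompact C) (hne : C.Nonempty)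
    (w : ℝ) (hw : HasWidthGE C w) (n : Fin m → V) (hn : ∀ i, ‖n i‖ = 1) (A : Fin m → Set ℝ)
    (hA : ∀ i, IsOpen (A i)) (hcov : ∀ x ∈ C, ∃ i, ⟪x, n i⟫ ∈ A i) :
    ENNReal.ofReal w ≤ ∑ i, volume (A i) := by
  classical
  have hopen : ∀ i, IsOpen {x : V | ⟪x, n i⟫ ∈ A i} := fun i =>
    (hA i).preimage (by fun_prop)
  have hsub : C ⊆ ⋃ i, {x : V | ⟪x, n i⟫ ∈ A i} := by
    intro x hx
    obtain ⟨i, hi⟩ := hcov x hx
    exact Set.mem_iUnion.2 ⟨i, hi⟩
  obtain ⟨δ, hδ, hball⟩ := lebesgue_number_lemma_of_metric hCc hopen hsub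
  obtain ⟨R, hR⟩ := hCc.isBounded.exists_norm_le
  set d : ℝ := δ / 2 with hd
  have hd0 : 0 < d := by positivity
  let G : ℤ → Set ℝ := fun k => Set.Ico ((k : ℝ) * d) (((k : ℝ) + 1) * d)
  set N : ℤ := ⌈R / d⌉ + 1 with hN
  let S : Finset (Fin m × ℤ) :=
    (Finset.univ ×ˢ Finset.Icc (-N) N).filter (fun p => G p.2 ⊆ A p.1)
  have hbang := bang_plank (ι := S) C hC hCc hne w hw (fun p => n p.1.1) (fun p => hn p.1.1)
    (fun p => ((p.1.2 : ℝ) + 1 / 2) * d) (fun _ => d / 2) (fun _ => by positivity) (by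
      intro x hx
      obtain ⟨i, hi⟩ := hball x hx
      set s0 := ⟪x, n i⟫ with hs0
      set k : ℤ := ⌊s0 / d⌋ with hk
      have hk1 : (k : ℝ) * d ≤ s0 := by
        have := Int.floor_le (s0 / d)
        rw [← hk] at this
        calc (k : ℝ) * d ≤ s0 / d * d := mul_le_mul_of_nonneg_right this hd0.le
          _ = s0 := by field_simp
      have hk2 : s0 < ((k : ℝ) + 1) * d := by
        have := Int.lt_floor_add_one (s0 / d)
        rw [← hk] at this
        calc s0 = s0 / d * d := by field_simp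
          _ < ((k : ℝ) + 1) * d := mul_lt_mul_of_pos_right this hd0
      have hGA : G k ⊆ A i := by
        intro s hs
        have hs1 : (k : ℝ) * d ≤ s := hs.1
        have hs2 : s < ((k : ℝ) + 1) * d := hs.2
        have hmem : x + (s - s0) • n i ∈ Metric.ball x δ := by
          rw [Metric.mem_ball, dist_eq_norm, add_sub_cancel_left, norm_smul, hn i, mul_one,
            Real.norm_eq_abs, abs_lt]
          constructor <;> linarith
        have h1 : ⟪x + (s - s0) • n i, n i⟫ ∈ A i := hi hmem
        rw [inner_add_left, inner_smul_left, real_inner_self_eq_norm_sq, hn i, ← hs0] at h1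
        have h2 : s0 + (starRingEnd ℝ) (s - s0) * 1 ^ 2 = s := by
          simp
        rw [h2] at h1
        exact h1
      have habs : |s0| ≤ R := by
        have h1 := abs_real_inner_le_norm x (n i)
        rw [hn i, mul_one] at h1
        exact h1.trans (hR x hx)
      have hkN : k ∈ Finset.Icc (-N) N := by
        rw [Finset.mem_Icc]
        have hc1 : R / d ≤ (⌈R / d⌉ : ℝ) := Int.le_ceil _
        have hs0d : s0 / d ≤ R / d := by
          apply div_le_div_of_nonneg_right _ hd0.le
          exact (le_abs_self s0).trans habs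
        have hs0d' : -(R / d) ≤ s0 / d := by
          rw [← neg_div]
          apply div_le_div_of_nonneg_right _ hd0.le
          have := neg_abs_le s0
          linarith
        have hkle : (k : ℝ) ≤ s0 / d := Int.floor_le _
        have hklt : s0 / d < (k : ℝ) + 1 := Int.lt_floor_add_one _
        constructor
        · have h1 : ((-N : ℤ) : ℝ) < (k : ℝ) + 1 := by
            rw [hN]
            push_cast
            linarith
          have h2 : -N < k + 1 := by exact_mod_cast h1
          omega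
        · have h1 : (k : ℝ) ≤ (⌈R / d⌉ : ℝ) := by linarith
          have h2 : k ≤ ⌈R / d⌉ := by exact_mod_cast h1
          omega
      refine ⟨⟨(i, k), ?_⟩, ?_⟩
      · simp only [S, Finset.mem_filter, Finset.mem_product, Finset.mem_univ, true_and]
        exact ⟨hkN, hGA⟩
      · rw [abs_le]
        constructor <;> linarith)
  -- now compare with measures
  have h1 : ∑ p : S, d / 2 = (S.card : ℝ) * (d / 2) := by
    rw [Finset.sum_const, Finset.card_univ, Fintype.card_coe, nsmul_eq_mul]
  rw [h1] at hbang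
  have h2 : ENNReal.ofReal w ≤ ∑ _p ∈ S, ENNReal.ofReal d := by
    rw [Finset.sum_const, nsmul_eq_mul]
    calc ENNReal.ofReal w ≤ ENNReal.ofReal ((S.card : ℝ) * d) :=
          ENNReal.ofReal_le_ofReal (by linarith)
      _ = (S.card : ENNReal) * ENNReal.ofReal d := by
          rw [ENNReal.ofReal_mul (Nat.cast_nonneg _), ENNReal.ofReal_natCast]
  refine h2.trans ?_
  simp only [S]
  rw [Finset.sum_filter, Finset.sum_product]
  apply Finset.sum_le_sum
  intro i _
  rw [← Finset.sum_filter]
  set T : Finset ℤ := (Finset.Icc (-N) N).filter (fun k => G k ⊆ A i) with hT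
  have h3 : ∑ _k ∈ T, ENNReal.ofReal d = ∑ k ∈ T, volume (G k) := by
    apply Finset.sum_congr rfl
    intro k _
    simp only [G]
    rw [Real.volume_Ico]
    congr 1
    ring
  rw [h3, ← measure_biUnion_finset]
  · apply measure_mono
    intro s hs
    simp only [Set.mem_iUnion] at hs
    obtain ⟨k, hk, hsk⟩ := hs
    rw [hT, Finset.mem_filter] at hk
    exact hk.2 hsk
  · intro k _ k' _ hkk
    exact grid_disjoint d hd0 k k' hkk
  · intro k _
    exact measurableSet_Ico

/-- **Plank theorem for generalized planks.** If a compact convex set `C` of a real Hilbert space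
has width at least `w` in every direction and is covered by finitely many sets
`{x | ⟪x, n i⟫ ∈ A i}` with unit vectors `n i` and arbitrary `A i ⊆ ℝ`, then the Lebesgue (outer)
measures of the `A i` add up to at least `w`. -/
theorem plank_sets {m : ℕ} (C : Set V) (hC : Convex ℝ C) (hCc : IsCompact C) (hne : C.Nonempty)
    (w : ℝ) (hw : HasWidthGE C w) (n : Fin m → V) (hn : ∀ i, ‖n i‖ = 1) (A : Fin m → Set ℝ)
    (hcov : ∀ x ∈ C, ∃ i, ⟪x, n i⟫ ∈ A i) :
    ENNReal.ofReal w ≤ ∑ i, volume (A i) := by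
  by_cases htop : ∃ i, volume (A i) = ⊤
  · obtain ⟨i, hi⟩ := htop
    have h1 : volume (A i) ≤ ∑ i, volume (A i) :=
      Finset.single_le_sum (f := fun i => volume (A i)) (fun _ _ => bot_le) (Finset.mem_univ i)
    rw [hi, top_le_iff] at h1
    rw [h1]
    exact le_top
  · push Not at htop
    apply ENNReal.le_of_forall_pos_le_add
    intro ε hε _
    have hm : ((m : ENNReal) + 1) ≠ 0 := by simp
    have hm' : ((m : ENNReal) + 1) ≠ ⊤ := by simp
    have hε' : (ε : ENNReal) / ((m : ENNReal) + 1) ≠ 0 := by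
      simp [ENNReal.div_eq_zero_iff, hε.ne', hm']
    choose U hUA hUo hUlt using fun i => (A i).exists_isOpen_lt_add (htop i) hε'
    have h1 := plank_open C hC hCc hne w hw n hn U hUo
      (fun x hx => let ⟨i, hi⟩ := hcov x hx; ⟨i, hUA i hi⟩)
    calc ENNReal.ofReal w ≤ ∑ i, volume (U i) := h1
      _ ≤ ∑ i, (volume (A i) + (ε : ENNReal) / ((m : ENNReal) + 1)) :=
          Finset.sum_le_sum (fun i _ => (hUlt i).le)
      _ = ∑ i, volume (A i) + (m : ENNReal) * ((ε : ENNReal) / ((m : ENNReal) + 1)) := by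
          rw [Finset.sum_add_distrib, Finset.sum_const, Finset.card_univ, Fintype.card_fin,
            nsmul_eq_mul]
      _ ≤ ∑ i, volume (A i) + ε := by
          gcongr
          calc (m : ENNReal) * ((ε : ENNReal) / ((m : ENNReal) + 1))
              ≤ ((m : ENNReal) + 1) * ((ε : ENNReal) / ((m : ENNReal) + 1)) := by
                gcongr
                exact le_self_add
            _ = ε := ENNReal.mul_div_cancel hm hm'

end Vale.Agent.Lib.P243
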