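import Mathlib

/-!
# The planar two-plank affine inequality

Auxiliary file for problem P243 (relative form for two cylinders): the algebraic core, the
separation of a planar convex set from the four corner quadrants, and the resulting inequality
`(S + T) (Y₁ + Y₂) ≤ W H` for a convex set covered by a vertical and a horizontal strip.
-/

namespace Vale.Agent.Lib.P243

open MeasureTheory

/-- Algebraic core of the planar two-plank affine inequality. -/
theorem tp_algebra (S T Y₁ Y₂ w₁ w₂ α β γ δ m₁ m₂ m₃ m₄ : ℝ)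
    (hS : 0 < S) (hT : 0 < T) (hY₁ : 0 ≤ Y₁) (hY₂ : 0 ≤ Y₂)
    (hW : S + T ≤ w₁) (hH : Y₁ + Y₂ ≤ w₂)
    (hα0 : 0 ≤ α) (hα1 : α ≤ w₂) (hβ0 : 0 ≤ β) (hβ1 : β ≤ w₂)
    (hm₁ : 0 ≤ m₁) (hm₂ : 0 ≤ m₂) (hm₃ : 0 ≤ m₃) (hm₄ : 0 ≤ m₄)
    (L1 : m₁ * S ≤ α - Y₁) (B1 : Y₁ ≤ m₁ * (γ - S))
    (R2 : m₂ * T ≤ β - Y₁) (B2 : Y₁ ≤ m₂ * (w₁ - T - γ))
    (R3 : m₃ * T ≤ w₂ - Y₂ - β) (T3 : Y₂ ≤ m₃ * (w₁ - T - δ))
    (L4 : m₄ * S ≤ w₂ - Y₂ - α) (T4 : Y₂ ≤ m₄ * (δ - S)) :
    (S + T) * (Y₁ + Y₂) ≤ (w₁ - S - T) * (w₂ - Y₁ - Y₂) := by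
  have hW0 : 0 ≤ w₁ - S - T := by linarith
  have hH0 : 0 ≤ w₂ - Y₁ - Y₂ := by linarith
  rcases hY₁.eq_or_lt with h1 | h1
  · rcases hY₂.eq_or_lt with h2 | h2
    · rw [← h1, ← h2]
      simp only [add_zero, mul_zero, sub_zero]
      rw [← h1, ← h2] at hH0
      simp only [sub_zero] at hH0
      exact mul_nonneg hW0 hH0
    · -- Y₁ = 0 < Y₂
      have hm3 : 0 < m₃ := by
        rcases hm₃.eq_or_lt with h | h
        · rw [← h] at T3; linarith
        · exact h
      have hm4 : 0 < m₄ := by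
        rcases hm₄.eq_or_lt with h | h
        · rw [← h] at T4; linarith
        · exact h
      have hd1 : 0 ≤ w₁ - T - δ := by
        by_contra hneg
        push Not at hneg
        nlinarith
      have hd2 : 0 ≤ δ - S := by
        by_contra hneg
        push Not at hneg
        nlinarith
      have e1 : T * Y₂ ≤ (w₂ - Y₂) * (w₁ - T - δ) := by
        calc T * Y₂ ≤ T * (m₃ * (w₁ - T - δ)) := mul_le_mul_of_nonneg_left T3 hT.le
          _ = (m₃ * T) * (w₁ - T - δ) := by ring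
          _ ≤ (w₂ - Y₂) * (w₁ - T - δ) := mul_le_mul_of_nonneg_right (by linarith) hd1
      have e2 : S * Y₂ ≤ (w₂ - Y₂) * (δ - S) := by
        calc S * Y₂ ≤ S * (m₄ * (δ - S)) := mul_le_mul_of_nonneg_left T4 hS.le
          _ = (m₄ * S) * (δ - S) := by ring
          _ ≤ (w₂ - Y₂) * (δ - S) := mul_le_mul_of_nonneg_right (by linarith) hd2
      rw [← h1]
      simp only [zero_add, sub_zero]
      nlinarith
  · rcases hY₂.eq_or_lt with h2 | h2
    · -- Y₂ = 0 < Y₁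
      have hm1 : 0 < m₁ := by
        rcases hm₁.eq_or_lt with h | h
        · rw [← h] at B1; linarith
        · exact h
      have hm2 : 0 < m₂ := by
        rcases hm₂.eq_or_lt with h | h
        · rw [← h] at B2; linarith
        · exact h
      have hd1 : 0 ≤ γ - S := by
        by_contra hneg
        push Not at hneg
        nlinarith
      have hd2 : 0 ≤ w₁ - T - γ := by
        by_contra hneg
        push Not at hneg
        nlinarith
      have e1 : S * Y₁ ≤ (w₂ - Y₁) * (γ - S) := by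
        calc S * Y₁ ≤ S * (m₁ * (γ - S)) := mul_le_mul_of_nonneg_left B1 hS.le
          _ = (m₁ * S) * (γ - S) := by ring
          _ ≤ (w₂ - Y₁) * (γ - S) := mul_le_mul_of_nonneg_right (by linarith) hd1
      have e2 : T * Y₁ ≤ (w₂ - Y₁) * (w₁ - T - γ) := by
        calc T * Y₁ ≤ T * (m₂ * (w₁ - T - γ)) := mul_le_mul_of_nonneg_left B2 hT.le
          _ = (m₂ * T) * (w₁ - T - γ) := by ring
          _ ≤ (w₂ - Y₁) * (w₁ - T - γ) := mul_le_mul_of_nonneg_right (by linarith) hd2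
      rw [← h2]
      simp only [add_zero, sub_zero]
      nlinarith
    · -- generic case
      have hm1 : 0 < m₁ := by
        rcases hm₁.eq_or_lt with h | h
        · rw [← h] at B1; linarith
        · exact h
      have hm2 : 0 < m₂ := by
        rcases hm₂.eq_or_lt with h | h
        · rw [← h] at B2; linarith
        · exact h
      have hm3 : 0 < m₃ := by
        rcases hm₃.eq_or_lt with h | h
        · rw [← h] at T3; linarith
        · exact h
      have hm4 : 0 < m₄ := by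
        rcases hm₄.eq_or_lt with h | h
        · rw [← h] at T4; linarith
        · exact h
      obtain ⟨W, hWdef⟩ : ∃ W, W = w₁ - S - T := ⟨_, rfl⟩
      obtain ⟨H, hHdef⟩ : ∃ H, H = w₂ - Y₁ - Y₂ := ⟨_, rfl⟩
      rw [← hWdef, ← hHdef]
      rw [← hWdef] at hW0
      rw [← hHdef] at hH0
      have hS' : S * (m₁ + m₄) ≤ H := by rw [hHdef]; linarith
      have hT' : T * (m₂ + m₃) ≤ H := by rw [hHdef]; linarith
      have hY1' : Y₁ * (m₁ + m₂) ≤ m₁ * m₂ * W := by
        have e1 := mul_le_mul_of_nonneg_left B1 hm2.le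
        have e2 := mul_le_mul_of_nonneg_left B2 hm1.le
        rw [hWdef]
        linarith
      have hY2' : Y₂ * (m₃ + m₄) ≤ m₃ * m₄ * W := by
        have e1 := mul_le_mul_of_nonneg_left T3 hm4.le
        have e2 := mul_le_mul_of_nonneg_left T4 hm3.le
        rw [hWdef]
        linarith
      have k1 : (S + T) * ((m₁ + m₄) * (m₂ + m₃)) ≤ H * (m₁ + m₂ + m₃ + m₄) := by
        have e1 := mul_le_mul_of_nonneg_right hS' (by linarith : 0 ≤ m₂ + m₃)
        have e2 := mul_le_mul_of_nonneg_right hT' (by linarith : 0 ≤ m₁ + m₄)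
        linarith
      have k2 : (Y₁ + Y₂) * ((m₁ + m₂) * (m₃ + m₄))
          ≤ W * (m₁ * m₂ * (m₃ + m₄) + m₃ * m₄ * (m₁ + m₂)) := by
        have e1 := mul_le_mul_of_nonneg_right hY1' (by linarith : 0 ≤ m₃ + m₄)
        have e2 := mul_le_mul_of_nonneg_right hY2' (by linarith : 0 ≤ m₁ + m₂)
        linarith
      obtain ⟨P, hP⟩ : ∃ P, P = (m₁ + m₄) * (m₂ + m₃) * ((m₁ + m₂) * (m₃ + m₄)) := ⟨_, rfl⟩
      obtain ⟨E, hE⟩ : ∃ E, E = (m₁ + m₂ + m₃ + m₄)
          * (m₁ * m₂ * (m₃ + m₄) + m₃ * m₄ * (m₁ + m₂)) := ⟨_, rfl⟩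
      have hPpos : 0 < P := by rw [hP]; positivity
      have hEP : E ≤ P := by
        have : P - E = (m₁ * m₃ - m₂ * m₄) ^ 2 := by rw [hP, hE]; ring
        linarith [sq_nonneg (m₁ * m₃ - m₂ * m₄)]
      have k3 : (S + T) * (Y₁ + Y₂) * P ≤ H * W * E := by
        have n1 : 0 ≤ (Y₁ + Y₂) * ((m₁ + m₂) * (m₃ + m₄)) :=
          mul_nonneg (by linarith) (mul_nonneg (by linarith) (by linarith))
        have n2 : 0 ≤ H * (m₁ + m₂ + m₃ + m₄) := mul_nonneg hH0 (by linarith)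
        have hmul := mul_le_mul k1 k2 n1 n2
        have el : (S + T) * (Y₁ + Y₂) * P
            = (S + T) * ((m₁ + m₄) * (m₂ + m₃)) * ((Y₁ + Y₂) * ((m₁ + m₂) * (m₃ + m₄))) := by
          rw [hP]; ring
        have er : H * W * E
            = H * (m₁ + m₂ + m₃ + m₄) * (W * (m₁ * m₂ * (m₃ + m₄) + m₃ * m₄ * (m₁ + m₂))) := by
          rw [hE]; ring
        rw [el, er]
        exact hmul
      have k4 : (S + T) * (Y₁ + Y₂) * P ≤ W * H * P := by
        calc (S + T) * (Y₁ + Y₂) * P ≤ H * W * E := k3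
          _ ≤ H * W * P := mul_le_mul_of_nonneg_left hEP (mul_nonneg hH0 hW0)
          _ = W * H * P := by ring
      exact le_of_mul_le_mul_right k4 hPpos

/-- Separation of a convex planar set from an open quadrant with apex `k`: there is a line through
`k` with nonnegative normal (in the signed coordinates) having the set on its nonnegative side. -/
theorem corner_sep (C : Set (ℝ × ℝ)) (hC : Convex ℝ C) (hne : C.Nonempty) (σ τ : ℝ)
    (hσ : σ = 1 ∨ σ = -1) (hτ : τ = 1 ∨ τ = -1) (k : ℝ × ℝ)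
    (h : ∀ p ∈ C, σ * (p.1 - k.1) < 0 → 0 ≤ τ * (p.2 - k.2)) :
    ∃ μ ν : ℝ, 0 ≤ μ ∧ 0 ≤ ν ∧ 0 < μ + ν ∧
      ∀ p ∈ C, 0 ≤ μ * (σ * (p.1 - k.1)) + ν * (τ * (p.2 - k.2)) := by
  have hσ2 : σ * σ = 1 := by rcases hσ with h | h <;> rw [h] <;> norm_num
  have hτ2 : τ * τ = 1 := by rcases hτ with h | h <;> rw [h] <;> norm_num
  let Q : Set (ℝ × ℝ) := {p | σ * (p.1 - k.1) < 0 ∧ τ * (p.2 - k.2) < 0}
  have hQopen : IsOpen Q := by
    have h1 : IsOpen {p : ℝ × ℝ | σ * (p.1 - k.1) < 0} :=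
      isOpen_lt (by fun_prop) continuous_const
    have h2 : IsOpen {p : ℝ × ℝ | τ * (p.2 - k.2) < 0} :=
      isOpen_lt (by fun_prop) continuous_const
    exact h1.inter h2
  have key : ∀ x y a b : ℝ, x < 0 → y < 0 → 0 ≤ a → 0 ≤ b → a + b = 1 → a * x + b * y < 0 := by
    intro x y a b hx hy ha hb hab
    rcases ha.eq_or_lt with h0 | h0
    · have hb1 : b = 1 := by linarith
      rw [← h0, hb1]
      linarith
    · have h1 : a * x < 0 := mul_neg_of_pos_of_neg h0 hx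
      have h2 : b * y ≤ 0 := mul_nonpos_of_nonneg_of_nonpos hb hy.le
      linarith
  have hQconv : Convex ℝ Q := by
    intro p hp q hq a b ha hb hab
    constructor
    · have e : σ * ((a • p + b • q).1 - k.1)
          = a * (σ * (p.1 - k.1)) + b * (σ * (q.1 - k.1)) := by
        simp only [Prod.fst_add, Prod.smul_fst, smul_eq_mul]
        have : k.1 = (a + b) * k.1 := by rw [hab, one_mul]
        conv_lhs => rw [this]
        ring
      show σ * ((a • p + b • q).1 - k.1) < 0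
      rw [e]
      exact key _ _ a b hp.1 hq.1 ha hb hab
    · have e : τ * ((a • p + b • q).2 - k.2)
          = a * (τ * (p.2 - k.2)) + b * (τ * (q.2 - k.2)) := by
        simp only [Prod.snd_add, Prod.smul_snd, smul_eq_mul]
        have : k.2 = (a + b) * k.2 := by rw [hab, one_mul]
        conv_lhs => rw [this]
        ring
      show τ * ((a • p + b • q).2 - k.2) < 0
      rw [e]
      exact key _ _ a b hp.2 hq.2 ha hb hab
  have hdisj : Disjoint Q C := by
    rw [Set.disjoint_left]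
    intro p hpQ hpC
    exact absurd (h p hpC hpQ.1) (not_le.2 hpQ.2)
  obtain ⟨f, u, hfQ, hfC⟩ := geometric_hahn_banach_open hQconv hQopen hC hdisj
  have hf : ∀ p : ℝ × ℝ, f p = p.1 * f (1, 0) + p.2 * f (0, 1) := by
    intro p
    have hp : p = p.1 • ((1 : ℝ), (0 : ℝ)) + p.2 • ((0 : ℝ), (1 : ℝ)) := by
      ext <;> simp
    conv_lhs => rw [hp]
    rw [map_add, map_smul, map_smul]
    simp only [smul_eq_mul]
  obtain ⟨μ, hμ⟩ : ∃ μ, μ = σ * f (1, 0) := ⟨_, rfl⟩
  obtain ⟨ν, hν⟩ : ∃ ν, ν = τ * f (0, 1) := ⟨_, rfl⟩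
  have hf1 : f (1, 0) = σ * μ := by rw [hμ, ← mul_assoc, hσ2, one_mul]
  have hf2 : f (0, 1) = τ * ν := by rw [hν, ← mul_assoc, hτ2, one_mul]
  -- the points of the quadrant
  have hq : ∀ r₁ r₂ : ℝ, 0 < r₁ → 0 < r₂ → f k - r₁ * μ - r₂ * ν < u := by
    intro r₁ r₂ h1 h2
    have hmem : (k.1 - σ * r₁, k.2 - τ * r₂) ∈ Q := by
      constructor
      · show σ * (k.1 - σ * r₁ - k.1) < 0
        have : σ * (k.1 - σ * r₁ - k.1) = -(σ * σ) * r₁ := by ring
        rw [this, hσ2]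
        linarith
      · show τ * (k.2 - τ * r₂ - k.2) < 0
        have : τ * (k.2 - τ * r₂ - k.2) = -(τ * τ) * r₂ := by ring
        rw [this, hτ2]
        linarith
    have h3 := hfQ _ hmem
    rw [hf] at h3
    rw [hf k, hf1, hf2]
    simp only at h3
    rw [hf1, hf2] at h3
    have e : (k.1 - σ * r₁) * (σ * μ) + (k.2 - τ * r₂) * (τ * ν)
        = k.1 * (σ * μ) + k.2 * (τ * ν) - (σ * σ) * r₁ * μ - (τ * τ) * r₂ * ν := by ring
    rw [e, hσ2, hτ2] at h3
    linarith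
  have hμ0 : 0 ≤ μ := by
    by_contra hneg
    push Not at hneg
    have h1 : 0 < (|u - f k + ν| + 1) / (-μ) := div_pos (by positivity) (by linarith)
    have h2 := hq _ 1 h1 one_pos
    have h3 : (|u - f k + ν| + 1) / (-μ) * μ = -(|u - f k + ν| + 1) := by
      rw [div_mul_eq_mul_div, div_eq_iff (by linarith : -μ ≠ 0)]
      ring
    rw [h3] at h2
    have := le_abs_self (u - f k + ν)
    linarith
  have hν0 : 0 ≤ ν := by
    by_contra hneg
    push Not at hneg
    have h1 : 0 < (|u - f k + μ| + 1) / (-ν) := div_pos (by positivity) (by linarith)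
    have h2 := hq 1 _ one_pos h1
    have h3 : (|u - f k + μ| + 1) / (-ν) * ν = -(|u - f k + μ| + 1) := by
      rw [div_mul_eq_mul_div, div_eq_iff (by linarith : -ν ≠ 0)]
      ring
    rw [h3] at h2
    have := le_abs_self (u - f k + μ)
    linarith
  have hfk : f k ≤ u := by
    by_contra hneg
    push Not at hneg
    rcases (add_nonneg hμ0 hν0).eq_or_lt with h0 | h0
    · have h2 := hq 1 1 one_pos one_pos
      have hμz : μ = 0 := by linarith
      have hνz : ν = 0 := by linarith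
      rw [hμz, hνz] at h2
      linarith
    · have h1 : 0 < (f k - u) / (μ + ν) := div_pos (by linarith) h0
      have h2 := hq _ _ h1 h1
      have h3 : (f k - u) / (μ + ν) * μ + (f k - u) / (μ + ν) * ν = f k - u := by
        rw [← mul_add, div_mul_cancel₀ _ h0.ne']
      linarith
  have hpos : 0 < μ + ν := by
    rcases (add_nonneg hμ0 hν0).eq_or_lt with h0 | h0
    · exfalso
      have hμz : μ = 0 := by linarith
      have hνz : ν = 0 := by linarith
      have h2 := hq 1 1 one_pos one_pos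
      rw [hμz, hνz] at h2
      obtain ⟨p, hp⟩ := hne
      have h3 := hfC p hp
      rw [hf p, hf1, hf2, hμz, hνz] at h3
      rw [hf k, hf1, hf2, hμz, hνz] at h2
      simp only [mul_zero, add_zero, sub_zero] at h2 h3
      linarith
    · exact h0
  refine ⟨μ, ν, hμ0, hν0, hpos, fun p hp => ?_⟩
  have h3 := hfC p hp
  have e : μ * (σ * (p.1 - k.1)) + ν * (τ * (p.2 - k.2)) = f p - f k := by
    rw [hf p, hf k, hf1, hf2]
    ring
  rw [e]
  linarith

/-- **Planar two-plank affine inequality**, in the form used below: if the convex set `C` with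
bounding box `[a.1, b.1] × [c.2, d.2]` has no point in the four corner boxes cut off by the vertical
strip `[a.1 + S, b.1 - T]` and the horizontal strip `[c.2 + Y₁, d.2 - Y₂]`, then
`(S + T) (Y₁ + Y₂) ≤ W H`, where `W`, `H` are the widths of the two strips. -/
theorem two_plank_core (C : Set (ℝ × ℝ)) (hC : Convex ℝ C)
    (a b c d : ℝ × ℝ) (ha : a ∈ C) (hb : b ∈ C) (hc : c ∈ C) (hd : d ∈ C)
    (hyc : ∀ p ∈ C, c.2 ≤ p.2) (hyd : ∀ p ∈ C, p.2 ≤ d.2)
    (S T Y₁ Y₂ : ℝ) (hS : 0 < S) (hT : 0 < T) (hY₁ : 0 ≤ Y₁) (hY₂ : 0 ≤ Y₂)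
    (hW : S + T ≤ b.1 - a.1) (hH : Y₁ + Y₂ ≤ d.2 - c.2)
    (havoid : ∀ p ∈ C, (p.1 < a.1 + S ∨ b.1 - T < p.1) → c.2 + Y₁ ≤ p.2 ∧ p.2 ≤ d.2 - Y₂) :
    (S + T) * (Y₁ + Y₂) ≤ (b.1 - a.1 - S - T) * (d.2 - c.2 - Y₁ - Y₂) := by
  have hne : C.Nonempty := ⟨a, ha⟩
  obtain ⟨μ₁, ν₁, hμ₁, hν₁, hp₁, h₁⟩ := corner_sep C hC hne 1 1 (Or.inl rfl) (Or.inl rfl)
    (a.1 + S, c.2 + Y₁) (by
      intro p hp hlt
      have := (havoid p hp (Or.inl (by simpa using hlt))).1
      simp only [one_mul]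
      linarith)
  obtain ⟨μ₂, ν₂, hμ₂, hν₂, hp₂, h₂⟩ := corner_sep C hC hne (-1) 1 (Or.inr rfl) (Or.inl rfl)
    (b.1 - T, c.2 + Y₁) (by
      intro p hp hlt
      have := (havoid p hp (Or.inr (by simp only at hlt; linarith))).1
      simp only [one_mul]
      linarith)
  obtain ⟨μ₃, ν₃, hμ₃, hν₃, hp₃, h₃⟩ := corner_sep C hC hne (-1) (-1) (Or.inr rfl) (Or.inr rfl)
    (b.1 - T, d.2 - Y₂) (by
      intro p hp hlt
      have := (havoid p hp (Or.inr (by simp only at hlt; linarith))).2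
      simp only
      linarith)
  obtain ⟨μ₄, ν₄, hμ₄, hν₄, hp₄, h₄⟩ := corner_sep C hC hne 1 (-1) (Or.inl rfl) (Or.inr rfl)
    (a.1 + S, d.2 - Y₂) (by
      intro p hp hlt
      have := (havoid p hp (Or.inl (by simpa using hlt))).2
      simp only
      linarith)
  have e1a := h₁ a ha
  have e1c := h₁ c hc
  have e2b := h₂ b hb
  have e2c := h₂ c hc
  have e3b := h₃ b hb
  have e3d := h₃ d hd
  have e4a := h₄ a ha
  have e4d := h₄ d hd
  simp only at e1a e1c e2b e2c e3b e3d e4a e4d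
  have hν₁' : 0 < ν₁ := by
    rcases hν₁.eq_or_lt with h | h
    · rw [← h] at e1a hp₁
      nlinarith
    · exact h
  have hν₂' : 0 < ν₂ := by
    rcases hν₂.eq_or_lt with h | h
    · rw [← h] at e2b hp₂
      nlinarith
    · exact h
  have hν₃' : 0 < ν₃ := by
    rcases hν₃.eq_or_lt with h | h
    · rw [← h] at e3b hp₃
      nlinarith
    · exact h
  have hν₄' : 0 < ν₄ := by
    rcases hν₄.eq_or_lt with h | h
    · rw [← h] at e4a hp₄
      nlinarith
    · exact h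
  have hα0 : 0 ≤ a.2 - c.2 := by linarith [hyc a ha]
  have hα1 : a.2 - c.2 ≤ d.2 - c.2 := by linarith [hyd a ha]
  have hβ0 : 0 ≤ b.2 - c.2 := by linarith [hyc b hb]
  have hβ1 : b.2 - c.2 ≤ d.2 - c.2 := by linarith [hyd b hb]
  refine tp_algebra S T Y₁ Y₂ (b.1 - a.1) (d.2 - c.2) (a.2 - c.2) (b.2 - c.2) (c.1 - a.1)
    (d.1 - a.1) (μ₁ / ν₁) (μ₂ / ν₂) (μ₃ / ν₃) (μ₄ / ν₄) hS hT hY₁ hY₂ hW hH hα0 hα1 hβ0 hβ1
    (div_nonneg hμ₁ hν₁) (div_nonneg hμ₂ hν₂) (div_nonneg hμ₃ hν₃) (div_nonneg hμ₄ hν₄)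
    ?_ ?_ ?_ ?_ ?_ ?_ ?_ ?_
  · rw [div_mul_eq_mul_div, div_le_iff₀ hν₁']
    linarith
  · rw [div_mul_eq_mul_div, le_div_iff₀ hν₁']
    linarith
  · rw [div_mul_eq_mul_div, div_le_iff₀ hν₂']
    linarith
  · rw [div_mul_eq_mul_div, le_div_iff₀ hν₂']
    linarith
  · rw [div_mul_eq_mul_div, div_le_iff₀ hν₃']
    linarith
  · rw [div_mul_eq_mul_div, le_div_iff₀ hν₃']
    linarith
  · rw [div_mul_eq_mul_div, div_le_iff₀ hν₄']
    linarith
  · rw [div_mul_eq_mul_div, le_div_iff₀ hν₄']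
    linarith

/-- A point of a convex planar set at a prescribed height between the heights of two of its
points. -/
theorem seg_height (C : Set (ℝ × ℝ)) (hC : Convex ℝ C) (q p : ℝ × ℝ) (hq : q ∈ C) (hp : p ∈ C)
    (y : ℝ) (h1 : q.2 ≤ y) (h2 : y ≤ p.2) :
    ∃ r ∈ C, r.2 = y ∧ min q.1 p.1 ≤ r.1 ∧ r.1 ≤ max q.1 p.1 := by
  rcases (h1.trans h2).eq_or_lt with heq | hlt
  · refine ⟨q, hq, by linarith, min_le_left _ _, le_max_left _ _⟩
  · obtain ⟨lam, hlam⟩ : ∃ lam, lam = (y - q.2) / (p.2 - q.2) := ⟨_, rfl⟩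
    have hd : 0 < p.2 - q.2 := by linarith
    have h0 : 0 ≤ lam := by rw [hlam]; exact div_nonneg (by linarith) hd.le
    have h1' : lam ≤ 1 := by rw [hlam, div_le_one hd]; linarith
    have hmul : lam * (p.2 - q.2) = y - q.2 := by rw [hlam]; field_simp
    refine ⟨(1 - lam) • q + lam • p, hC hq hp (by linarith) h0 (by ring), ?_, ?_, ?_⟩
    · simp only [Prod.snd_add, Prod.smul_snd, smul_eq_mul]
      linarith
    · simp only [Prod.fst_add, Prod.smul_fst, smul_eq_mul]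
      have e1 : min q.1 p.1 ≤ q.1 := min_le_left _ _
      have e2 : min q.1 p.1 ≤ p.1 := min_le_right _ _
      nlinarith
    · simp only [Prod.fst_add, Prod.smul_fst, smul_eq_mul]
      have e1 : q.1 ≤ max q.1 p.1 := le_max_left _ _
      have e2 : p.1 ≤ max q.1 p.1 := le_max_right _ _
      nlinarith

/-- Heights close to the height of a point `e` of a convex set are attained by points of the set
which are homothetic images (centre `e`, ratio `θ' < θ`) of the top or the bottom point. -/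
theorem reach (C : Set (ℝ × ℝ)) (hC : Convex ℝ C) (e c d : ℝ × ℝ) (he : e ∈ C) (hc : c ∈ C)
    (hd : d ∈ C) (hec : c.2 ≤ e.2) (hed : e.2 ≤ d.2) (θ : ℝ) (hθ1 : θ ≤ 1) (y : ℝ)
    (hy1 : e.2 - θ * (e.2 - c.2) < y) (hy2 : y < e.2 + θ * (d.2 - e.2)) :
    ∃ p ∈ C, p.2 = y ∧ ∃ θ' : ℝ, ∃ q ∈ C, 0 ≤ θ' ∧ θ' < θ ∧ p.1 = e.1 + θ' * (q.1 - e.1) := by
  rcases le_or_gt e.2 y with hge | hlt
  · -- go towards the top point
    have hpos : 0 < θ * (d.2 - e.2) := by linarith
    have hdpos : 0 < d.2 - e.2 := by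
      rcases (sub_nonneg.2 hed).eq_or_lt with h | h
      · rw [← h] at hpos; simp at hpos
      · exact h
    obtain ⟨θ', hθ'⟩ : ∃ θ', θ' = (y - e.2) / (d.2 - e.2) := ⟨_, rfl⟩
    have h0 : 0 ≤ θ' := by rw [hθ']; exact div_nonneg (by linarith) hdpos.le
    have hlt : θ' < θ := by rw [hθ', div_lt_iff₀ hdpos]; linarith
    have hmul : θ' * (d.2 - e.2) = y - e.2 := by rw [hθ']; field_simp
    refine ⟨(1 - θ') • e + θ' • d, hC he hd (by linarith) h0 (by ring), ?_, θ', d, hd, h0, hlt, ?_⟩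
    · simp only [Prod.snd_add, Prod.smul_snd, smul_eq_mul]
      linarith
    · simp only [Prod.fst_add, Prod.smul_fst, smul_eq_mul]
      ring
  · have hpos : 0 < θ * (e.2 - c.2) := by linarith
    have hdpos : 0 < e.2 - c.2 := by
      rcases (sub_nonneg.2 hec).eq_or_lt with h | h
      · rw [← h] at hpos; simp at hpos
      · exact h
    obtain ⟨θ', hθ'⟩ : ∃ θ', θ' = (e.2 - y) / (e.2 - c.2) := ⟨_, rfl⟩
    have h0 : 0 ≤ θ' := by rw [hθ']; exact div_nonneg (by linarith) hdpos.le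
    have hlt' : θ' < θ := by rw [hθ', div_lt_iff₀ hdpos]; linarith
    have hmul : θ' * (e.2 - c.2) = e.2 - y := by rw [hθ']; field_simp
    refine ⟨(1 - θ') • e + θ' • c, hC he hc (by linarith) h0 (by ring), ?_, θ', c, hc, h0, hlt', ?_⟩
    · simp only [Prod.snd_add, Prod.smul_snd, smul_eq_mul]
      linarith
    · simp only [Prod.fst_add, Prod.smul_fst, smul_eq_mul]
      ring

end Vale.Agent.Lib.P243
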