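import Vale.Agent.Lib.P243.RelA

/-!
# Heights at which a planar convex set lies over an interval

Auxiliary file for problem P243 (relative form for two cylinders).  For a convex planar set `C` with
bounding box of widths `w₁`, `w₂`, the set of heights at which all points of `C` have abscissa in an
interval of length `l` has measure at most `w₂ l / w₁`.
-/

namespace Vale.Agent.Lib.P243

open MeasureTheory

/-- **Key interval inequality.**  For a convex planar set `C` with bounding box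
`[a.1, b.1] × [c.2, d.2]` and `a.1 ≤ s ≤ t ≤ b.1`, the set of heights `y` at which all points of
`C` have abscissa in `[s, t]` has measure at most `(d.2 - c.2) (t - s) / (b.1 - a.1)`. -/
theorem key_interval (C : Set (ℝ × ℝ)) (hC : Convex ℝ C)
    (a b c d : ℝ × ℝ) (ha : a ∈ C) (hb : b ∈ C) (hc : c ∈ C) (hd : d ∈ C)
    (hxa : ∀ p ∈ C, a.1 ≤ p.1) (hxb : ∀ p ∈ C, p.1 ≤ b.1)
    (hyc : ∀ p ∈ C, c.2 ≤ p.2) (hyd : ∀ p ∈ C, p.2 ≤ d.2)
    (s t : ℝ) (hs : a.1 ≤ s) (hst : s ≤ t) (ht : t ≤ b.1) :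
    volume {y : ℝ | y ∈ Set.Icc c.2 d.2 ∧ ∀ p ∈ C, p.2 = y → s ≤ p.1 ∧ p.1 ≤ t}
        * ENNReal.ofReal (b.1 - a.1)
      ≤ ENNReal.ofReal ((d.2 - c.2) * (t - s)) := by
  obtain ⟨Y, hY⟩ : ∃ Y : Set ℝ,
      Y = {y : ℝ | y ∈ Set.Icc c.2 d.2 ∧ ∀ p ∈ C, p.2 = y → s ≤ p.1 ∧ p.1 ≤ t} := ⟨_, rfl⟩
  rw [← hY]
  have hYmem : ∀ y, y ∈ Y ↔ y ∈ Set.Icc c.2 d.2 ∧ ∀ p ∈ C, p.2 = y → s ≤ p.1 ∧ p.1 ≤ t := by
    intro y; rw [hY]; rfl
  obtain ⟨w₁, hw₁⟩ : ∃ w₁, w₁ = b.1 - a.1 := ⟨_, rfl⟩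
  obtain ⟨w₂, hw₂⟩ : ∃ w₂, w₂ = d.2 - c.2 := ⟨_, rfl⟩
  rw [← hw₁, ← hw₂]
  have hw₁0 : 0 ≤ w₁ := by rw [hw₁]; linarith
  have hw₂0 : 0 ≤ w₂ := by rw [hw₂]; linarith [hyc d hd]
  rcases hw₁0.eq_or_lt with hz | hw₁pos
  · rw [← hz]; simp
  have hac : c.2 ≤ a.2 := hyc a ha
  have had : a.2 ≤ d.2 := hyd a ha
  have hbc : c.2 ≤ b.2 := hyc b hb
  have hbd : b.2 ≤ d.2 := hyd b hb
  obtain ⟨θ₁, hθ₁⟩ : ∃ θ₁, θ₁ = (s - a.1) / w₁ := ⟨_, rfl⟩
  obtain ⟨θ₂, hθ₂⟩ : ∃ θ₂, θ₂ = (b.1 - t) / w₁ := ⟨_, rfl⟩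
  have hθ₁w : θ₁ * w₁ = s - a.1 := by rw [hθ₁]; field_simp
  have hθ₂w : θ₂ * w₁ = b.1 - t := by rw [hθ₂]; field_simp
  have hθ₁0 : 0 ≤ θ₁ := by rw [hθ₁]; exact div_nonneg (by linarith) hw₁0
  have hθ₂0 : 0 ≤ θ₂ := by rw [hθ₂]; exact div_nonneg (by linarith) hw₁0
  have hθsum : θ₁ + θ₂ ≤ 1 := by
    have : (θ₁ + θ₂) * w₁ ≤ 1 * w₁ := by rw [add_mul, hθ₁w, hθ₂w, hw₁]; linarith
    exact le_of_mul_le_mul_right this hw₁pos
  have hθ₁1 : θ₁ ≤ 1 := by linarith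
  have hθ₂1 : θ₂ ≤ 1 := by linarith
  obtain ⟨I₁, hI₁⟩ : ∃ I₁ : Set ℝ,
      I₁ = Set.Ioo (a.2 - θ₁ * (a.2 - c.2)) (a.2 + θ₁ * (d.2 - a.2)) := ⟨_, rfl⟩
  obtain ⟨I₂, hI₂⟩ : ∃ I₂ : Set ℝ,
      I₂ = Set.Ioo (b.2 - θ₂ * (b.2 - c.2)) (b.2 + θ₂ * (d.2 - b.2)) := ⟨_, rfl⟩
  -- heights in `I₁` carry points to the left of `s`, heights in `I₂` points to the right of `t`
  have hbad₁ : ∀ y ∈ I₁, ∃ p ∈ C, p.2 = y ∧ p.1 < s := by
    intro y hy
    rw [hI₁] at hy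
    obtain ⟨p, hp, hpy, θ', q, hq, h0, hlt, hp1⟩ :=
      reach C hC a c d ha hc hd hac had θ₁ hθ₁1 y hy.1 hy.2
    refine ⟨p, hp, hpy, ?_⟩
    rw [hp1]
    have hq1 : q.1 - a.1 ≤ w₁ := by rw [hw₁]; linarith [hxb q hq]
    have : θ' * (q.1 - a.1) ≤ θ' * w₁ := mul_le_mul_of_nonneg_left hq1 h0
    have : θ' * w₁ < θ₁ * w₁ := mul_lt_mul_of_pos_right hlt hw₁pos
    linarith
  have hbad₂ : ∀ y ∈ I₂, ∃ p ∈ C, p.2 = y ∧ t < p.1 := by
    intro y hy
    rw [hI₂] at hy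
    obtain ⟨p, hp, hpy, θ', q, hq, h0, hlt, hp1⟩ :=
      reach C hC b c d hb hc hd hbc hbd θ₂ hθ₂1 y hy.1 hy.2
    refine ⟨p, hp, hpy, ?_⟩
    rw [hp1]
    have hq1 : -w₁ ≤ q.1 - b.1 := by rw [hw₁]; linarith [hxa q hq]
    have : θ' * (-w₁) ≤ θ' * (q.1 - b.1) := mul_le_mul_of_nonneg_left hq1 h0
    have : θ' * w₁ < θ₂ * w₁ := mul_lt_mul_of_pos_right hlt hw₁pos
    linarith
  have hYI₁ : Disjoint Y I₁ := by
    rw [Set.disjoint_left]
    intro y hyY hyI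
    obtain ⟨p, hp, hpy, hlt⟩ := hbad₁ y hyI
    have := ((hYmem y).1 hyY).2 p hp hpy
    linarith [this.1]
  have hYI₂ : Disjoint Y I₂ := by
    rw [Set.disjoint_left]
    intro y hyY hyI
    obtain ⟨p, hp, hpy, hlt⟩ := hbad₂ y hyI
    have := ((hYmem y).1 hyY).2 p hp hpy
    linarith [this.2]
  have hYsub : Y ⊆ Set.Icc c.2 d.2 := fun y hy => ((hYmem y).1 hy).1
  have hI₁sub : I₁ ⊆ Set.Icc c.2 d.2 := by
    intro y hy
    rw [hI₁] at hy
    have e1 : 0 ≤ (1 - θ₁) * (a.2 - c.2) := mul_nonneg (by linarith) (by linarith)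
    have e2 : 0 ≤ (1 - θ₁) * (d.2 - a.2) := mul_nonneg (by linarith) (by linarith)
    constructor
    · have := hy.1; nlinarith
    · have := hy.2; nlinarith
  have hI₂sub : I₂ ⊆ Set.Icc c.2 d.2 := by
    intro y hy
    rw [hI₂] at hy
    have e1 : 0 ≤ (1 - θ₂) * (b.2 - c.2) := mul_nonneg (by linarith) (by linarith)
    have e2 : 0 ≤ (1 - θ₂) * (d.2 - b.2) := mul_nonneg (by linarith) (by linarith)
    constructor
    · have := hy.1; nlinarith
    · have := hy.2; nlinarith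
  have hvI₁ : volume I₁ = ENNReal.ofReal (θ₁ * w₂) := by
    rw [hI₁, Real.volume_Ioo, hw₂]
    congr 1
    ring
  have hvI₂ : volume I₂ = ENNReal.ofReal (θ₂ * w₂) := by
    rw [hI₂, Real.volume_Ioo, hw₂]
    congr 1
    ring
  have hts : t - s = (1 - θ₁ - θ₂) * w₁ := by
    have : (1 - θ₁ - θ₂) * w₁ = w₁ - θ₁ * w₁ - θ₂ * w₁ := by ring
    rw [this, hθ₁w, hθ₂w, hw₁]
    ring
  by_cases hdis : Disjoint I₁ I₂
  · -- the two bad intervals are disjoint: count measures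
    have hmI₁ : MeasurableSet I₁ := by rw [hI₁]; exact measurableSet_Ioo
    have hmI₂ : MeasurableSet I₂ := by rw [hI₂]; exact measurableSet_Ioo
    have hsum : volume Y + volume I₁ + volume I₂ ≤ ENNReal.ofReal w₂ := by
      have hd2 : Disjoint (Y ∪ I₁) I₂ := Set.disjoint_union_left.2 ⟨hYI₂, hdis⟩
      calc volume Y + volume I₁ + volume I₂
          = volume (Y ∪ I₁) + volume I₂ := by rw [measure_union hYI₁ hmI₁]
        _ = volume (Y ∪ I₁ ∪ I₂) := by rw [measure_union hd2 hmI₂]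
        _ ≤ volume (Set.Icc c.2 d.2) :=
            measure_mono (Set.union_subset (Set.union_subset hYsub hI₁sub) hI₂sub)
        _ = ENNReal.ofReal w₂ := by rw [Real.volume_Icc, hw₂]
    have hY' : volume Y ≤ ENNReal.ofReal ((1 - θ₁ - θ₂) * w₂) := by
      rw [hvI₁, hvI₂, add_assoc,
        ← ENNReal.ofReal_add (mul_nonneg hθ₁0 hw₂0) (mul_nonneg hθ₂0 hw₂0)] at hsum
      have h1 : volume Y ≤ ENNReal.ofReal w₂ - ENNReal.ofReal (θ₁ * w₂ + θ₂ * w₂) :=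
        ENNReal.le_sub_of_add_le_right ENNReal.ofReal_ne_top hsum
      rw [← ENNReal.ofReal_sub _ (add_nonneg (mul_nonneg hθ₁0 hw₂0) (mul_nonneg hθ₂0 hw₂0))] at h1
      have e : w₂ - (θ₁ * w₂ + θ₂ * w₂) = (1 - θ₁ - θ₂) * w₂ := by ring
      rw [e] at h1
      exact h1
    calc volume Y * ENNReal.ofReal w₁
        ≤ ENNReal.ofReal ((1 - θ₁ - θ₂) * w₂) * ENNReal.ofReal w₁ := by gcongr
      _ = ENNReal.ofReal ((1 - θ₁ - θ₂) * w₂ * w₁) := by
          rw [← ENNReal.ofReal_mul (mul_nonneg (by linarith) hw₂0)]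
      _ = ENNReal.ofReal (w₂ * (t - s)) := by
          congr 1
          rw [hts]
          ring
  · -- the bad intervals meet: two-plank inequality
    obtain ⟨ys, hys1, hys2⟩ := Set.not_disjoint_iff.1 hdis
    obtain ⟨p₁, hp₁, hp₁y, hp₁s⟩ := hbad₁ ys hys1
    obtain ⟨p₂, hp₂, hp₂y, hp₂t⟩ := hbad₂ ys hys2
    have hSpos : 0 < s - a.1 := by linarith [hxa p₁ hp₁]
    have hTpos : 0 < b.1 - t := by linarith [hxb p₂ hp₂]
    obtain ⟨I, hIdef⟩ : ∃ I : Set ℝ, I = {y | ∃ p ∈ C, p.2 = y ∧ (p.1 < s ∨ t < p.1)} := ⟨_, rfl⟩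
    have hImem : ∀ y, y ∈ I ↔ ∃ p ∈ C, p.2 = y ∧ (p.1 < s ∨ t < p.1) := by
      intro y; rw [hIdef]; rfl
    have hysI : ys ∈ I := (hImem ys).2 ⟨p₁, hp₁, hp₁y, Or.inl hp₁s⟩
    have hIsub : I ⊆ Set.Icc c.2 d.2 := by
      intro y hy
      obtain ⟨p, hp, hpy, -⟩ := (hImem y).1 hy
      rw [← hpy]
      exact ⟨hyc p hp, hyd p hp⟩
    have hIbb : BddBelow I := ⟨c.2, fun y hy => (hIsub hy).1⟩
    have hIba : BddAbove I := ⟨d.2, fun y hy => (hIsub hy).2⟩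
    obtain ⟨lo, hlo⟩ : ∃ lo, lo = sInf I := ⟨_, rfl⟩
    obtain ⟨hi, hhi⟩ : ∃ hi, hi = sSup I := ⟨_, rfl⟩
    have hlo1 : c.2 ≤ lo := by rw [hlo]; exact le_csInf ⟨ys, hysI⟩ (fun y hy => (hIsub hy).1)
    have hlo2 : lo ≤ ys := by rw [hlo]; exact csInf_le hIbb hysI
    have hhi1 : hi ≤ d.2 := by rw [hhi]; exact csSup_le ⟨ys, hysI⟩ (fun y hy => (hIsub hy).2)
    have hhi2 : ys ≤ hi := by rw [hhi]; exact le_csSup hIba hysI
    -- every height strictly between `lo` and `hi` is bad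
    have hmid : ∀ y, lo < y → y < hi → y ∈ I := by
      intro y hy1 hy2
      rcases le_total y ys with hle | hge
      · rw [hlo] at hy1
        obtain ⟨y', hy'I, hy'lt⟩ := exists_lt_of_csInf_lt ⟨ys, hysI⟩ hy1
        obtain ⟨q, hq, hqy, hqbad⟩ := (hImem y').1 hy'I
        rcases hqbad with hql | hqr
        · obtain ⟨r, hr, hry, -, hr2⟩ := seg_height C hC q p₁ hq hp₁ y (by linarith) (by linarith)
          exact (hImem y).2 ⟨r, hr, hry, Or.inl (lt_of_le_of_lt hr2 (max_lt hql hp₁s))⟩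
        · obtain ⟨r, hr, hry, hr1, -⟩ := seg_height C hC q p₂ hq hp₂ y (by linarith) (by linarith)
          exact (hImem y).2 ⟨r, hr, hry, Or.inr (lt_of_lt_of_le (lt_min hqr hp₂t) hr1)⟩
      · rw [hhi] at hy2
        obtain ⟨y', hy'I, hy'lt⟩ := exists_lt_of_lt_csSup ⟨ys, hysI⟩ hy2
        obtain ⟨q, hq, hqy, hqbad⟩ := (hImem y').1 hy'I
        rcases hqbad with hql | hqr
        · obtain ⟨r, hr, hry, -, hr2⟩ := seg_height C hC p₁ q hp₁ hq y (by linarith) (by linarith)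
          exact (hImem y).2 ⟨r, hr, hry, Or.inl (lt_of_le_of_lt hr2 (max_lt hp₁s hql))⟩
        · obtain ⟨r, hr, hry, hr1, -⟩ := seg_height C hC p₂ q hp₂ hq y (by linarith) (by linarith)
          exact (hImem y).2 ⟨r, hr, hry, Or.inr (lt_of_lt_of_le (lt_min hp₂t hqr) hr1)⟩
    have hYI : ∀ y ∈ Y, y ∉ I := by
      intro y hyY hyI
      obtain ⟨p, hp, hpy, hpbad⟩ := (hImem y).1 hyI
      have := ((hYmem y).1 hyY).2 p hp hpy
      rcases hpbad with h | h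
      · linarith [this.1]
      · linarith [this.2]
    have hYcover : Y ⊆ Set.Icc c.2 lo ∪ Set.Icc hi d.2 := by
      intro y hyY
      have hyIcc := hYsub hyY
      by_cases h1 : y ≤ lo
      · exact Or.inl ⟨hyIcc.1, h1⟩
      · by_cases h2 : hi ≤ y
        · exact Or.inr ⟨h2, hyIcc.2⟩
        · exact absurd (hmid y (not_le.1 h1) (not_le.1 h2)) (hYI y hyY)
    have hvY : volume Y ≤ ENNReal.ofReal ((lo - c.2) + (d.2 - hi)) := by
      calc volume Y ≤ volume (Set.Icc c.2 lo ∪ Set.Icc hi d.2) := measure_mono hYcover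
        _ ≤ volume (Set.Icc c.2 lo) + volume (Set.Icc hi d.2) := measure_union_le _ _
        _ = ENNReal.ofReal ((lo - c.2) + (d.2 - hi)) := by
            rw [Real.volume_Icc, Real.volume_Icc,
              ← ENNReal.ofReal_add (by linarith) (by linarith)]
    have htp := two_plank_core C hC a b c d ha hb hc hd hyc hyd (s - a.1) (b.1 - t)
      (lo - c.2) (d.2 - hi) hSpos hTpos (by linarith) (by linarith) (by linarith) (by linarith)
      (by
        intro p hp hbad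
        have hpI : p.2 ∈ I := (hImem p.2).2 ⟨p, hp, rfl, by
          rcases hbad with h | h
          · exact Or.inl (by linarith)
          · exact Or.inr (by linarith)⟩
        constructor
        · have : sInf I ≤ p.2 := csInf_le hIbb hpI
          rw [← hlo] at this
          linarith
        · have : p.2 ≤ sSup I := le_csSup hIba hpI
          rw [← hhi] at this
          linarith)
    have hfin : ((lo - c.2) + (d.2 - hi)) * w₁ ≤ w₂ * (t - s) := by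
      rw [hw₁, hw₂]
      nlinarith
    calc volume Y * ENNReal.ofReal w₁
        ≤ ENNReal.ofReal ((lo - c.2) + (d.2 - hi)) * ENNReal.ofReal w₁ := by gcongr
      _ = ENNReal.ofReal (((lo - c.2) + (d.2 - hi)) * w₁) := by
          rw [← ENNReal.ofReal_mul (by linarith)]
      _ ≤ ENNReal.ofReal (w₂ * (t - s)) := ENNReal.ofReal_le_ofReal hfin

/-- Version of `key_interval` for an arbitrary open interval `(s, t)`. -/
theorem key_interval_open (C : Set (ℝ × ℝ)) (hC : Convex ℝ C)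
    (a b c d : ℝ × ℝ) (ha : a ∈ C) (hb : b ∈ C) (hc : c ∈ C) (hd : d ∈ C)
    (hxa : ∀ p ∈ C, a.1 ≤ p.1) (hxb : ∀ p ∈ C, p.1 ≤ b.1)
    (hyc : ∀ p ∈ C, c.2 ≤ p.2) (hyd : ∀ p ∈ C, p.2 ≤ d.2)
    (s t : ℝ) (hst : s ≤ t) :
    volume {y : ℝ | y ∈ Set.Icc c.2 d.2 ∧ ∀ p ∈ C, p.2 = y → s < p.1 ∧ p.1 < t}
        * ENNReal.ofReal (b.1 - a.1)
      ≤ ENNReal.ofReal ((d.2 - c.2) * (t - s)) := by
  have hab : a.1 ≤ b.1 := hxb a ha
  have hcd : c.2 ≤ d.2 := hyd c hc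
  obtain ⟨s', hs'⟩ : ∃ s', s' = max a.1 (min s b.1) := ⟨_, rfl⟩
  obtain ⟨t', ht'⟩ : ∃ t', t' = max s' (min t b.1) := ⟨_, rfl⟩
  have h1 : a.1 ≤ s' := by rw [hs']; exact le_max_left _ _
  have h2 : s' ≤ t' := by rw [ht']; exact le_max_left _ _
  have h3 : t' ≤ b.1 := by
    rw [ht']
    exact max_le (by rw [hs']; exact max_le hab (min_le_right _ _)) (min_le_right _ _)
  have h4 : t' - s' ≤ t - s := by
    rcases le_total s' (min t b.1) with hc1 | hc1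
    · rw [ht', max_eq_right hc1]
      rcases le_total s b.1 with hc2 | hc2
      · have : s ≤ s' := by rw [hs', min_eq_left hc2]; exact le_max_right _ _
        linarith [min_le_left t b.1]
      · have : b.1 ≤ s' := by rw [hs', min_eq_right hc2]; exact le_max_right _ _
        linarith [min_le_right t b.1]
    · rw [ht', max_eq_left hc1]
      linarith
  have hsub : {y : ℝ | y ∈ Set.Icc c.2 d.2 ∧ ∀ p ∈ C, p.2 = y → s < p.1 ∧ p.1 < t}
      ⊆ {y : ℝ | y ∈ Set.Icc c.2 d.2 ∧ ∀ p ∈ C, p.2 = y → s' ≤ p.1 ∧ p.1 ≤ t'} := by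
    rintro y ⟨hy, hall⟩
    refine ⟨hy, fun p hp hpy => ?_⟩
    obtain ⟨e1, e2⟩ := hall p hp hpy
    constructor
    · rw [hs']
      exact max_le (hxa p hp) ((min_le_left _ _).trans e1.le)
    · rw [ht']
      exact (le_min e2.le (hxb p hp)).trans (le_max_right _ _)
  calc volume {y : ℝ | y ∈ Set.Icc c.2 d.2 ∧ ∀ p ∈ C, p.2 = y → s < p.1 ∧ p.1 < t}
        * ENNReal.ofReal (b.1 - a.1)
      ≤ volume {y : ℝ | y ∈ Set.Icc c.2 d.2 ∧ ∀ p ∈ C, p.2 = y → s' ≤ p.1 ∧ p.1 ≤ t'}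
        * ENNReal.ofReal (b.1 - a.1) := mul_le_mul_left (measure_mono hsub) _
    _ ≤ ENNReal.ofReal ((d.2 - c.2) * (t' - s')) :=
        key_interval C hC a b c d ha hb hc hd hxa hxb hyc hyd s' t' h1 h2 h3
    _ ≤ ENNReal.ofReal ((d.2 - c.2) * (t - s)) :=
        ENNReal.ofReal_le_ofReal (mul_le_mul_of_nonneg_left h4 (by linarith))

/-- The heights at which all points of `C` have abscissa in an open order-connected set `J`. -/
theorem component_bound (C : Set (ℝ × ℝ)) (hC : Convex ℝ C)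
    (a b c d : ℝ × ℝ) (ha : a ∈ C) (hb : b ∈ C) (hc : c ∈ C) (hd : d ∈ C)
    (hxa : ∀ p ∈ C, a.1 ≤ p.1) (hxb : ∀ p ∈ C, p.1 ≤ b.1)
    (hyc : ∀ p ∈ C, c.2 ≤ p.2) (hyd : ∀ p ∈ C, p.2 ≤ d.2) (hw₂ : c.2 < d.2)
    (J : Set ℝ) (hJo : IsOpen J) (hJc : J.OrdConnected) (hJne : J.Nonempty) :
    volume {y : ℝ | y ∈ Set.Icc c.2 d.2 ∧ ∀ p ∈ C, p.2 = y → p.1 ∈ J}
        * ENNReal.ofReal (b.1 - a.1)
      ≤ volume J * ENNReal.ofReal (d.2 - c.2) := by
  by_cases hbdd : BddBelow J ∧ BddAbove J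
  · obtain ⟨hbb, hba⟩ := hbdd
    have hsub : J ⊆ Set.Ioo (sInf J) (sSup J) := by
      intro x hx
      obtain ⟨ε, hε, hball⟩ := Metric.isOpen_iff.1 hJo x hx
      have hl : x - ε / 2 ∈ J := hball (by
        rw [Metric.mem_ball, Real.dist_eq, abs_lt]
        constructor <;> linarith)
      have hr : x + ε / 2 ∈ J := hball (by
        rw [Metric.mem_ball, Real.dist_eq, abs_lt]
        constructor <;> linarith)
      have h3 : sInf J ≤ x - ε / 2 := csInf_le hbb hl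
      have h4 : x + ε / 2 ≤ sSup J := le_csSup hba hr
      exact ⟨by linarith, by linarith⟩
    have hsup : Set.Ioo (sInf J) (sSup J) ⊆ J := by
      intro x hx
      obtain ⟨y, hy, hyx⟩ := exists_lt_of_csInf_lt hJne hx.1
      obtain ⟨z, hz, hxz⟩ := exists_lt_of_lt_csSup hJne hx.2
      exact hJc.out hy hz ⟨hyx.le, hxz.le⟩
    have hle : sInf J ≤ sSup J := by
      obtain ⟨x, hx⟩ := hJne
      exact (csInf_le hbb hx).trans (le_csSup hba hx)
    have hsubY : {y : ℝ | y ∈ Set.Icc c.2 d.2 ∧ ∀ p ∈ C, p.2 = y → p.1 ∈ J}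
        ⊆ {y : ℝ | y ∈ Set.Icc c.2 d.2 ∧ ∀ p ∈ C, p.2 = y → sInf J < p.1 ∧ p.1 < sSup J} := by
      rintro y ⟨hy, hall⟩
      exact ⟨hy, fun p hp hpy => hsub (hall p hp hpy)⟩
    calc volume {y : ℝ | y ∈ Set.Icc c.2 d.2 ∧ ∀ p ∈ C, p.2 = y → p.1 ∈ J}
          * ENNReal.ofReal (b.1 - a.1)
        ≤ volume {y : ℝ | y ∈ Set.Icc c.2 d.2 ∧ ∀ p ∈ C, p.2 = y → sInf J < p.1 ∧ p.1 < sSup J}
          * ENNReal.ofReal (b.1 - a.1) := mul_le_mul_left (measure_mono hsubY) _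
      _ ≤ ENNReal.ofReal ((d.2 - c.2) * (sSup J - sInf J)) :=
          key_interval_open C hC a b c d ha hb hc hd hxa hxb hyc hyd _ _ hle
      _ = volume (Set.Ioo (sInf J) (sSup J)) * ENNReal.ofReal (d.2 - c.2) := by
          rw [Real.volume_Ioo, mul_comm, ENNReal.ofReal_mul (by linarith)]
      _ ≤ volume J * ENNReal.ofReal (d.2 - c.2) := mul_le_mul_left (measure_mono hsup) _
  · have htop : volume J = ⊤ := by
      apply ENNReal.eq_top_of_forall_nnreal_le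
      intro q
      obtain ⟨r, hr⟩ := hJne
      rw [not_and_or] at hbdd
      rcases hbdd with h | h
      · rw [not_bddBelow_iff] at h
        obtain ⟨z, hz, hzlt⟩ := h (r - q)
        calc (q : ENNReal) = ENNReal.ofReal q := (ENNReal.ofReal_coe_nnreal).symm
          _ ≤ ENNReal.ofReal (r - z) := ENNReal.ofReal_le_ofReal (by linarith)
          _ = volume (Set.Icc z r) := Real.volume_Icc.symm
          _ ≤ volume J := measure_mono (fun x hx => hJc.out hz hr hx)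
      · rw [not_bddAbove_iff] at h
        obtain ⟨z, hz, hzlt⟩ := h (r + q)
        calc (q : ENNReal) = ENNReal.ofReal q := (ENNReal.ofReal_coe_nnreal).symm
          _ ≤ ENNReal.ofReal (z - r) := ENNReal.ofReal_le_ofReal (by linarith)
          _ = volume (Set.Icc r z) := Real.volume_Icc.symm
          _ ≤ volume J := measure_mono (fun x hx => hJc.out hr hz hx)
    rw [htop, ENNReal.top_mul (by
      rw [Ne, ENNReal.ofReal_eq_zero, not_le]
      linarith)]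
    exact le_top

/-- Points of a convex planar set at the same height: the horizontal segment between them. -/
theorem seg_abscissa (C : Set (ℝ × ℝ)) (hC : Convex ℝ C) (p q : ℝ × ℝ) (hp : p ∈ C) (hq : q ∈ C)
    (y : ℝ) (hpy : p.2 = y) (hqy : q.2 = y) (x : ℝ) (hx : x ∈ Set.uIcc p.1 q.1) :
    (x, y) ∈ C := by
  have hseg : segment ℝ p q ⊆ C := hC.segment_subset hp hq
  apply hseg
  have hx' : x ∈ segment ℝ p.1 q.1 := by rw [segment_eq_uIcc]; exact hx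
  obtain ⟨u, v, hu, hv, huv, hxe⟩ := hx'
  refine ⟨u, v, hu, hv, huv, ?_⟩
  ext
  · simpa using hxe
  · simp only [Prod.snd_add, Prod.smul_snd, smul_eq_mul]
    rw [hpy, hqy, ← add_mul, huv, one_mul]

end Vale.Agent.Lib.P243
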