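import Vale.Agent.Lib.P243.RelB

/-!
# The planar two-direction affine plank inequality for arbitrary cross-sections

Auxiliary file for problem P243 (relative form for two cylinders).
-/

namespace Vale.Agent.Lib.P243

open MeasureTheory

/-- The planar two-direction inequality when the first cross-section is open. -/
theorem planar_open (C : Set (ℝ × ℝ)) (hC : Convex ℝ C)
    (a b c d : ℝ × ℝ) (ha : a ∈ C) (hb : b ∈ C) (hc : c ∈ C) (hd : d ∈ C)
    (hxa : ∀ p ∈ C, a.1 ≤ p.1) (hxb : ∀ p ∈ C, p.1 ≤ b.1)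
    (hyc : ∀ p ∈ C, c.2 ≤ p.2) (hyd : ∀ p ∈ C, p.2 ≤ d.2) (hw₂ : c.2 < d.2)
    (U : Set ℝ) (hU : IsOpen U) (A₂ : Set ℝ) (hcov : ∀ p ∈ C, p.1 ∈ U ∨ p.2 ∈ A₂) :
    ENNReal.ofReal (b.1 - a.1) * ENNReal.ofReal (d.2 - c.2) ≤
      volume U * ENNReal.ofReal (d.2 - c.2) + volume A₂ * ENNReal.ofReal (b.1 - a.1) := by
  obtain ⟨R, hR⟩ : ∃ R : Set ℝ, R = Set.ordConnectedSection U := ⟨_, rfl⟩
  obtain ⟨J, hJ⟩ : ∃ J : ℝ → Set ℝ, J = fun r => Set.ordConnectedComponent U r := ⟨_, rfl⟩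
  obtain ⟨Y, hY⟩ : ∃ Y : ℝ → Set ℝ,
      Y = fun r => {y : ℝ | y ∈ Set.Icc c.2 d.2 ∧ ∀ p ∈ C, p.2 = y → p.1 ∈ J r} := ⟨_, rfl⟩
  have hRU : R ⊆ U := by rw [hR]; exact Set.ordConnectedSection_subset
  have hJsub : ∀ r, J r ⊆ U := fun r => by rw [hJ]; exact Set.ordConnectedComponent_subset
  have hJopen : ∀ r, IsOpen (J r) := by
    intro r
    rw [isOpen_iff_mem_nhds]
    intro y hy
    have hyU : y ∈ U := hJsub r hy
    have hJr : J r = Set.ordConnectedComponent U y := by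
      rw [hJ] at hy ⊢
      exact Set.ordConnectedComponent_eq hy
    rw [hJr]
    exact Set.ordConnectedComponent_mem_nhds.2 (hU.mem_nhds hyU)
  have hJself : ∀ r ∈ R, r ∈ J r := by
    intro r hr
    rw [hJ]
    exact Set.self_mem_ordConnectedComponent.2 (hRU hr)
  have hJdisj : R.PairwiseDisjoint J := by
    intro r hr r' hr' hne
    show Disjoint (J r) (J r')
    rw [Set.disjoint_left]
    intro z hz hz'
    apply hne
    rw [hR] at hr hr'
    apply Set.eq_of_mem_ordConnectedSection_of_uIcc_subset hr hr'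
    rw [hJ] at hz hz'
    have h1 : Set.uIcc r z ⊆ U := hz
    have h2 : Set.uIcc z r' ⊆ U := by rw [Set.uIcc_comm]; exact hz'
    exact Set.uIcc_subset_uIcc_union_uIcc.trans (Set.union_subset h1 h2)
  have hRc : R.Countable :=
    hJdisj.countable_of_isOpen (fun r _ => hJopen r) (fun r hr => ⟨r, hJself r hr⟩)
  have hJU : (⋃ r ∈ R, J r) ⊆ U := Set.iUnion₂_subset (fun r _ => hJsub r)
  have hcover : Set.Icc c.2 d.2 ⊆ (⋃ r ∈ R, Y r) ∪ A₂ := by
    intro y hy
    by_cases hyA : y ∈ A₂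
    · exact Or.inr hyA
    · left
      obtain ⟨p₀, hp₀, hp₀y, -, -⟩ := seg_height C hC c d hc hd y hy.1 hy.2
      have hmemU : ∀ p ∈ C, p.2 = y → p.1 ∈ U := by
        intro p hp hpy
        rcases hcov p hp with h | h
        · exact h
        · rw [hpy] at h
          exact absurd h hyA
      have hx₀ : p₀.1 ∈ U := hmemU p₀ hp₀ hp₀y
      have hrR : Set.ordConnectedProj U ⟨p₀.1, hx₀⟩ ∈ R := by
        rw [hR]
        exact Set.mem_range_self _
      have hJr : J (Set.ordConnectedProj U ⟨p₀.1, hx₀⟩) = Set.ordConnectedComponent U p₀.1 := by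
        rw [hJ]
        exact Set.ordConnectedComponent_ordConnectedProj U ⟨p₀.1, hx₀⟩
      refine Set.mem_biUnion hrR ?_
      rw [hY]
      refine ⟨hy, fun p hp hpy => ?_⟩
      rw [hJr, Set.mem_ordConnectedComponent]
      intro x hx
      exact hmemU (x, y) (seg_abscissa C hC p₀ p hp₀ hp y hp₀y hpy x hx) rfl
  have hcomp : ∀ r ∈ R, volume (Y r) * ENNReal.ofReal (b.1 - a.1)
      ≤ volume (J r) * ENNReal.ofReal (d.2 - c.2) := by
    intro r hr
    have hoc : (J r).OrdConnected := by rw [hJ]; infer_instance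
    have h := component_bound C hC a b c d ha hb hc hd hxa hxb hyc hyd hw₂ (J r) (hJopen r)
      hoc ⟨r, hJself r hr⟩
    rw [hY]
    exact h
  have hJm : ∀ r ∈ R, MeasurableSet (J r) := fun r _ => (hJopen r).measurableSet
  calc ENNReal.ofReal (b.1 - a.1) * ENNReal.ofReal (d.2 - c.2)
      = volume (Set.Icc c.2 d.2) * ENNReal.ofReal (b.1 - a.1) := by
        rw [Real.volume_Icc, mul_comm]
    _ ≤ (volume (⋃ r ∈ R, Y r) + volume A₂) * ENNReal.ofReal (b.1 - a.1) :=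
        mul_le_mul_left ((measure_mono hcover).trans (measure_union_le _ _)) _
    _ ≤ ((∑' r : R, volume (Y r)) + volume A₂) * ENNReal.ofReal (b.1 - a.1) :=
        mul_le_mul_left (add_le_add_left (measure_biUnion_le volume hRc Y) _) _
    _ = (∑' r : R, volume (Y r) * ENNReal.ofReal (b.1 - a.1))
          + volume A₂ * ENNReal.ofReal (b.1 - a.1) := by
        rw [add_mul, ENNReal.tsum_mul_right]
    _ ≤ (∑' r : R, volume (J r) * ENNReal.ofReal (d.2 - c.2))
          + volume A₂ * ENNReal.ofReal (b.1 - a.1) :=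
        add_le_add_left (ENNReal.tsum_le_tsum (fun r : ↥R => hcomp r.1 r.2)) _
    _ = volume (⋃ r ∈ R, J r) * ENNReal.ofReal (d.2 - c.2)
          + volume A₂ * ENNReal.ofReal (b.1 - a.1) := by
        rw [ENNReal.tsum_mul_right, measure_biUnion hRc hJdisj hJm]
    _ ≤ volume U * ENNReal.ofReal (d.2 - c.2) + volume A₂ * ENNReal.ofReal (b.1 - a.1) :=
        add_le_add_left (mul_le_mul_left (measure_mono hJU) _) _

/-- **Planar two-direction affine plank inequality for arbitrary cross-sections.**  Let `C` be a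
convex planar set with bounding box `[a.1, b.1] × [c.2, d.2]` (the points `a, b, c, d ∈ C` touch the
four sides).  If every point `p` of `C` has `p.1 ∈ A₁` or `p.2 ∈ A₂`, where `A₁, A₂` are arbitrary
sets of reals, then `|A₁| / w₁ + |A₂| / w₂ ≥ 1`, i.e. `w₁ w₂ ≤ |A₁| w₂ + |A₂| w₁`, with `w₁, w₂` the
side lengths of the bounding box and `|·|` Lebesgue outer measure. -/
theorem planar_two (C : Set (ℝ × ℝ)) (hC : Convex ℝ C)
    (a b c d : ℝ × ℝ) (ha : a ∈ C) (hb : b ∈ C) (hc : c ∈ C) (hd : d ∈ C)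
    (hxa : ∀ p ∈ C, a.1 ≤ p.1) (hxb : ∀ p ∈ C, p.1 ≤ b.1)
    (hyc : ∀ p ∈ C, c.2 ≤ p.2) (hyd : ∀ p ∈ C, p.2 ≤ d.2)
    (A₁ A₂ : Set ℝ) (hcov : ∀ p ∈ C, p.1 ∈ A₁ ∨ p.2 ∈ A₂) :
    ENNReal.ofReal (b.1 - a.1) * ENNReal.ofReal (d.2 - c.2) ≤
      volume A₁ * ENNReal.ofReal (d.2 - c.2) + volume A₂ * ENNReal.ofReal (b.1 - a.1) := by
  have hcd : c.2 ≤ d.2 := hyd c hc
  rcases hcd.eq_or_lt with h2 | h2
  · rw [h2]
    simp
  apply ENNReal.le_of_forall_pos_le_add
  intro ε hε _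
  have hw2 : ENNReal.ofReal (d.2 - c.2) ≠ 0 := by
    rw [Ne, ENNReal.ofReal_eq_zero, not_le]
    linarith
  have hε' : (ε : ENNReal) / ENNReal.ofReal (d.2 - c.2) ≠ 0 := by
    rw [Ne, ENNReal.div_eq_zero_iff, not_or]
    exact ⟨by exact_mod_cast hε.ne', ENNReal.ofReal_ne_top⟩
  obtain ⟨U, hAU, hUo, hUle⟩ := Set.exists_isOpen_le_add A₁ volume hε'
  have hmain := planar_open C hC a b c d ha hb hc hd hxa hxb hyc hyd h2 U hUo A₂
    (fun p hp => (hcov p hp).imp (fun h => hAU h) id)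
  calc ENNReal.ofReal (b.1 - a.1) * ENNReal.ofReal (d.2 - c.2)
      ≤ volume U * ENNReal.ofReal (d.2 - c.2) + volume A₂ * ENNReal.ofReal (b.1 - a.1) := hmain
    _ ≤ (volume A₁ + ε / ENNReal.ofReal (d.2 - c.2)) * ENNReal.ofReal (d.2 - c.2)
          + volume A₂ * ENNReal.ofReal (b.1 - a.1) :=
        add_le_add_left (mul_le_mul_left hUle _) _
    _ = volume A₁ * ENNReal.ofReal (d.2 - c.2) + volume A₂ * ENNReal.ofReal (b.1 - a.1) + ε := by
        rw [add_mul, ENNReal.div_mul_cancel hw2 ENNReal.ofReal_ne_top]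
        ring

end Vale.Agent.Lib.P243
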