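import Vale.Agent.Lib.P243.RelC
import Vale.Agent.Lib.P243.Core

/-!
# The relative inequality for two cylinders with horizontal axes, in coordinates

Auxiliary file for problem P243 (relative form for two cylinders).  A point of space is a pair
`(x, z)` with `x` in a real inner product space `V` and `z : ℝ` the height.
-/

namespace Vale.Agent.Lib.P243

open scoped RealInnerProductSpace Pointwise
open MeasureTheory

variable {V : Type*} [NormedAddCommGroup V] [InnerProductSpace ℝ V]

/-- Upper bound for the area of the planar projection `{(⟪x, θ⟫, z) | (x, z) ∈ K}` of a compact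
convex set `K ⊆ V × ℝ` in terms of the width `ws` of its middle slice in direction `θ` and its
height. -/
theorem proj_upper (K : Set (V × ℝ)) (hK : Convex ℝ K) (hKc : IsCompact K)
    (p0 p1 : V × ℝ) (hp0 : p0 ∈ K) (hp1 : p1 ∈ K)
    (hmin : ∀ p ∈ K, p0.2 ≤ p.2) (hmax : ∀ p ∈ K, p.2 ≤ p1.2) (θ : V) (ws : ℝ)
    (hws : ∀ x y : V, (x, (p0.2 + p1.2) / 2) ∈ K → (y, (p0.2 + p1.2) / 2) ∈ K → ⟪y - x, θ⟫ ≤ ws) :
    volume ((fun p : V × ℝ => (⟪p.1, θ⟫, p.2)) '' K)
      ≤ ENNReal.ofReal ws * ENNReal.ofReal (p1.2 - p0.2) := by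
  obtain ⟨z0, hz0⟩ : ∃ z0, z0 = p0.2 := ⟨_, rfl⟩
  obtain ⟨z1, hz1⟩ : ∃ z1, z1 = p1.2 := ⟨_, rfl⟩
  rw [← hz0] at hmin hws
  rw [← hz1] at hmax hws
  rw [← hz0, ← hz1]
  obtain ⟨c, hc⟩ : ∃ c, c = (z0 + z1) / 2 := ⟨_, rfl⟩
  rw [← hc] at hws
  obtain ⟨L, hL⟩ : ∃ L, L = z1 - z0 := ⟨_, rfl⟩
  rw [← hL]
  have hL0 : 0 ≤ L := by
    have := hmin p1 hp1
    rw [← hz1] at this
    linarith
  have hmid : ∀ (x y : V) (z z' : ℝ), (x, z) ∈ K → (y, z') ∈ K → z + z' = z0 + z1 →
      ((1 / 2 : ℝ) • x + (1 / 2 : ℝ) • y, c) ∈ K := by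
    intro x y z z' hx hy hzz
    have h := hK hx hy (by norm_num : (0 : ℝ) ≤ 1 / 2) (by norm_num : (0 : ℝ) ≤ 1 / 2)
      (by norm_num)
    have h2 : (1 / 2 : ℝ) • ((x, z) : V × ℝ) + (1 / 2 : ℝ) • ((y, z') : V × ℝ)
        = ((1 / 2 : ℝ) • x + (1 / 2 : ℝ) • y, c) := by
      ext
      · simp
      · simp only [Prod.snd_add, Prod.smul_snd, smul_eq_mul]
        rw [hc]
        linarith
    rw [h2] at h
    exact h
  obtain ⟨P, hP⟩ : ∃ P, P = (fun p : V × ℝ => (⟪p.1, θ⟫, p.2)) '' K := ⟨_, rfl⟩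
  rw [← hP]
  have hPc : IsCompact P := by rw [hP]; exact hKc.image (by fun_prop)
  have hPm : MeasurableSet P := hPc.isClosed.measurableSet
  let g : ℝ → ENNReal := fun z => volume ((fun s : ℝ => (s, z)) ⁻¹' P)
  have hg : Measurable g := measurable_measure_prodMk_right hPm
  have hvol : volume P = ∫⁻ z, g z := Measure.prod_apply_symm hPm
  have hrefl : ∫⁻ z, g (z0 + z1 - z) = ∫⁻ z, g z := lintegral_sub_left_eq_self g (z0 + z1)
  have hslice_ne : ∀ z ∈ Set.Icc z0 z1, ∃ x : V, (x, z) ∈ K := by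
    intro z hz
    rcases eq_or_lt_of_le hL0 with hLz | hLpos
    · have hzz : z = p0.2 := by
        rw [← hz0]
        have := hz.1
        have := hz.2
        rw [hL] at hLz
        linarith
      exact ⟨p0.1, by rw [hzz]; exact hp0⟩
    · have h := hK hp0 hp1 (by
          apply div_nonneg _ hLpos.le
          have := hz.2
          linarith : (0 : ℝ) ≤ (z1 - z) / L) (by
          apply div_nonneg _ hLpos.le
          have := hz.1
          linarith : (0 : ℝ) ≤ (z - z0) / L) (by
          rw [hL]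
          rw [hL] at hLpos
          field_simp
          ring)
      refine ⟨((z1 - z) / L) • p0.1 + ((z - z0) / L) • p1.1, ?_⟩
      have h2 : ((z1 - z) / L) • p0 + ((z - z0) / L) • p1
          = (((z1 - z) / L) • p0.1 + ((z - z0) / L) • p1.1, z) := by
        ext
        · simp
        · simp only [Prod.snd_add, Prod.smul_snd, smul_eq_mul]
          rw [← hz0, ← hz1, hL]
          rw [hL] at hLpos
          field_simp
          ring
      rw [h2] at h
      exact h
  have hws0 : 0 ≤ ws := by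
    obtain ⟨x, hx⟩ := hslice_ne c (by
      rw [hc]
      constructor <;> linarith [hmin p1 hp1, hz1])
    simpa using hws x x hx hx
  have hbound : ∀ z, g z + g (z0 + z1 - z)
      ≤ (Set.Icc z0 z1).indicator (fun _ => 2 * ENNReal.ofReal ws) z := by
    intro z
    by_cases hz : z ∈ Set.Icc z0 z1
    · rw [Set.indicator_of_mem hz]
      have hz' : z0 + z1 - z ∈ Set.Icc z0 z1 := by
        constructor
        · have := hz.2
          linarith
        · have := hz.1
          linarith
      obtain ⟨xa, xb, hxa, hxb, hab, hv⟩ := slice_upper K hKc θ z (hslice_ne z hz)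
      obtain ⟨xa', xb', hxa', hxb', hab', hv'⟩ :=
        slice_upper K hKc θ (z0 + z1 - z) (hslice_ne _ hz')
      have hma := hmid xa xa' z (z0 + z1 - z) hxa hxa' (by ring)
      have hmb := hmid xb xb' z (z0 + z1 - z) hxb hxb' (by ring)
      have hwid := hws _ _ hma hmb
      have hexp : ⟪(1 / 2 : ℝ) • xb + (1 / 2 : ℝ) • xb' - ((1 / 2 : ℝ) • xa + (1 / 2 : ℝ) • xa'), θ⟫
          = (1 / 2) * (⟪xb, θ⟫ - ⟪xa, θ⟫) + (1 / 2) * (⟪xb', θ⟫ - ⟪xa', θ⟫) := by
        simp only [inner_sub_left, inner_add_left, inner_smul_left, conj_trivial]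
        ring
      rw [hexp] at hwid
      rw [← hP] at hv hv'
      calc g z + g (z0 + z1 - z)
          ≤ ENNReal.ofReal (⟪xb, θ⟫ - ⟪xa, θ⟫) + ENNReal.ofReal (⟪xb', θ⟫ - ⟪xa', θ⟫) :=
            add_le_add hv hv'
        _ = ENNReal.ofReal ((⟪xb, θ⟫ - ⟪xa, θ⟫) + (⟪xb', θ⟫ - ⟪xa', θ⟫)) := by
            rw [ENNReal.ofReal_add (by linarith) (by linarith)]
        _ ≤ ENNReal.ofReal (2 * ws) := ENNReal.ofReal_le_ofReal (by linarith)
        _ = 2 * ENNReal.ofReal ws := by
            rw [ENNReal.ofReal_mul (by norm_num)]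
            simp
    · rw [Set.indicator_of_notMem hz]
      have hempty : ∀ z', z' ∉ Set.Icc z0 z1 → g z' = 0 := by
        intro z' hz'
        have : (fun s : ℝ => (s, z')) ⁻¹' P = ∅ := by
          ext s
          simp only [Set.mem_preimage, Set.mem_empty_iff_false, iff_false]
          rw [hP]
          rintro ⟨p, hp, hps⟩
          have h2 : p.2 = z' := congrArg Prod.snd hps
          apply hz'
          rw [← h2]
          exact ⟨hmin p hp, hmax p hp⟩
        show volume ((fun s : ℝ => (s, z')) ⁻¹' P) = 0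
        rw [this, measure_empty]
      have hz' : z0 + z1 - z ∉ Set.Icc z0 z1 := by
        intro h
        apply hz
        constructor
        · have := h.2
          linarith
        · have := h.1
          linarith
      rw [hempty z hz, hempty _ hz']
      simp
  have h2 : 2 * ∫⁻ z, g z = ∫⁻ z, (g z + g (z0 + z1 - z)) := by
    rw [lintegral_add_left hg, hrefl, two_mul]
  have h3 : ∫⁻ z, (g z + g (z0 + z1 - z)) ≤ 2 * (ENNReal.ofReal ws * ENNReal.ofReal L) := by
    calc ∫⁻ z, (g z + g (z0 + z1 - z))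
        ≤ ∫⁻ z, (Set.Icc z0 z1).indicator (fun _ => 2 * ENNReal.ofReal ws) z :=
          lintegral_mono hbound
      _ = 2 * ENNReal.ofReal ws * volume (Set.Icc z0 z1) := by
          rw [lintegral_indicator measurableSet_Icc, setLIntegral_const]
      _ = 2 * (ENNReal.ofReal ws * ENNReal.ofReal L) := by
          rw [Real.volume_Icc, hL, mul_assoc]
  rw [hvol]
  rw [← h2] at h3
  exact (ENNReal.mul_le_mul_iff_right (by norm_num) (by norm_num)).1 h3

end Vale.Agent.Lib.P243
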