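import Vale.Agent.Lib.P243.RelD

/-!
# The relative inequality for two cylinders with horizontal axes, in coordinates (continued)

Auxiliary file for problem P243 (relative form for two cylinders): the slice inequality and the
coordinate form of the theorem.
-/

namespace Vale.Agent.Lib.P243

open scoped RealInnerProductSpace Pointwise
open MeasureTheory

variable {V : Type*} [NormedAddCommGroup V] [InnerProductSpace ℝ V]

/-- Slice inequality (relative version): the slice of `K` at a height between the middle height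
`c` and the height of a point `pe ∈ K` contains a homothetic copy (ratio `1 - lam`) of the middle
slice `Kc`, so the planar two-direction inequality applies to it. -/
theorem slice_rel (K : Set (V × ℝ)) (hK : Convex ℝ K)
    (Kc : Set V) (hKc_conv : Convex ℝ Kc) (c : ℝ) (hKc : ∀ x ∈ Kc, (x, c) ∈ K)
    (n₁ n₂ : V) (xa₁ xb₁ xa₂ xb₂ : V)
    (ha₁ : xa₁ ∈ Kc) (hb₁ : xb₁ ∈ Kc) (ha₂ : xa₂ ∈ Kc) (hb₂ : xb₂ ∈ Kc)
    (hmin₁ : ∀ x ∈ Kc, ⟪xa₁, n₁⟫ ≤ ⟪x, n₁⟫) (hmax₁ : ∀ x ∈ Kc, ⟪x, n₁⟫ ≤ ⟪xb₁, n₁⟫)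
    (hmin₂ : ∀ x ∈ Kc, ⟪xa₂, n₂⟫ ≤ ⟪x, n₂⟫) (hmax₂ : ∀ x ∈ Kc, ⟪x, n₂⟫ ≤ ⟪xb₂, n₂⟫)
    (ω₁ ω₂ : ℝ) (hω₁ : ω₁ = ⟪xb₁, n₁⟫ - ⟪xa₁, n₁⟫) (hω₂ : ω₂ = ⟪xb₂, n₂⟫ - ⟪xa₂, n₂⟫)
    (B₁ B₂ : Set (ℝ × ℝ))
    (hcov : ∀ p ∈ K, (⟪p.1, n₁⟫, p.2) ∈ B₁ ∨ (⟪p.1, n₂⟫, p.2) ∈ B₂)
    (pe : V × ℝ) (hpe : pe ∈ K) (lam : ℝ) (h0 : 0 ≤ lam) (h1 : lam ≤ 1) :
    ENNReal.ofReal ((1 - lam) * (ω₁ * ω₂)) ≤
      volume ((fun s : ℝ => (s, (1 - lam) * c + lam * pe.2)) ⁻¹' B₁) * ENNReal.ofReal ω₂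
      + volume ((fun s : ℝ => (s, (1 - lam) * c + lam * pe.2)) ⁻¹' B₂) * ENNReal.ofReal ω₁ := by
  have hω₁0 : 0 ≤ ω₁ := by rw [hω₁]; linarith [hmin₁ xb₁ hb₁]
  have hω₂0 : 0 ≤ ω₂ := by rw [hω₂]; linarith [hmin₂ xb₂ hb₂]
  rcases h1.eq_or_lt with hl1 | hl1
  · rw [hl1]
    simp
  have hμ : 0 < 1 - lam := by linarith
  obtain ⟨g, hg⟩ : ∃ g : V → ℝ × ℝ, g = fun x =>
      ((1 - lam) * ⟪x, n₁⟫ + lam * ⟪pe.1, n₁⟫, (1 - lam) * ⟪x, n₂⟫ + lam * ⟪pe.1, n₂⟫) := ⟨_, rfl⟩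
  have hg1 : ∀ x, (g x).1 = (1 - lam) * ⟪x, n₁⟫ + lam * ⟪pe.1, n₁⟫ := fun x => by rw [hg]
  have hg2 : ∀ x, (g x).2 = (1 - lam) * ⟪x, n₂⟫ + lam * ⟪pe.1, n₂⟫ := fun x => by rw [hg]
  have hginner : ∀ x, g x = (⟪(1 - lam) • x + lam • pe.1, n₁⟫, ⟪(1 - lam) • x + lam • pe.1, n₂⟫) := by
    intro x
    rw [hg]
    simp only [inner_add_left, inner_smul_left, conj_trivial]
  have hC' : Convex ℝ (g '' Kc) := by
    rintro _ ⟨x, hx, rfl⟩ _ ⟨y, hy, rfl⟩ α β hα hβ hαβ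
    refine ⟨α • x + β • y, hKc_conv hx hy hα hβ hαβ, ?_⟩
    have hβ' : β = 1 - α := by linarith
    ext
    · simp only [hg1, Prod.fst_add, Prod.smul_fst, smul_eq_mul, inner_add_left, inner_smul_left,
        conj_trivial]
      rw [hβ']
      ring
    · simp only [hg2, Prod.snd_add, Prod.smul_snd, smul_eq_mul, inner_add_left, inner_smul_left,
        conj_trivial]
      rw [hβ']
      ring
  have hcov' : ∀ p ∈ g '' Kc,
      p.1 ∈ (fun s : ℝ => (s, (1 - lam) * c + lam * pe.2)) ⁻¹' B₁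
        ∨ p.2 ∈ (fun s : ℝ => (s, (1 - lam) * c + lam * pe.2)) ⁻¹' B₂ := by
    rintro _ ⟨x, hx, rfl⟩
    have hin : (1 - lam) • ((x, c) : V × ℝ) + lam • pe ∈ K :=
      hK (hKc x hx) hpe hμ.le h0 (by ring)
    have hpt : (1 - lam) • ((x, c) : V × ℝ) + lam • pe
        = ((1 - lam) • x + lam • pe.1, (1 - lam) * c + lam * pe.2) := by
      ext <;> simp
    rw [hpt] at hin
    have := hcov _ hin
    rw [hginner]
    exact this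
  have hpl := planar_two (g '' Kc) hC' (g xa₁) (g xb₁) (g xa₂) (g xb₂)
    ⟨xa₁, ha₁, rfl⟩ ⟨xb₁, hb₁, rfl⟩ ⟨xa₂, ha₂, rfl⟩ ⟨xb₂, hb₂, rfl⟩
    (by
      rintro _ ⟨x, hx, rfl⟩
      rw [hg1, hg1]
      have := mul_le_mul_of_nonneg_left (hmin₁ x hx) hμ.le
      linarith)
    (by
      rintro _ ⟨x, hx, rfl⟩
      rw [hg1, hg1]
      have := mul_le_mul_of_nonneg_left (hmax₁ x hx) hμ.le
      linarith)
    (by
      rintro _ ⟨x, hx, rfl⟩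
      rw [hg2, hg2]
      have := mul_le_mul_of_nonneg_left (hmin₂ x hx) hμ.le
      linarith)
    (by
      rintro _ ⟨x, hx, rfl⟩
      rw [hg2, hg2]
      have := mul_le_mul_of_nonneg_left (hmax₂ x hx) hμ.le
      linarith)
    _ _ hcov'
  have e1 : (g xb₁).1 - (g xa₁).1 = (1 - lam) * ω₁ := by rw [hg1, hg1, hω₁]; ring
  have e2 : (g xb₂).2 - (g xa₂).2 = (1 - lam) * ω₂ := by rw [hg2, hg2, hω₂]; ring
  rw [e1, e2, ENNReal.ofReal_mul hμ.le, ENNReal.ofReal_mul hμ.le] at hpl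
  obtain ⟨v₁, hv₁⟩ : ∃ v₁, v₁ = volume ((fun s : ℝ => (s, (1 - lam) * c + lam * pe.2)) ⁻¹' B₁) :=
    ⟨_, rfl⟩
  obtain ⟨v₂, hv₂⟩ : ∃ v₂, v₂ = volume ((fun s : ℝ => (s, (1 - lam) * c + lam * pe.2)) ⁻¹' B₂) :=
    ⟨_, rfl⟩
  rw [← hv₁, ← hv₂] at hpl ⊢
  have hμ0 : ENNReal.ofReal (1 - lam) ≠ 0 := by
    rw [Ne, ENNReal.ofReal_eq_zero, not_le]
    exact hμ
  have hkey : ENNReal.ofReal (1 - lam) * (ENNReal.ofReal (1 - lam) * (ENNReal.ofReal ω₁ * ENNReal.ofReal ω₂))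
      ≤ ENNReal.ofReal (1 - lam) * (v₁ * ENNReal.ofReal ω₂ + v₂ * ENNReal.ofReal ω₁) := by
    calc ENNReal.ofReal (1 - lam) * (ENNReal.ofReal (1 - lam) * (ENNReal.ofReal ω₁ * ENNReal.ofReal ω₂))
        = ENNReal.ofReal (1 - lam) * ENNReal.ofReal ω₁ * (ENNReal.ofReal (1 - lam) * ENNReal.ofReal ω₂) := by
          ring
      _ ≤ v₁ * (ENNReal.ofReal (1 - lam) * ENNReal.ofReal ω₂)
            + v₂ * (ENNReal.ofReal (1 - lam) * ENNReal.ofReal ω₁) := hpl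
      _ = ENNReal.ofReal (1 - lam) * (v₁ * ENNReal.ofReal ω₂ + v₂ * ENNReal.ofReal ω₁) := by ring
  have hfin := (ENNReal.mul_le_mul_iff_right hμ0 ENNReal.ofReal_ne_top).1 hkey
  rw [ENNReal.ofReal_mul hμ.le, ENNReal.ofReal_mul hω₁0]
  exact hfin

/-- **Relative inequality for two cylinders, in coordinates.**  Let `K ⊆ V × ℝ` be compact, convex
and nonempty, and suppose every point `(x, z)` of `K` satisfies `(⟪x, n₁⟫, z) ∈ B₁` or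
`(⟪x, n₂⟫, z) ∈ B₂`, with `B₁, B₂ ⊆ ℝ × ℝ` measurable.  Then there are numbers `ω₁, ω₂, L ≥ 0` (the
widths of the middle slice in the directions `n₁, n₂` and the height of `K`) such that the planar
sets `Dᵢ = {(⟪x, nᵢ⟫, z) | (x, z) ∈ K}` have area at most `ωᵢ L` and
`ω₁ ω₂ L / 2 ≤ |B₁| ω₂ + |B₂| ω₁`. -/
theorem core_rel (K : Set (V × ℝ)) (hK : Convex ℝ K) (hKc : IsCompact K) (hne : K.Nonempty)
    (n₁ n₂ : V) (B₁ B₂ : Set (ℝ × ℝ)) (hB₁ : MeasurableSet B₁) (hB₂ : MeasurableSet B₂)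
    (hcov : ∀ p ∈ K, (⟪p.1, n₁⟫, p.2) ∈ B₁ ∨ (⟪p.1, n₂⟫, p.2) ∈ B₂) :
    ∃ ω₁ ω₂ L : ℝ, 0 ≤ ω₁ ∧ 0 ≤ ω₂ ∧ 0 ≤ L ∧
      volume ((fun p : V × ℝ => (⟪p.1, n₁⟫, p.2)) '' K) ≤ ENNReal.ofReal ω₁ * ENNReal.ofReal L ∧
      volume ((fun p : V × ℝ => (⟪p.1, n₂⟫, p.2)) '' K) ≤ ENNReal.ofReal ω₂ * ENNReal.ofReal L ∧
      ENNReal.ofReal (ω₁ * ω₂) * ENNReal.ofReal (L / 2)
        ≤ volume B₁ * ENNReal.ofReal ω₂ + volume B₂ * ENNReal.ofReal ω₁ := by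
  obtain ⟨p0, hp0, hp0min⟩ := hKc.exists_isMinOn hne continuous_snd.continuousOn
  obtain ⟨p1, hp1, hp1max⟩ := hKc.exists_isMaxOn hne continuous_snd.continuousOn
  have hmin : ∀ p ∈ K, p0.2 ≤ p.2 := fun p hp => hp0min hp
  have hmax : ∀ p ∈ K, p.2 ≤ p1.2 := fun p hp => hp1max hp
  obtain ⟨z0, hz0⟩ : ∃ z0, z0 = p0.2 := ⟨_, rfl⟩
  obtain ⟨z1, hz1⟩ : ∃ z1, z1 = p1.2 := ⟨_, rfl⟩
  obtain ⟨c, hc⟩ : ∃ c, c = (z0 + z1) / 2 := ⟨_, rfl⟩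
  obtain ⟨L, hL⟩ : ∃ L, L = z1 - z0 := ⟨_, rfl⟩
  have hL0 : 0 ≤ L := by
    have := hmin p1 hp1
    rw [hL, hz0, hz1]
    linarith
  obtain ⟨Kc, hKcdef⟩ : ∃ Kc : Set V, Kc = {x : V | (x, c) ∈ K} := ⟨_, rfl⟩
  have hKcmem : ∀ x, x ∈ Kc ↔ (x, c) ∈ K := fun x => by rw [hKcdef]; rfl
  have hKc_ne : Kc.Nonempty := by
    refine ⟨(1 / 2 : ℝ) • p0.1 + (1 / 2 : ℝ) • p1.1, ?_⟩
    rw [hKcmem]
    have h := hK hp0 hp1 (by norm_num : (0 : ℝ) ≤ 1 / 2) (by norm_num : (0 : ℝ) ≤ 1 / 2)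
      (by norm_num)
    have h2 : (1 / 2 : ℝ) • p0 + (1 / 2 : ℝ) • p1
        = ((1 / 2 : ℝ) • p0.1 + (1 / 2 : ℝ) • p1.1, c) := by
      ext
      · simp
      · simp only [Prod.snd_add, Prod.smul_snd, smul_eq_mul]
        rw [hc, hz0, hz1]
        ring
    rw [h2] at h
    exact h
  have hKc_comp : IsCompact Kc := by rw [hKcdef]; exact slice_compact K hKc c
  have hKc_conv : Convex ℝ Kc := by rw [hKcdef]; exact slice_convex K hK c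
  obtain ⟨xa₁, ha₁, hmin₁'⟩ := hKc_comp.exists_isMinOn hKc_ne
    (by fun_prop : ContinuousOn (fun x : V => ⟪x, n₁⟫) Kc)
  obtain ⟨xb₁, hb₁, hmax₁'⟩ := hKc_comp.exists_isMaxOn hKc_ne
    (by fun_prop : ContinuousOn (fun x : V => ⟪x, n₁⟫) Kc)
  obtain ⟨xa₂, ha₂, hmin₂'⟩ := hKc_comp.exists_isMinOn hKc_ne
    (by fun_prop : ContinuousOn (fun x : V => ⟪x, n₂⟫) Kc)
  obtain ⟨xb₂, hb₂, hmax₂'⟩ := hKc_comp.exists_isMaxOn hKc_ne
    (by fun_prop : ContinuousOn (fun x : V => ⟪x, n₂⟫) Kc)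
  have hmin₁ : ∀ x ∈ Kc, ⟪xa₁, n₁⟫ ≤ ⟪x, n₁⟫ := fun x hx => hmin₁' hx
  have hmax₁ : ∀ x ∈ Kc, ⟪x, n₁⟫ ≤ ⟪xb₁, n₁⟫ := fun x hx => hmax₁' hx
  have hmin₂ : ∀ x ∈ Kc, ⟪xa₂, n₂⟫ ≤ ⟪x, n₂⟫ := fun x hx => hmin₂' hx
  have hmax₂ : ∀ x ∈ Kc, ⟪x, n₂⟫ ≤ ⟪xb₂, n₂⟫ := fun x hx => hmax₂' hx
  obtain ⟨ω₁, hω₁⟩ : ∃ ω₁, ω₁ = ⟪xb₁, n₁⟫ - ⟪xa₁, n₁⟫ := ⟨_, rfl⟩
  obtain ⟨ω₂, hω₂⟩ : ∃ ω₂, ω₂ = ⟪xb₂, n₂⟫ - ⟪xa₂, n₂⟫ := ⟨_, rfl⟩
  have hω₁0 : 0 ≤ ω₁ := by rw [hω₁]; linarith [hmin₁ xb₁ hb₁]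
  have hω₂0 : 0 ≤ ω₂ := by rw [hω₂]; linarith [hmin₂ xb₂ hb₂]
  refine ⟨ω₁, ω₂, L, hω₁0, hω₂0, hL0, ?_, ?_, ?_⟩
  · have h := proj_upper K hK hKc p0 p1 hp0 hp1 hmin hmax n₁ ω₁ (by
      intro x y hx hy
      rw [← hz0, ← hz1, ← hc] at hx hy
      rw [inner_sub_left, hω₁]
      have e1 := hmax₁ y ((hKcmem y).2 hy)
      have e2 := hmin₁ x ((hKcmem x).2 hx)
      linarith)
    rw [hL, hz0, hz1]
    exact h
  · have h := proj_upper K hK hKc p0 p1 hp0 hp1 hmin hmax n₂ ω₂ (by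
      intro x y hx hy
      rw [← hz0, ← hz1, ← hc] at hx hy
      rw [inner_sub_left, hω₂]
      have e1 := hmax₂ y ((hKcmem y).2 hy)
      have e2 := hmin₂ x ((hKcmem x).2 hx)
      linarith)
    rw [hL, hz0, hz1]
    exact h
  · let F : ℝ → ENNReal := fun z =>
      volume ((fun s : ℝ => (s, z)) ⁻¹' B₁) * ENNReal.ofReal ω₂
        + volume ((fun s : ℝ => (s, z)) ⁻¹' B₂) * ENNReal.ofReal ω₁
    have hm₁ : Measurable fun z : ℝ => volume ((fun s : ℝ => (s, z)) ⁻¹' B₁) :=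
      measurable_measure_prodMk_right hB₁
    have hm₂ : Measurable fun z : ℝ => volume ((fun s : ℝ => (s, z)) ⁻¹' B₂) :=
      measurable_measure_prodMk_right hB₂
    have hFmeas : Measurable F := (hm₁.mul_const _).add (hm₂.mul_const _)
    have hsum : volume B₁ * ENNReal.ofReal ω₂ + volume B₂ * ENNReal.ofReal ω₁ = ∫⁻ z, F z := by
      have e1 : volume B₁ = ∫⁻ z, volume ((fun s : ℝ => (s, z)) ⁻¹' B₁) :=
        Measure.prod_apply_symm hB₁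
      have e2 : volume B₂ = ∫⁻ z, volume ((fun s : ℝ => (s, z)) ⁻¹' B₂) :=
        Measure.prod_apply_symm hB₂
      rw [lintegral_add_left (hm₁.mul_const _), lintegral_mul_const _ hm₁,
        lintegral_mul_const _ hm₂, ← e1, ← e2]
    rw [hsum]
    have hpair : ∀ z ∈ Set.Ico z0 c, ENNReal.ofReal (ω₁ * ω₂) ≤ F z + F (z + L / 2) := by
      intro z hz
      have hzl : z0 ≤ z := hz.1
      have hzu : z < c := hz.2
      have hLpos : 0 < L := by rw [hL]; rw [hc] at hzu; linarith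
      obtain ⟨lam, hlam⟩ : ∃ lam, lam = (c - z) / (L / 2) := ⟨_, rfl⟩
      have hlamL : lam * (L / 2) = c - z := by rw [hlam]; field_simp
      have hlam0 : 0 ≤ lam := by
        rw [hlam]
        apply div_nonneg <;> linarith
      have hlam1 : lam ≤ 1 := by
        rw [hlam, div_le_one (by linarith)]
        rw [hL, hc]
        linarith
      have e1 := slice_rel K hK Kc hKc_conv c (fun x hx => (hKcmem x).1 hx) n₁ n₂ xa₁ xb₁ xa₂ xb₂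
        ha₁ hb₁ ha₂ hb₂ hmin₁ hmax₁ hmin₂ hmax₂ ω₁ ω₂ hω₁ hω₂ B₁ B₂ hcov p0 hp0 lam hlam0 hlam1
      have e2 := slice_rel K hK Kc hKc_conv c (fun x hx => (hKcmem x).1 hx) n₁ n₂ xa₁ xb₁ xa₂ xb₂
        ha₁ hb₁ ha₂ hb₂ hmin₁ hmax₁ hmin₂ hmax₂ ω₁ ω₂ hω₁ hω₂ B₁ B₂ hcov p1 hp1 (1 - lam)
        (by linarith) (by linarith)
      have hh1 : (1 - lam) * c + lam * p0.2 = z := by
        rw [← hz0]
        have : c - z0 = L / 2 := by rw [hc, hL]; ring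
        nlinarith
      have hh2 : (1 - (1 - lam)) * c + (1 - lam) * p1.2 = z + L / 2 := by
        rw [← hz1]
        have : z1 - c = L / 2 := by rw [hc, hL]; ring
        nlinarith
      rw [hh1] at e1
      rw [hh2] at e2
      have hω0 : 0 ≤ ω₁ * ω₂ := mul_nonneg hω₁0 hω₂0
      calc ENNReal.ofReal (ω₁ * ω₂)
          = ENNReal.ofReal ((1 - lam) * (ω₁ * ω₂))
              + ENNReal.ofReal ((1 - (1 - lam)) * (ω₁ * ω₂)) := by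
            rw [← ENNReal.ofReal_add (mul_nonneg (by linarith) hω0)
              (mul_nonneg (by linarith) hω0)]
            congr 1
            ring
        _ ≤ F z + F (z + L / 2) := add_le_add e1 e2
    have hcz0 : c - z0 = L / 2 := by rw [hc, hL]; ring
    have hz1c : z1 - L / 2 = c := by rw [hc, hL]; ring
    have hcL : c - L / 2 = z0 := by rw [hc, hL]; ring
    calc ENNReal.ofReal (ω₁ * ω₂) * ENNReal.ofReal (L / 2)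
        = ∫⁻ _z in Set.Ico z0 c, ENNReal.ofReal (ω₁ * ω₂) := by
          rw [setLIntegral_const, Real.volume_Ico, hcz0]
      _ ≤ ∫⁻ z in Set.Ico z0 c, (F z + F (z + L / 2)) :=
          setLIntegral_mono' measurableSet_Ico hpair
      _ = (∫⁻ z in Set.Ico z0 c, F z) + ∫⁻ z in Set.Ico z0 c, F (z + L / 2) :=
          lintegral_add_left hFmeas _
      _ = (∫⁻ z in Set.Ico z0 c, F z) + ∫⁻ z in Set.Ico c z1, F z := by
          congr 1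
          have h := (measurePreserving_add_right volume (L / 2)).setLIntegral_comp_preimage
            (measurableSet_Ico (a := c) (b := z1)) hFmeas
          rw [Set.preimage_add_const_Ico, hcL, hz1c] at h
          exact h
      _ = ∫⁻ z in Set.Ico z0 c ∪ Set.Ico c z1, F z := by
          rw [lintegral_union measurableSet_Ico]
          rw [Set.disjoint_left]
          intro x hx1 hx2
          exact absurd hx2.1 (not_le.2 hx1.2)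
      _ ≤ ∫⁻ z, F z := setLIntegral_le_lintegral _ _

end Vale.Agent.Lib.P243
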