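import Vale.Agent.Lib.P243.Core

/-!
# The half-area inequality for cylinders with axes parallel to a plane, in Euclidean 3-space

Auxiliary file for problem P243: translation of `core` to a 3-dimensional inner product space
equipped with an orthonormal frame `h1, h2, e`, with areas measured by the 2-dimensional Euclidean
Hausdorff measure.
-/

namespace Vale.Agent.Lib.P243

open scoped RealInnerProductSpace
open MeasureTheory

section Frame

variable {E : Type*} [NormedAddCommGroup E] [InnerProductSpace ℝ E]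

/-- `h1, h2, e` is an orthonormal frame spanning `E`. -/
def IsFrame (h1 h2 e : E) : Prop :=
  ‖h1‖ = 1 ∧ ‖h2‖ = 1 ∧ ‖e‖ = 1 ∧ ⟪h1, h2⟫ = 0 ∧ ⟪h1, e⟫ = 0 ∧ ⟪h2, e⟫ = 0 ∧
    ∀ x : E, x = ⟪x, h1⟫ • h1 + ⟪x, h2⟫ • h2 + ⟪x, e⟫ • e

variable {h1 h2 e : E}

theorem IsFrame.ext (hf : IsFrame h1 h2 e) {x y : E} (e1 : ⟪x, h1⟫ = ⟪y, h1⟫)
    (e2 : ⟪x, h2⟫ = ⟪y, h2⟫) (e3 : ⟪x, e⟫ = ⟪y, e⟫) : x = y := by
  obtain ⟨-, -, -, -, -, -, hexp⟩ := hf
  rw [hexp x, hexp y, e1, e2, e3]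

theorem IsFrame.inner_h1 (hf : IsFrame h1 h2 e) (a b c : ℝ) :
    ⟪a • h1 + b • h2 + c • e, h1⟫ = a := by
  obtain ⟨n1, n2, n3, o12, o13, o23, -⟩ := hf
  simp only [inner_add_left, inner_smul_left, conj_trivial]
  rw [real_inner_self_eq_norm_sq, n1, real_inner_comm, o12, real_inner_comm, o13]
  ring

theorem IsFrame.inner_h2 (hf : IsFrame h1 h2 e) (a b c : ℝ) :
    ⟪a • h1 + b • h2 + c • e, h2⟫ = b := by
  obtain ⟨n1, n2, n3, o12, o13, o23, -⟩ := hf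
  simp only [inner_add_left, inner_smul_left, conj_trivial]
  rw [real_inner_self_eq_norm_sq, n2, o12, real_inner_comm, o23]
  ring

theorem IsFrame.inner_e (hf : IsFrame h1 h2 e) (a b c : ℝ) :
    ⟪a • h1 + b • h2 + c • e, e⟫ = c := by
  obtain ⟨n1, n2, n3, o12, o13, o23, -⟩ := hf
  simp only [inner_add_left, inner_smul_left, conj_trivial]
  rw [real_inner_self_eq_norm_sq, n3, o13, o23]
  ring

/-- inner product in frame coordinates -/
theorem IsFrame.inner_eq (hf : IsFrame h1 h2 e) (x y : E) :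
    ⟪x, y⟫ = ⟪x, h1⟫ * ⟪y, h1⟫ + ⟪x, h2⟫ * ⟪y, h2⟫ + ⟪x, e⟫ * ⟪y, e⟫ := by
  have hexp := hf.2.2.2.2.2.2
  conv_lhs => rw [hexp x]
  simp only [inner_add_left, inner_smul_left, conj_trivial]
  rw [real_inner_comm y h1, real_inner_comm y h2, real_inner_comm y e]

/-- Norm of a combination of two orthonormal vectors. -/
theorem norm_sq_comb {a1 a2 : E} (n1 : ‖a1‖ = 1) (n2 : ‖a2‖ = 1) (o : ⟪a1, a2⟫ = 0) (s t : ℝ) :
    ‖s • a1 + t • a2‖ ^ 2 = s ^ 2 + t ^ 2 := by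
  rw [← real_inner_self_eq_norm_sq]
  simp only [inner_add_left, inner_add_right, inner_smul_left, inner_smul_right, conj_trivial]
  rw [real_inner_self_eq_norm_sq, real_inner_self_eq_norm_sq, n1, n2, real_inner_comm a1 a2, o]
  ring

variable [MeasurableSpace E] [BorelSpace E]

/-- The map `(s, t) ↦ s • a1 + t • a2` from `ℝ × ℝ` onto the plane spanned by two orthonormal
vectors sends Lebesgue measure to the 2-dimensional Euclidean Hausdorff measure. -/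
theorem area_image {a1 a2 : E} (n1 : ‖a1‖ = 1) (n2 : ‖a2‖ = 1) (o : ⟪a1, a2⟫ = 0)
    (S : Set (ℝ × ℝ)) :
    Measure.euclideanHausdorffMeasure 2 ((fun q : ℝ × ℝ => q.1 • a1 + q.2 • a2) '' S)
      = volume S := by
  let j : EuclideanSpace ℝ (Fin 2) → E := fun x => x 0 • a1 + x 1 • a2
  have hj : Isometry j := by
    apply Isometry.of_dist_eq
    intro x y
    have h1 : dist (j x) (j y) ^ 2 = dist x y ^ 2 := by
      rw [dist_eq_norm, EuclideanSpace.dist_eq, Real.sq_sqrt (by positivity)]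
      have : j x - j y = (x 0 - y 0) • a1 + (x 1 - y 1) • a2 := by
        simp only [j]
        module
      rw [this, norm_sq_comb n1 n2 o, Fin.sum_univ_two, Real.dist_eq, Real.dist_eq, sq_abs, sq_abs]
    exact (sq_eq_sq₀ dist_nonneg dist_nonneg).1 h1
  let ψ : ℝ × ℝ ≃ᵐ EuclideanSpace ℝ (Fin 2) :=
    MeasurableEquiv.finTwoArrow.symm.trans (MeasurableEquiv.toLp 2 (Fin 2 → ℝ))
  have hψ : MeasurePreserving ψ volume volume :=
    (volume_preserving_finTwoArrow ℝ).symm.trans (PiLp.volume_preserving_toLp (Fin 2))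
  have himg : (fun q : ℝ × ℝ => q.1 • a1 + q.2 • a2) '' S = j '' (ψ '' S) := by
    rw [Set.image_image]
    apply Set.image_congr
    intro q _
    rfl
  rw [himg, hj.euclideanHausdorffMeasure_image, EuclideanSpace.euclideanHausdorffMeasure_eq_volume,
    MeasurableEquiv.image_eq_preimage_symm]
  exact hψ.symm.measure_preimage_equiv S

/-- Horizontal unit vectors have frame coordinates on the unit circle. -/
theorem IsFrame.unit_coords (hf : IsFrame h1 h2 e) {u : E} (hu : ‖u‖ = 1) (hue : ⟪u, e⟫ = 0) :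
    ⟪u, h1⟫ ^ 2 + ⟪u, h2⟫ ^ 2 = 1 := by
  have h := hf.inner_eq u u
  rw [real_inner_self_eq_norm_sq, hu, hue] at h
  linarith

/-- The half-area inequality for measurable bases, in a space with an orthonormal frame. -/
theorem space_meas (hf : IsFrame h1 h2 e) (K : Set E) (hK : Convex ℝ K) (hKc : IsCompact K)
    {m : ℕ} (u : Fin m → E) (hu : ∀ i, ‖u i‖ = 1) (hue : ∀ i, ⟪u i, e⟫ = 0)
    (B : Fin m → Set E) (hBm : ∀ i, MeasurableSet (B i)) (hBu : ∀ i, ∀ b ∈ B i, ⟪b, u i⟫ = 0)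
    (hcov : ∀ x ∈ K, ∃ i, ∃ b ∈ B i, ∃ t : ℝ, x = b + t • u i) :
    ∃ v : E, ‖v‖ = 1 ∧ ⟪v, e⟫ = 0 ∧
      Measure.euclideanHausdorffMeasure 2 ((fun x : E => x - ⟪x, v⟫ • v) '' K)
        ≤ 2 * ∑ i, Measure.euclideanHausdorffMeasure 2 (B i) := by
  have hfr := hf
  obtain ⟨n1, n2, n3, o12, o13, o23, hexp⟩ := hf
  let Φ : E → EuclideanSpace ℝ (Fin 2) × ℝ := fun x => (!₂[⟪x, h1⟫, ⟪x, h2⟫], ⟪x, e⟫)
  have hΦcont : Continuous Φ := by
    apply Continuous.prodMk _ (by fun_prop)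
    apply (PiLp.continuous_toLp 2 _).comp
    apply continuous_pi
    intro i
    fin_cases i <;> simp <;> fun_prop
  have hΦlin : ∀ (a b : ℝ) (x y : E), Φ (a • x + b • y) = a • Φ x + b • Φ y := by
    intro a b x y
    ext i
    · fin_cases i <;> simp [Φ, inner_add_left, inner_smul_left]
    · simp [Φ, inner_add_left, inner_smul_left]
  have hK'c : IsCompact (Φ '' K) := hKc.image hΦcont
  have hK' : Convex ℝ (Φ '' K) := by
    rintro _ ⟨x, hx, rfl⟩ _ ⟨y, hy, rfl⟩ a b ha hb hab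
    exact ⟨a • x + b • y, hK hx hy ha hb hab, hΦlin a b x y⟩
  let ν : Fin m → EuclideanSpace ℝ (Fin 2) := fun i => !₂[-⟪u i, h2⟫, ⟪u i, h1⟫]
  have hν : ∀ i, ‖ν i‖ = 1 := by
    intro i
    have h := hfr.unit_coords (hu i) (hue i)
    rw [EuclideanSpace.norm_eq, Real.sqrt_eq_one]
    simp only [ν, Fin.sum_univ_two, Real.norm_eq_abs, sq_abs]
    simp
    linarith
  let nE : Fin m → E := fun i => (-⟪u i, h2⟫) • h1 + ⟪u i, h1⟫ • h2
  have hnE1 : ∀ i x, ⟪x, nE i⟫ = -⟪u i, h2⟫ * ⟪x, h1⟫ + ⟪u i, h1⟫ * ⟪x, h2⟫ := by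
    intro i x
    simp only [nE, inner_add_right, inner_smul_right]
  have hnEu : ∀ i, ⟪u i, nE i⟫ = 0 := by
    intro i
    rw [hnE1]
    ring
  have hnEe : ∀ i, ⟪nE i, e⟫ = 0 := by
    intro i
    simp only [nE, inner_add_left, inner_smul_left, conj_trivial]
    rw [o13, o23]
    ring
  have hnEnorm : ∀ i, ‖nE i‖ = 1 := by
    intro i
    have h := norm_sq_comb n1 n2 o12 (-⟪u i, h2⟫) ⟪u i, h1⟫
    have h' := hfr.unit_coords (hu i) (hue i)
    have h2 : ‖nE i‖ ^ 2 = 1 := by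
      simp only [nE]
      rw [h]
      linarith
    have h3 : ‖nE i‖ ^ 2 = 1 ^ 2 := by rw [h2]; norm_num
    exact (sq_eq_sq₀ (norm_nonneg _) zero_le_one).1 h3
  -- decomposition of points orthogonal to `u i`
  have hdecomp : ∀ i (b : E), ⟪b, u i⟫ = 0 → ⟪b, nE i⟫ • nE i + ⟪b, e⟫ • e = b := by
    intro i b hb
    have hcirc := hfr.unit_coords (hu i) (hue i)
    have horth : ⟪b, h1⟫ * ⟪u i, h1⟫ + ⟪b, h2⟫ * ⟪u i, h2⟫ = 0 := by
      have h := hfr.inner_eq b (u i)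
      rw [hb, hue i] at h
      linarith
    have hrw : ⟪b, nE i⟫ • nE i + ⟪b, e⟫ • e
        = (⟪b, nE i⟫ * -⟪u i, h2⟫) • h1 + (⟪b, nE i⟫ * ⟪u i, h1⟫) • h2 + ⟪b, e⟫ • e := by
      simp only [nE]
      module
    rw [hrw]
    apply hfr.ext
    · rw [hfr.inner_h1, hnE1]
      linear_combination ⟪b, h1⟫ * hcirc - ⟪u i, h1⟫ * horth
    · rw [hfr.inner_h2, hnE1]
      linear_combination ⟪b, h2⟫ * hcirc - ⟪u i, h2⟫ * horth
    · rw [hfr.inner_e]
  let B' : Fin m → Set (ℝ × ℝ) := fun i => (fun q : ℝ × ℝ => q.1 • nE i + q.2 • e) ⁻¹' B i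
  have hB' : ∀ i, MeasurableSet (B' i) := fun i =>
    (hBm i).preimage (by fun_prop : Continuous fun q : ℝ × ℝ => q.1 • nE i + q.2 • e).measurable
  have hinnerν : ∀ i x, ⟪(Φ x).1, ν i⟫ = ⟪x, nE i⟫ := by
    intro i x
    rw [hnE1]
    simp [Φ, ν, PiLp.inner_apply, Fin.sum_univ_two]
  have hcov' : ∀ p ∈ Φ '' K, ∃ i, (⟪p.1, ν i⟫, p.2) ∈ B' i := by
    rintro _ ⟨x, hx, rfl⟩
    obtain ⟨i, b0, hb0, t, rfl⟩ := hcov x hx
    refine ⟨i, ?_⟩
    show ⟪(Φ (b0 + t • u i)).1, ν i⟫ • nE i + (Φ (b0 + t • u i)).2 • e ∈ B i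
    have h1 : ⟪(Φ (b0 + t • u i)).1, ν i⟫ = ⟪b0, nE i⟫ := by
      rw [hinnerν, inner_add_left, inner_smul_left, hnEu]
      simp
    have h2 : (Φ (b0 + t • u i)).2 = ⟪b0, e⟫ := by
      show ⟪b0 + t • u i, e⟫ = ⟪b0, e⟫
      rw [inner_add_left, inner_smul_left, hue]
      simp
    rw [h1, h2, hdecomp i b0 (hBu i b0 hb0)]
    exact hb0
  obtain ⟨θ, hθ, hvol⟩ := core (Φ '' K) hK' hK'c ν hν B' hB' hcov'
  have hθcirc : θ 0 ^ 2 + θ 1 ^ 2 = 1 := by
    rw [EuclideanSpace.norm_eq, Real.sqrt_eq_one] at hθ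
    simpa [Fin.sum_univ_two] using hθ
  let θE : E := θ 0 • h1 + θ 1 • h2
  let v : E := (-θ 1) • h1 + θ 0 • h2
  have hθEnorm : ‖θE‖ = 1 := by
    have h2 : ‖θE‖ ^ 2 = 1 ^ 2 := by
      simp only [θE]
      rw [norm_sq_comb n1 n2 o12]
      linarith
    exact (sq_eq_sq₀ (norm_nonneg _) zero_le_one).1 h2
  have hvnorm : ‖v‖ = 1 := by
    have h2 : ‖v‖ ^ 2 = 1 ^ 2 := by
      simp only [v]
      rw [norm_sq_comb n1 n2 o12]
      linarith
    exact (sq_eq_sq₀ (norm_nonneg _) zero_le_one).1 h2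
  have hve : ⟪v, e⟫ = 0 := by
    simp only [v, inner_add_left, inner_smul_left, conj_trivial]
    rw [o13, o23]
    ring
  have hθEe : ⟪θE, e⟫ = 0 := by
    simp only [θE, inner_add_left, inner_smul_left, conj_trivial]
    rw [o13, o23]
    ring
  have hxv : ∀ x, ⟪x, v⟫ = -θ 1 * ⟪x, h1⟫ + θ 0 * ⟪x, h2⟫ := by
    intro x
    simp only [v, inner_add_right, inner_smul_right]
  have hxθ : ∀ x, ⟪x, θE⟫ = θ 0 * ⟪x, h1⟫ + θ 1 * ⟪x, h2⟫ := by
    intro x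
    simp only [θE, inner_add_right, inner_smul_right]
  have hproj : ∀ x : E, x - ⟪x, v⟫ • v = ⟪x, θE⟫ • θE + ⟪x, e⟫ • e := by
    intro x
    have hl : x - ⟪x, v⟫ • v
        = (⟪x, h1⟫ - ⟪x, v⟫ * -θ 1) • h1 + (⟪x, h2⟫ - ⟪x, v⟫ * θ 0) • h2 + ⟪x, e⟫ • e := by
      calc x - ⟪x, v⟫ • v
          = (⟪x, h1⟫ • h1 + ⟪x, h2⟫ • h2 + ⟪x, e⟫ • e) - ⟪x, v⟫ • v := by rw [← hexp x]
        _ = (⟪x, h1⟫ - ⟪x, v⟫ * -θ 1) • h1 + (⟪x, h2⟫ - ⟪x, v⟫ * θ 0) • h2 + ⟪x, e⟫ • e := by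
          simp only [v]
          module
    have hr : ⟪x, θE⟫ • θE + ⟪x, e⟫ • e
        = (⟪x, θE⟫ * θ 0) • h1 + (⟪x, θE⟫ * θ 1) • h2 + ⟪x, e⟫ • e := by
      simp only [θE]
      module
    rw [hl, hr]
    apply hfr.ext
    · rw [hfr.inner_h1, hfr.inner_h1, hxv, hxθ]
      linear_combination (-⟪x, h1⟫) * hθcirc
    · rw [hfr.inner_h2, hfr.inner_h2, hxv, hxθ]
      linear_combination (-⟪x, h2⟫) * hθcirc
    · rw [hfr.inner_e, hfr.inner_e]
  refine ⟨v, hvnorm, hve, ?_⟩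
  -- areas
  have hKimg : (fun x : E => x - ⟪x, v⟫ • v) '' K
      = (fun q : ℝ × ℝ => q.1 • θE + q.2 • e) ''
        ((fun p : EuclideanSpace ℝ (Fin 2) × ℝ => (⟪p.1, θ⟫, p.2)) '' (Φ '' K)) := by
    rw [Set.image_image, Set.image_image]
    apply Set.image_congr
    intro x _
    rw [hproj x]
    have h1 : ⟪(Φ x).1, θ⟫ = ⟪x, θE⟫ := by
      rw [hxθ]
      simp [Φ, PiLp.inner_apply, Fin.sum_univ_two]
    show ⟪x, θE⟫ • θE + ⟪x, e⟫ • e = ⟪(Φ x).1, θ⟫ • θE + (Φ x).2 • e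
    rw [h1]
  have hBimg : ∀ i, B i = (fun q : ℝ × ℝ => q.1 • nE i + q.2 • e) '' B' i := by
    intro i
    ext b
    constructor
    · intro hb
      refine ⟨(⟪b, nE i⟫, ⟪b, e⟫), ?_, hdecomp i b (hBu i b hb)⟩
      show ⟪b, nE i⟫ • nE i + ⟪b, e⟫ • e ∈ B i
      rw [hdecomp i b (hBu i b hb)]
      exact hb
    · rintro ⟨q, hq, rfl⟩
      exact hq
  rw [hKimg, area_image hθEnorm n3 hθEe]
  have hsum : ∑ i, Measure.euclideanHausdorffMeasure 2 (B i) = ∑ i, volume (B' i) := by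
    apply Finset.sum_congr rfl
    intro i _
    conv_lhs => rw [hBimg i]
    exact area_image (hnEnorm i) n3 (hnEe i) (B' i)
  rw [hsum]
  exact hvol

/-- The half-area inequality for arbitrary bases (areas are outer measures), in a space with an
orthonormal frame. -/
theorem space_thm (hf : IsFrame h1 h2 e) (K : Set E) (hK : Convex ℝ K) (hKc : IsCompact K)
    {m : ℕ} (u : Fin m → E) (hu : ∀ i, ‖u i‖ = 1) (hue : ∀ i, ⟪u i, e⟫ = 0)
    (B : Fin m → Set E) (hBu : ∀ i, ∀ b ∈ B i, ⟪b, u i⟫ = 0)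
    (hcov : ∀ x ∈ K, ∃ i, ∃ b ∈ B i, ∃ t : ℝ, x = b + t • u i) :
    ∃ v : E, ‖v‖ = 1 ∧ ⟪v, e⟫ = 0 ∧
      Measure.euclideanHausdorffMeasure 2 ((fun x : E => x - ⟪x, v⟫ • v) '' K)
        ≤ 2 * ∑ i, Measure.euclideanHausdorffMeasure 2 (B i) := by
  choose T hBT hTm hTeq using fun i =>
    exists_measurable_superset (Measure.euclideanHausdorffMeasure 2 : Measure E) (B i)
  let B2 : Fin m → Set E := fun i => T i ∩ {b | ⟪b, u i⟫ = 0}
  have hB2m : ∀ i, MeasurableSet (B2 i) := fun i =>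
    (hTm i).inter (isClosed_eq (by fun_prop) continuous_const).measurableSet
  obtain ⟨v, hv1, hv2, hv3⟩ := space_meas hf K hK hKc u hu hue B2 hB2m (fun i b hb => hb.2) (by
    intro x hx
    obtain ⟨i, b, hb, t, rfl⟩ := hcov x hx
    exact ⟨i, b, ⟨hBT i hb, hBu i b hb⟩, t, rfl⟩)
  refine ⟨v, hv1, hv2, hv3.trans ?_⟩
  refine mul_le_mul_right (Finset.sum_le_sum (fun i _ => ?_)) 2
  calc Measure.euclideanHausdorffMeasure 2 (B2 i)
      ≤ Measure.euclideanHausdorffMeasure 2 (T i) := measure_mono Set.inter_subset_left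
    _ = Measure.euclideanHausdorffMeasure 2 (B i) := hTeq i

end Frame

/-- Every unit vector of Euclidean 3-space is the third vector of an orthonormal frame. -/
theorem exists_frame (e : EuclideanSpace ℝ (Fin 3)) (he : ‖e‖ = 1) :
    ∃ h1 h2 : EuclideanSpace ℝ (Fin 3), IsFrame h1 h2 e := by
  have hcard : Module.finrank ℝ (EuclideanSpace ℝ (Fin 3)) = Fintype.card (Fin 3) := by simp
  have hv : Orthonormal ℝ (({2} : Set (Fin 3)).domRestrict
      (fun _ : Fin 3 => e)) := by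
    constructor
    · intro i
      exact he
    · intro i j hij
      exact absurd (Subsingleton.elim i j) hij
  obtain ⟨b, hb⟩ := Orthonormal.exists_orthonormalBasis_extension_of_card_eq hcard hv
  have hb2 : b 2 = e := hb 2 (Set.mem_singleton _)
  have hon := b.orthonormal
  refine ⟨b 0, b 1, hon.1 0, hon.1 1, he, hon.2 (by decide), ?_, ?_, ?_⟩
  · rw [← hb2]
    exact hon.2 (by decide)
  · rw [← hb2]
    exact hon.2 (by decide)
  · intro x
    have h := b.sum_repr' x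
    rw [Fin.sum_univ_three, hb2] at h
    rw [real_inner_comm (b 0) x, real_inner_comm (b 1) x, real_inner_comm e x]
    exact h.symm

/-- **Half-area inequality for cylinders with axes parallel to a plane.**  -/
theorem coplanar_axes
    (K : Set (EuclideanSpace ℝ (Fin 3))) (hK : Convex ℝ K) (hKc : IsCompact K)
    (e : EuclideanSpace ℝ (Fin 3)) (he : ‖e‖ = 1)
    (m : ℕ) (u : Fin m → EuclideanSpace ℝ (Fin 3)) (hu : ∀ i, ‖u i‖ = 1)
    (hue : ∀ i, ⟪u i, e⟫ = 0)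
    (B : Fin m → Set (EuclideanSpace ℝ (Fin 3)))
    (hBu : ∀ i, ∀ b ∈ B i, ⟪b, u i⟫ = 0)
    (hcov : ∀ x ∈ K, ∃ i, ∃ b ∈ B i, ∃ t : ℝ, x = b + t • u i) :
    ∃ v : EuclideanSpace ℝ (Fin 3), ‖v‖ = 1 ∧ ⟪v, e⟫ = 0 ∧
      Measure.euclideanHausdorffMeasure 2
          ((fun x : EuclideanSpace ℝ (Fin 3) => x - ⟪x, v⟫ • v) '' K)
        ≤ 2 * ∑ i, Measure.euclideanHausdorffMeasure 2 (B i) := by
  obtain ⟨h1, h2, hf⟩ := exists_frame e he
  exact space_thm hf K hK hKc u hu hue B hBu hcov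

/-- Two vectors of Euclidean 3-space have a common unit normal. -/
theorem exists_unit_orth (u₁ u₂ : EuclideanSpace ℝ (Fin 3)) :
    ∃ e : EuclideanSpace ℝ (Fin 3), ‖e‖ = 1 ∧ ⟪u₁, e⟫ = 0 ∧ ⟪u₂, e⟫ = 0 := by
  classical
  let S : Submodule ℝ (EuclideanSpace ℝ (Fin 3)) :=
    Submodule.span ℝ ((({u₁, u₂} : Finset (EuclideanSpace ℝ (Fin 3))) : Set _))
  have h1 : Module.finrank ℝ S ≤ 2 :=
    (finrank_span_finset_le_card _).trans Finset.card_le_two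
  have h2 : Module.finrank ℝ S + Module.finrank ℝ Sᗮ = 3 := by
    have h := Submodule.finrank_add_finrank_orthogonal S
    simpa using h
  have h3 : 0 < Module.finrank ℝ Sᗮ := by omega
  obtain ⟨w, hw⟩ := Module.finrank_pos_iff_exists_ne_zero.1 h3
  have hw0 : (w : EuclideanSpace ℝ (Fin 3)) ≠ 0 := fun h => hw (Subtype.ext h)
  have hpos : 0 < ‖(w : EuclideanSpace ℝ (Fin 3))‖ := norm_pos_iff.mpr hw0
  have hmem := (Submodule.mem_orthogonal S _).1 w.2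
  have hu1 : u₁ ∈ S := Submodule.subset_span (by simp)
  have hu2 : u₂ ∈ S := Submodule.subset_span (by simp)
  refine ⟨(‖(w : EuclideanSpace ℝ (Fin 3))‖)⁻¹ • (w : EuclideanSpace ℝ (Fin 3)), ?_, ?_, ?_⟩
  · rw [norm_smul, norm_inv, norm_norm, inv_mul_cancel₀ hpos.ne']
  · rw [inner_smul_right, hmem u₁ hu1, mul_zero]
  · rw [inner_smul_right, hmem u₂ hu2, mul_zero]

/-- **Half-area inequality for coverings by two cylinders.** -/
theorem two_cylinders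
    (K : Set (EuclideanSpace ℝ (Fin 3))) (hK : Convex ℝ K) (hKc : IsCompact K)
    (u₁ u₂ : EuclideanSpace ℝ (Fin 3)) (hu₁ : ‖u₁‖ = 1) (hu₂ : ‖u₂‖ = 1)
    (B₁ B₂ : Set (EuclideanSpace ℝ (Fin 3)))
    (hB₁ : ∀ b ∈ B₁, ⟪b, u₁⟫ = 0) (hB₂ : ∀ b ∈ B₂, ⟪b, u₂⟫ = 0)
    (hcov : ∀ x ∈ K, (∃ b ∈ B₁, ∃ t : ℝ, x = b + t • u₁) ∨ (∃ b ∈ B₂, ∃ t : ℝ, x = b + t • u₂)) :
    ∃ v : EuclideanSpace ℝ (Fin 3), ‖v‖ = 1 ∧
      Measure.euclideanHausdorffMeasure 2
          ((fun x : EuclideanSpace ℝ (Fin 3) => x - ⟪x, v⟫ • v) '' K)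
        ≤ 2 * (Measure.euclideanHausdorffMeasure 2 B₁ + Measure.euclideanHausdorffMeasure 2 B₂) := by
  obtain ⟨e, he, he1, he2⟩ := exists_unit_orth u₁ u₂
  obtain ⟨v, hv, -, hvol⟩ := coplanar_axes K hK hKc e he 2 ![u₁, u₂]
    (by intro i; fin_cases i <;> simpa)
    (by intro i; fin_cases i <;> simpa)
    ![B₁, B₂]
    (by intro i; fin_cases i <;> simpa)
    (by
      intro x hx
      rcases hcov x hx with ⟨b, hb, t, rfl⟩ | ⟨b, hb, t, rfl⟩
      · exact ⟨0, b, by simpa using hb, t, by simp⟩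
      · exact ⟨1, b, by simpa using hb, t, by simp⟩)
  refine ⟨v, hv, ?_⟩
  simpa [Fin.sum_univ_two] using hvol

end Vale.Agent.Lib.P243
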