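import Vale.Agent.Lib.P243.RelE
import Vale.Agent.Lib.P243.Space

/-!
# The relative inequality for two cylinders in Euclidean 3-space

Auxiliary file for problem P243: translation of `core_rel` to a 3-dimensional inner product space
with an orthonormal frame, with areas measured by the 2-dimensional Euclidean Hausdorff measure,
and the final statement in `EuclideanSpace ℝ (Fin 3)`.
-/

namespace Vale.Agent.Lib.P243

open scoped RealInnerProductSpace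
open MeasureTheory

section Frame

variable {E : Type*} [NormedAddCommGroup E] [InnerProductSpace ℝ E]

variable {h1 h2 e : E}

/-- For a horizontal unit vector `u` (orthogonal to `e`) there is a horizontal unit vector `nE`
orthogonal to `u`, and the orthogonal projection along `u` is `x ↦ ⟪x, nE⟫ nE + ⟪x, e⟫ e`. -/
theorem IsFrame.horiz_data (hf : IsFrame h1 h2 e) (u : E) (hu : ‖u‖ = 1) (hue : ⟪u, e⟫ = 0) :
    ∃ nE : E, ‖nE‖ = 1 ∧ ⟪nE, e⟫ = 0 ∧ ⟪u, nE⟫ = 0 ∧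
      ∀ x : E, x - ⟪x, u⟫ • u = ⟪x, nE⟫ • nE + ⟪x, e⟫ • e := by
  have hfr := hf
  obtain ⟨n1, n2, n3, o12, o13, o23, hexp⟩ := hf
  have hcirc : ⟪u, h1⟫ ^ 2 + ⟪u, h2⟫ ^ 2 = 1 := by
    have h := hfr.inner_eq u u
    rw [real_inner_self_eq_norm_sq, hu, hue] at h
    linarith
  obtain ⟨nE, hnE⟩ : ∃ nE : E, nE = (-⟪u, h2⟫) • h1 + ⟪u, h1⟫ • h2 := ⟨_, rfl⟩
  have hnE1 : ∀ x, ⟪x, nE⟫ = -⟪u, h2⟫ * ⟪x, h1⟫ + ⟪u, h1⟫ * ⟪x, h2⟫ := by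
    intro x
    rw [hnE]
    simp only [inner_add_right, inner_smul_right]
  have hnorm : ‖nE‖ = 1 := by
    have h := norm_sq_comb n1 n2 o12 (-⟪u, h2⟫) ⟪u, h1⟫
    have h2' : ‖nE‖ ^ 2 = 1 ^ 2 := by
      rw [hnE, h]
      linarith
    exact (sq_eq_sq₀ (norm_nonneg _) zero_le_one).1 h2'
  have hnEe : ⟪nE, e⟫ = 0 := by
    rw [hnE]
    simp only [inner_add_left, inner_smul_left, conj_trivial]
    rw [o13, o23]
    ring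
  have hunE : ⟪u, nE⟫ = 0 := by
    rw [hnE1]
    ring
  refine ⟨nE, hnorm, hnEe, hunE, fun x => ?_⟩
  have hxu : ⟪x, u⟫ = ⟪x, h1⟫ * ⟪u, h1⟫ + ⟪x, h2⟫ * ⟪u, h2⟫ := by
    have h := hfr.inner_eq x u
    rw [hue] at h
    linarith
  have hl : x - ⟪x, u⟫ • u
      = (⟪x, h1⟫ - ⟪x, u⟫ * ⟪u, h1⟫) • h1 + (⟪x, h2⟫ - ⟪x, u⟫ * ⟪u, h2⟫) • h2 + ⟪x, e⟫ • e := by
    have hu' : u = ⟪u, h1⟫ • h1 + ⟪u, h2⟫ • h2 + (0 : ℝ) • e := by
      have := hexp u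
      rw [hue] at this
      exact this
    calc x - ⟪x, u⟫ • u
        = (⟪x, h1⟫ • h1 + ⟪x, h2⟫ • h2 + ⟪x, e⟫ • e)
            - ⟪x, u⟫ • (⟪u, h1⟫ • h1 + ⟪u, h2⟫ • h2 + (0 : ℝ) • e) := by
          rw [← hu', ← hexp x]
      _ = (⟪x, h1⟫ - ⟪x, u⟫ * ⟪u, h1⟫) • h1 + (⟪x, h2⟫ - ⟪x, u⟫ * ⟪u, h2⟫) • h2
            + ⟪x, e⟫ • e := by
          module
  have hr : ⟪x, nE⟫ • nE + ⟪x, e⟫ • e
      = (⟪x, nE⟫ * -⟪u, h2⟫) • h1 + (⟪x, nE⟫ * ⟪u, h1⟫) • h2 + ⟪x, e⟫ • e := by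
    rw [hnE]
    module
  rw [hl, hr]
  apply hfr.ext
  · rw [hfr.inner_h1, hfr.inner_h1, hnE1, hxu]
    linear_combination (-⟪x, h1⟫) * hcirc
  · rw [hfr.inner_h2, hfr.inner_h2, hnE1, hxu]
    linear_combination (-⟪x, h2⟫) * hcirc
  · rw [hfr.inner_e, hfr.inner_e]

variable [MeasurableSpace E] [BorelSpace E]

/-- The relative inequality for two cylinders with horizontal axes and measurable bases, in a space
with an orthonormal frame. -/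
theorem space_rel_meas (hf : IsFrame h1 h2 e) (K : Set E) (hK : Convex ℝ K) (hKc : IsCompact K)
    (hne : K.Nonempty) (u₁ u₂ : E) (hu₁ : ‖u₁‖ = 1) (hu₂ : ‖u₂‖ = 1)
    (hue₁ : ⟪u₁, e⟫ = 0) (hue₂ : ⟪u₂, e⟫ = 0)
    (B₁ B₂ : Set E) (hBm₁ : MeasurableSet B₁) (hBm₂ : MeasurableSet B₂)
    (hB₁ : ∀ b ∈ B₁, ⟪b, u₁⟫ = 0) (hB₂ : ∀ b ∈ B₂, ⟪b, u₂⟫ = 0)
    (hcov : ∀ x ∈ K, (∃ b ∈ B₁, ∃ t : ℝ, x = b + t • u₁) ∨ (∃ b ∈ B₂, ∃ t : ℝ, x = b + t • u₂)) :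
    ∃ ω₁ ω₂ L : ℝ, 0 ≤ ω₁ ∧ 0 ≤ ω₂ ∧ 0 ≤ L ∧
      Measure.euclideanHausdorffMeasure 2 ((fun x : E => x - ⟪x, u₁⟫ • u₁) '' K)
        ≤ ENNReal.ofReal ω₁ * ENNReal.ofReal L ∧
      Measure.euclideanHausdorffMeasure 2 ((fun x : E => x - ⟪x, u₂⟫ • u₂) '' K)
        ≤ ENNReal.ofReal ω₂ * ENNReal.ofReal L ∧
      ENNReal.ofReal (ω₁ * ω₂) * ENNReal.ofReal (L / 2)
        ≤ Measure.euclideanHausdorffMeasure 2 B₁ * ENNReal.ofReal ω₂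
          + Measure.euclideanHausdorffMeasure 2 B₂ * ENNReal.ofReal ω₁ := by
  have n3 : ‖e‖ = 1 := hf.2.2.1
  obtain ⟨nE₁, hn₁, hne₁, hun₁, hproj₁⟩ := hf.horiz_data u₁ hu₁ hue₁
  obtain ⟨nE₂, hn₂, hne₂, hun₂, hproj₂⟩ := hf.horiz_data u₂ hu₂ hue₂
  obtain ⟨K', hK'⟩ : ∃ K' : Set (E × ℝ), K' = (fun x : E => (x, ⟪x, e⟫)) '' K := ⟨_, rfl⟩
  have hK'c : IsCompact K' := by rw [hK']; exact hKc.image (by fun_prop)
  have hK'conv : Convex ℝ K' := by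
    rw [hK']
    rintro _ ⟨x, hx, rfl⟩ _ ⟨y, hy, rfl⟩ a b ha hb hab
    refine ⟨a • x + b • y, hK hx hy ha hb hab, ?_⟩
    ext
    · simp
    · simp [inner_add_left, inner_smul_left]
  have hK'ne : K'.Nonempty := by rw [hK']; exact hne.image _
  obtain ⟨B₁', hB₁'⟩ : ∃ B₁' : Set (ℝ × ℝ),
      B₁' = (fun q : ℝ × ℝ => q.1 • nE₁ + q.2 • e) ⁻¹' B₁ := ⟨_, rfl⟩
  obtain ⟨B₂', hB₂'⟩ : ∃ B₂' : Set (ℝ × ℝ),
      B₂' = (fun q : ℝ × ℝ => q.1 • nE₂ + q.2 • e) ⁻¹' B₂ := ⟨_, rfl⟩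
  have hB₁'m : MeasurableSet B₁' := by
    rw [hB₁']
    exact hBm₁.preimage (by fun_prop : Continuous fun q : ℝ × ℝ => q.1 • nE₁ + q.2 • e).measurable
  have hB₂'m : MeasurableSet B₂' := by
    rw [hB₂']
    exact hBm₂.preimage (by fun_prop : Continuous fun q : ℝ × ℝ => q.1 • nE₂ + q.2 • e).measurable
  have hdec₁ : ∀ b, ⟪b, u₁⟫ = 0 → ⟪b, nE₁⟫ • nE₁ + ⟪b, e⟫ • e = b := by
    intro b hb
    have h := hproj₁ b
    rw [hb, zero_smul, sub_zero] at h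
    exact h.symm
  have hdec₂ : ∀ b, ⟪b, u₂⟫ = 0 → ⟪b, nE₂⟫ • nE₂ + ⟪b, e⟫ • e = b := by
    intro b hb
    have h := hproj₂ b
    rw [hb, zero_smul, sub_zero] at h
    exact h.symm
  have hcov' : ∀ p ∈ K', (⟪p.1, nE₁⟫, p.2) ∈ B₁' ∨ (⟪p.1, nE₂⟫, p.2) ∈ B₂' := by
    rw [hK']
    rintro _ ⟨x, hx, rfl⟩
    rcases hcov x hx with ⟨b, hb, t, rfl⟩ | ⟨b, hb, t, rfl⟩
    · left
      rw [hB₁']
      show ⟪b + t • u₁, nE₁⟫ • nE₁ + ⟪b + t • u₁, e⟫ • e ∈ B₁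
      have e1 : ⟪b + t • u₁, nE₁⟫ = ⟪b, nE₁⟫ := by
        rw [inner_add_left, inner_smul_left, hun₁]
        simp
      have e2 : ⟪b + t • u₁, e⟫ = ⟪b, e⟫ := by
        rw [inner_add_left, inner_smul_left, hue₁]
        simp
      rw [e1, e2, hdec₁ b (hB₁ b hb)]
      exact hb
    · right
      rw [hB₂']
      show ⟪b + t • u₂, nE₂⟫ • nE₂ + ⟪b + t • u₂, e⟫ • e ∈ B₂
      have e1 : ⟪b + t • u₂, nE₂⟫ = ⟪b, nE₂⟫ := by
        rw [inner_add_left, inner_smul_left, hun₂]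
        simp
      have e2 : ⟪b + t • u₂, e⟫ = ⟪b, e⟫ := by
        rw [inner_add_left, inner_smul_left, hue₂]
        simp
      rw [e1, e2, hdec₂ b (hB₂ b hb)]
      exact hb
  obtain ⟨ω₁, ω₂, L, h1', h2', h3', hD₁, hD₂, hlow⟩ :=
    core_rel K' hK'conv hK'c hK'ne nE₁ nE₂ B₁' B₂' hB₁'m hB₂'m hcov'
  refine ⟨ω₁, ω₂, L, h1', h2', h3', ?_, ?_, ?_⟩
  · have himg : (fun x : E => x - ⟪x, u₁⟫ • u₁) '' K
        = (fun q : ℝ × ℝ => q.1 • nE₁ + q.2 • e) ''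
          ((fun p : E × ℝ => (⟪p.1, nE₁⟫, p.2)) '' K') := by
      rw [hK', Set.image_image, Set.image_image]
      apply Set.image_congr
      intro x _
      exact hproj₁ x
    rw [himg, area_image hn₁ n3 hne₁]
    exact hD₁
  · have himg : (fun x : E => x - ⟪x, u₂⟫ • u₂) '' K
        = (fun q : ℝ × ℝ => q.1 • nE₂ + q.2 • e) ''
          ((fun p : E × ℝ => (⟪p.1, nE₂⟫, p.2)) '' K') := by
      rw [hK', Set.image_image, Set.image_image]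
      apply Set.image_congr
      intro x _
      exact hproj₂ x
    rw [himg, area_image hn₂ n3 hne₂]
    exact hD₂
  · have hb₁ : B₁ = (fun q : ℝ × ℝ => q.1 • nE₁ + q.2 • e) '' B₁' := by
      ext b
      constructor
      · intro hb
        refine ⟨(⟪b, nE₁⟫, ⟪b, e⟫), ?_, hdec₁ b (hB₁ b hb)⟩
        rw [hB₁']
        show ⟪b, nE₁⟫ • nE₁ + ⟪b, e⟫ • e ∈ B₁
        rw [hdec₁ b (hB₁ b hb)]
        exact hb
      · rintro ⟨q, hq, rfl⟩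
        rw [hB₁'] at hq
        exact hq
    have hb₂ : B₂ = (fun q : ℝ × ℝ => q.1 • nE₂ + q.2 • e) '' B₂' := by
      ext b
      constructor
      · intro hb
        refine ⟨(⟪b, nE₂⟫, ⟪b, e⟫), ?_, hdec₂ b (hB₂ b hb)⟩
        rw [hB₂']
        show ⟪b, nE₂⟫ • nE₂ + ⟪b, e⟫ • e ∈ B₂
        rw [hdec₂ b (hB₂ b hb)]
        exact hb
      · rintro ⟨q, hq, rfl⟩
        rw [hB₂'] at hq
        exact hq
    have hv₁ : Measure.euclideanHausdorffMeasure 2 B₁ = volume B₁' := by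
      conv_lhs => rw [hb₁]
      exact area_image hn₁ n3 hne₁ B₁'
    have hv₂ : Measure.euclideanHausdorffMeasure 2 B₂ = volume B₂' := by
      conv_lhs => rw [hb₂]
      exact area_image hn₂ n3 hne₂ B₂'
    rw [hv₁, hv₂]
    exact hlow

/-- The relative inequality for two cylinders with horizontal axes and arbitrary bases (areas are
outer measures), in a space with an orthonormal frame. -/
theorem space_rel (hf : IsFrame h1 h2 e) (K : Set E) (hK : Convex ℝ K) (hKc : IsCompact K)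
    (hne : K.Nonempty) (u₁ u₂ : E) (hu₁ : ‖u₁‖ = 1) (hu₂ : ‖u₂‖ = 1)
    (hue₁ : ⟪u₁, e⟫ = 0) (hue₂ : ⟪u₂, e⟫ = 0)
    (B₁ B₂ : Set E) (hB₁ : ∀ b ∈ B₁, ⟪b, u₁⟫ = 0) (hB₂ : ∀ b ∈ B₂, ⟪b, u₂⟫ = 0)
    (hcov : ∀ x ∈ K, (∃ b ∈ B₁, ∃ t : ℝ, x = b + t • u₁) ∨ (∃ b ∈ B₂, ∃ t : ℝ, x = b + t • u₂)) :
    ∃ ω₁ ω₂ L : ℝ, 0 ≤ ω₁ ∧ 0 ≤ ω₂ ∧ 0 ≤ L ∧
      Measure.euclideanHausdorffMeasure 2 ((fun x : E => x - ⟪x, u₁⟫ • u₁) '' K)
        ≤ ENNReal.ofReal ω₁ * ENNReal.ofReal L ∧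
      Measure.euclideanHausdorffMeasure 2 ((fun x : E => x - ⟪x, u₂⟫ • u₂) '' K)
        ≤ ENNReal.ofReal ω₂ * ENNReal.ofReal L ∧
      ENNReal.ofReal (ω₁ * ω₂) * ENNReal.ofReal (L / 2)
        ≤ Measure.euclideanHausdorffMeasure 2 B₁ * ENNReal.ofReal ω₂
          + Measure.euclideanHausdorffMeasure 2 B₂ * ENNReal.ofReal ω₁ := by
  obtain ⟨T₁, hBT₁, hTm₁, hTeq₁⟩ :=
    exists_measurable_superset (Measure.euclideanHausdorffMeasure 2 : Measure E) B₁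
  obtain ⟨T₂, hBT₂, hTm₂, hTeq₂⟩ :=
    exists_measurable_superset (Measure.euclideanHausdorffMeasure 2 : Measure E) B₂
  have hm₁ : MeasurableSet (T₁ ∩ {b | ⟪b, u₁⟫ = 0}) :=
    hTm₁.inter (isClosed_eq (by fun_prop) continuous_const).measurableSet
  have hm₂ : MeasurableSet (T₂ ∩ {b | ⟪b, u₂⟫ = 0}) :=
    hTm₂.inter (isClosed_eq (by fun_prop) continuous_const).measurableSet
  obtain ⟨ω₁, ω₂, L, h1', h2', h3', hD₁, hD₂, hlow⟩ :=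
    space_rel_meas hf K hK hKc hne u₁ u₂ hu₁ hu₂ hue₁ hue₂ (T₁ ∩ {b | ⟪b, u₁⟫ = 0})
      (T₂ ∩ {b | ⟪b, u₂⟫ = 0}) hm₁ hm₂ (fun b hb => hb.2) (fun b hb => hb.2) (by
        intro x hx
        rcases hcov x hx with ⟨b, hb, t, rfl⟩ | ⟨b, hb, t, rfl⟩
        · exact Or.inl ⟨b, ⟨hBT₁ hb, hB₁ b hb⟩, t, rfl⟩
        · exact Or.inr ⟨b, ⟨hBT₂ hb, hB₂ b hb⟩, t, rfl⟩)
  refine ⟨ω₁, ω₂, L, h1', h2', h3', hD₁, hD₂, hlow.trans ?_⟩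
  have e₁ : Measure.euclideanHausdorffMeasure 2 (T₁ ∩ {b | ⟪b, u₁⟫ = 0})
      ≤ Measure.euclideanHausdorffMeasure 2 B₁ :=
    (measure_mono Set.inter_subset_left).trans hTeq₁.le
  have e₂ : Measure.euclideanHausdorffMeasure 2 (T₂ ∩ {b | ⟪b, u₂⟫ = 0})
      ≤ Measure.euclideanHausdorffMeasure 2 B₂ :=
    (measure_mono Set.inter_subset_left).trans hTeq₂.le
  exact add_le_add (mul_le_mul_left e₁ _) (mul_le_mul_left e₂ _)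

/-- The projection of a set with nonempty interior along a horizontal unit vector has positive
area. -/
theorem proj_pos (hf : IsFrame h1 h2 e) (K : Set E) (hKi : (interior K).Nonempty) (u : E)
    (hu : ‖u‖ = 1) (hue : ⟪u, e⟫ = 0) :
    0 < Measure.euclideanHausdorffMeasure 2 ((fun x : E => x - ⟪x, u⟫ • u) '' K) := by
  have n3 : ‖e‖ = 1 := hf.2.2.1
  obtain ⟨nE, hn, hnEe, hun, hproj⟩ := hf.horiz_data u hu hue
  obtain ⟨x₀, hx₀⟩ := hKi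
  obtain ⟨r, hr, hball⟩ := Metric.mem_nhds_iff.1 (mem_interior_iff_mem_nhds.1 hx₀)
  obtain ⟨S, hS⟩ : ∃ S : Set (ℝ × ℝ), S = Set.Ioo (⟪x₀, nE⟫ - r / 2) (⟪x₀, nE⟫ + r / 2)
      ×ˢ Set.Ioo (⟪x₀, e⟫ - r / 2) (⟪x₀, e⟫ + r / 2) := ⟨_, rfl⟩
  have hsub : (fun q : ℝ × ℝ => q.1 • nE + q.2 • e) '' S
      ⊆ (fun x : E => x - ⟪x, u⟫ • u) '' K := by
    rintro _ ⟨q, hq, rfl⟩
    rw [hS] at hq
    obtain ⟨hq1, hq2⟩ := hq
    refine ⟨x₀ + ((q.1 - ⟪x₀, nE⟫) • nE + (q.2 - ⟪x₀, e⟫) • e), hball ?_, ?_⟩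
    · rw [Metric.mem_ball, dist_eq_norm, add_sub_cancel_left]
      have hsq := norm_sq_comb hn n3 hnEe (q.1 - ⟪x₀, nE⟫) (q.2 - ⟪x₀, e⟫)
      have hs1 : -(r / 2) < q.1 - ⟪x₀, nE⟫ := by linarith [hq1.1]
      have hs2 : q.1 - ⟪x₀, nE⟫ < r / 2 := by linarith [hq1.2]
      have ht1 : -(r / 2) < q.2 - ⟪x₀, e⟫ := by linarith [hq2.1]
      have ht2 : q.2 - ⟪x₀, e⟫ < r / 2 := by linarith [hq2.2]
      have hlt : ‖(q.1 - ⟪x₀, nE⟫) • nE + (q.2 - ⟪x₀, e⟫) • e‖ ^ 2 < r ^ 2 := by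
        rw [hsq]
        nlinarith
      exact lt_of_pow_lt_pow_left₀ 2 hr.le hlt
    · show x₀ + ((q.1 - ⟪x₀, nE⟫) • nE + (q.2 - ⟪x₀, e⟫) • e)
          - ⟪x₀ + ((q.1 - ⟪x₀, nE⟫) • nE + (q.2 - ⟪x₀, e⟫) • e), u⟫ • u = q.1 • nE + q.2 • e
      rw [hproj]
      have e1 : ⟪x₀ + ((q.1 - ⟪x₀, nE⟫) • nE + (q.2 - ⟪x₀, e⟫) • e), nE⟫ = q.1 := by
        simp only [inner_add_left, inner_smul_left, conj_trivial]
        rw [real_inner_self_eq_norm_sq, hn, real_inner_comm nE e, hnEe]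
        ring
      have e2 : ⟪x₀ + ((q.1 - ⟪x₀, nE⟫) • nE + (q.2 - ⟪x₀, e⟫) • e), e⟫ = q.2 := by
        simp only [inner_add_left, inner_smul_left, conj_trivial]
        rw [real_inner_self_eq_norm_sq, n3, hnEe]
        ring
      rw [e1, e2]
  have hvS : 0 < volume S := by
    rw [hS, Measure.volume_eq_prod, Measure.prod_prod, Real.volume_Ioo, Real.volume_Ioo]
    apply ENNReal.mul_pos
    · rw [Ne, ENNReal.ofReal_eq_zero, not_le]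
      linarith
    · rw [Ne, ENNReal.ofReal_eq_zero, not_le]
      linarith
  calc 0 < volume S := hvS
    _ = Measure.euclideanHausdorffMeasure 2 ((fun q : ℝ × ℝ => q.1 • nE + q.2 • e) '' S) :=
        (area_image hn n3 hnEe S).symm
    _ ≤ _ := measure_mono hsub

end Frame

/-- **Relative (Bezdek–Khan) inequality for two cylinders.** -/
theorem relative_two
    (K : Set (EuclideanSpace ℝ (Fin 3))) (hK : Convex ℝ K) (hKc : IsCompact K)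
    (hKi : (interior K).Nonempty)
    (u₁ u₂ : EuclideanSpace ℝ (Fin 3)) (hu₁ : ‖u₁‖ = 1) (hu₂ : ‖u₂‖ = 1)
    (B₁ B₂ : Set (EuclideanSpace ℝ (Fin 3)))
    (hB₁ : ∀ b ∈ B₁, ⟪b, u₁⟫ = 0) (hB₂ : ∀ b ∈ B₂, ⟪b, u₂⟫ = 0)
    (hcov : ∀ x ∈ K,
      (∃ b ∈ B₁, ∃ t : ℝ, x = b + t • u₁) ∨ (∃ b ∈ B₂, ∃ t : ℝ, x = b + t • u₂)) :
    0 < Measure.euclideanHausdorffMeasure 2
        ((fun x : EuclideanSpace ℝ (Fin 3) => x - ⟪x, u₁⟫ • u₁) '' K) ∧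
    Measure.euclideanHausdorffMeasure 2
        ((fun x : EuclideanSpace ℝ (Fin 3) => x - ⟪x, u₁⟫ • u₁) '' K) < ⊤ ∧
    0 < Measure.euclideanHausdorffMeasure 2
        ((fun x : EuclideanSpace ℝ (Fin 3) => x - ⟪x, u₂⟫ • u₂) '' K) ∧
    Measure.euclideanHausdorffMeasure 2
        ((fun x : EuclideanSpace ℝ (Fin 3) => x - ⟪x, u₂⟫ • u₂) '' K) < ⊤ ∧
    (1 / 2 : ENNReal) ≤
      Measure.euclideanHausdorffMeasure 2 B₁
          / Measure.euclideanHausdorffMeasure 2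
              ((fun x : EuclideanSpace ℝ (Fin 3) => x - ⟪x, u₁⟫ • u₁) '' K)
        + Measure.euclideanHausdorffMeasure 2 B₂
          / Measure.euclideanHausdorffMeasure 2
              ((fun x : EuclideanSpace ℝ (Fin 3) => x - ⟪x, u₂⟫ • u₂) '' K) := by
  obtain ⟨e, he, he1, he2⟩ := exists_unit_orth u₁ u₂
  obtain ⟨h1, h2, hf⟩ := exists_frame e he
  have hne : K.Nonempty := hKi.mono interior_subset
  obtain ⟨ω₁, ω₂, L, hω₁, hω₂, hL, hD₁, hD₂, hlow⟩ :=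
    space_rel hf K hK hKc hne u₁ u₂ hu₁ hu₂ he1 he2 B₁ B₂ hB₁ hB₂ hcov
  have hpos₁ := proj_pos hf K hKi u₁ hu₁ he1
  have hpos₂ := proj_pos hf K hKi u₂ hu₂ he2
  obtain ⟨D₁, hD₁def⟩ : ∃ D₁, D₁ = Measure.euclideanHausdorffMeasure 2
      ((fun x : EuclideanSpace ℝ (Fin 3) => x - ⟪x, u₁⟫ • u₁) '' K) := ⟨_, rfl⟩
  obtain ⟨D₂, hD₂def⟩ : ∃ D₂, D₂ = Measure.euclideanHausdorffMeasure 2
      ((fun x : EuclideanSpace ℝ (Fin 3) => x - ⟪x, u₂⟫ • u₂) '' K) := ⟨_, rfl⟩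
  obtain ⟨b₁, hb₁def⟩ : ∃ b₁, b₁ = Measure.euclideanHausdorffMeasure 2 B₁ := ⟨_, rfl⟩
  obtain ⟨b₂, hb₂def⟩ : ∃ b₂, b₂ = Measure.euclideanHausdorffMeasure 2 B₂ := ⟨_, rfl⟩
  rw [← hD₁def] at hD₁ hpos₁
  rw [← hD₂def] at hD₂ hpos₂
  rw [← hb₁def, ← hb₂def] at hlow
  rw [← hD₁def, ← hD₂def, ← hb₁def, ← hb₂def]
  obtain ⟨A, hA⟩ : ∃ A, A = ENNReal.ofReal ω₁ := ⟨_, rfl⟩
  obtain ⟨B, hB⟩ : ∃ B, B = ENNReal.ofReal ω₂ := ⟨_, rfl⟩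
  obtain ⟨Λ, hΛ⟩ : ∃ Λ, Λ = ENNReal.ofReal L := ⟨_, rfl⟩
  rw [← hA, ← hΛ] at hD₁
  rw [← hB, ← hΛ] at hD₂
  have hAtop : A ≠ ⊤ := by rw [hA]; exact ENNReal.ofReal_ne_top
  have hBtop : B ≠ ⊤ := by rw [hB]; exact ENNReal.ofReal_ne_top
  have hΛtop : Λ ≠ ⊤ := by rw [hΛ]; exact ENNReal.ofReal_ne_top
  have hA0 : A ≠ 0 := by
    intro h
    rw [h, zero_mul] at hD₁
    exact (not_le.2 hpos₁) hD₁
  have hB0 : B ≠ 0 := by
    intro h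
    rw [h, zero_mul] at hD₂
    exact (not_le.2 hpos₂) hD₂
  have hΛ0 : Λ ≠ 0 := by
    intro h
    rw [h, mul_zero] at hD₁
    exact (not_le.2 hpos₁) hD₁
  have hfin₁ : D₁ < ⊤ := lt_of_le_of_lt hD₁ (ENNReal.mul_lt_top hAtop.lt_top hΛtop.lt_top)
  have hfin₂ : D₂ < ⊤ := lt_of_le_of_lt hD₂ (ENNReal.mul_lt_top hBtop.lt_top hΛtop.lt_top)
  refine ⟨hpos₁, hfin₁, hpos₂, hfin₂, ?_⟩
  have hlow' : (1 / 2 : ENNReal) * (A * B * Λ) ≤ b₁ * B + b₂ * A := by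
    have e : ENNReal.ofReal (ω₁ * ω₂) * ENNReal.ofReal (L / 2) = (1 / 2 : ENNReal) * (A * B * Λ) := by
      rw [ENNReal.ofReal_mul hω₁, ENNReal.ofReal_div_of_pos (by norm_num : (0 : ℝ) < 2), ← hA, ← hB,
        ← hΛ]
      simp only [ENNReal.ofReal_ofNat]
      rw [div_eq_mul_inv, one_div]
      ring
    rw [← e, hA, hB]
    exact hlow
  have hZ0 : A * B * Λ ≠ 0 := mul_ne_zero (mul_ne_zero hA0 hB0) hΛ0
  have hZtop : A * B * Λ ≠ ⊤ := ENNReal.mul_ne_top (ENNReal.mul_ne_top hAtop hBtop) hΛtop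
  calc (1 / 2 : ENNReal) ≤ (b₁ * B + b₂ * A) / (A * B * Λ) := by
        rw [ENNReal.le_div_iff_mul_le (Or.inl hZ0) (Or.inl hZtop)]
        exact hlow'
    _ = b₁ * B / (A * B * Λ) + b₂ * A / (A * B * Λ) := ENNReal.div_add_div_same.symm
    _ = b₁ / (A * Λ) + b₂ / (B * Λ) := by
        congr 1
        · have e : A * B * Λ = A * Λ * B := by ring
          rw [e, ENNReal.mul_div_mul_right _ _ hB0 hBtop]
        · have e : A * B * Λ = B * Λ * A := by ring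
          rw [e, ENNReal.mul_div_mul_right _ _ hA0 hAtop]
    _ ≤ b₁ / D₁ + b₂ / D₂ :=
        add_le_add (ENNReal.div_le_div_left hD₁ _) (ENNReal.div_le_div_left hD₂ _)

end Vale.Agent.Lib.P243
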